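import Vale.Agent.P037.AltSum

/-!
Thresholds with a margin: bands, offsets and the high relation.
-/

namespace Vale.Agent.P037

open Finset

variable {n : ℕ}

/-- `x` lies in the `j`-th family of bands. -/
def inBand (h g j x : ℕ) : Prop := ∃ i, 2 * h * j + i * g ≤ x ∧ x < 2 * h * (j + 1) + i * g

lemma inBand_unique (h g J x j j' : ℕ) (hJ : J * (2 * h) ≤ g) (hj : j < J) (hj' : j' < J)
    (h1 : inBand h g j x) (h2 : inBand h g j' x) : j = j' := by
  obtain ⟨i, hi1, hi2⟩ := h1
  obtain ⟨i', hi1', hi2'⟩ := h2
  have hb : 2 * h * (j + 1) ≤ g := by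
    calc 2 * h * (j + 1) = (j + 1) * (2 * h) := by ring
      _ ≤ J * (2 * h) := Nat.mul_le_mul_right _ hj
      _ ≤ g := hJ
  have hb' : 2 * h * (j' + 1) ≤ g := by
    calc 2 * h * (j' + 1) = (j' + 1) * (2 * h) := by ring
      _ ≤ J * (2 * h) := Nat.mul_le_mul_right _ hj'
      _ ≤ g := hJ
  have hii : i = i' := by
    rcases lt_trichotomy i i' with hlt | heq | hgt
    · exfalso
      have : (i + 1) * g ≤ i' * g := Nat.mul_le_mul_right _ hlt
      have e : (i + 1) * g = i * g + g := by ring
      have : 0 ≤ 2 * h * j' := Nat.zero_le _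
      omega
    · exact heq
    · exfalso
      have : (i' + 1) * g ≤ i * g := Nat.mul_le_mul_right _ hgt
      have e : (i' + 1) * g = i' * g + g := by ring
      have : 0 ≤ 2 * h * j := Nat.zero_le _
      omega
  subst hii
  rcases lt_trichotomy j j' with hlt | heq | hgt
  · exfalso
    have : 2 * h * (j + 1) ≤ 2 * h * j' := Nat.mul_le_mul_left _ hlt
    omega
  · exact heq
  · exfalso
    have : 2 * h * (j' + 1) ≤ 2 * h * j := Nat.mul_le_mul_left _ hgt
    omega

open Classical in
lemma exists_offset (h g J : ℕ) (hJpos : 0 < J) (hJ : J * (2 * h) ≤ g) (x : Fin n → ℕ) :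
    ∃ j, j < J ∧ J * (univ.filter fun r => inBand h g j (x r)).card ≤ n := by
  by_contra hcon
  have hcon' : ∀ j ∈ range J, n < J * (univ.filter fun r => inBand h g j (x r)).card := by
    intro j hj
    by_contra hle
    exact hcon ⟨j, mem_range.mp hj, not_lt.mp hle⟩
  have hsum : ∑ j ∈ range J, (univ.filter fun r => inBand h g j (x r)).card ≤ n := by
    calc ∑ j ∈ range J, (univ.filter fun r => inBand h g j (x r)).card
        = ∑ r : Fin n, ((range J).filter fun j => inBand h g j (x r)).card := by
          simp only [card_filter]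
          rw [sum_comm]
      _ ≤ ∑ _r : Fin n, 1 := by
          apply sum_le_sum
          intro r _
          apply card_le_one.mpr
          intro a ha b hb
          have ha' := mem_filter.mp ha
          have hb' := mem_filter.mp hb
          exact inBand_unique h g J (x r) a b hJ (mem_range.mp ha'.1) (mem_range.mp hb'.1)
            ha'.2 hb'.2
      _ = n := by simp
  have hlt : ∑ _j ∈ range J, n < ∑ j ∈ range J, J * (univ.filter fun r => inBand h g j (x r)).card :=
    sum_lt_sum_of_nonempty (by simpa using hJpos.ne') hcon'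
  rw [sum_const, card_range, smul_eq_mul, ← mul_sum] at hlt
  have := Nat.mul_le_mul_left J hsum
  omega

/-- The row `r` is above the threshold number `i` of the window `v`. -/
def high (A : Fin n → Fin n → Bool) (w g h : ℕ) (jj : ℕ → ℕ) (r : Fin n) (v i : ℕ) : Prop :=
  h + 2 * h * jj v + i * g < cnt A w r v + g

instance (A : Fin n → Fin n → Bool) (w g h : ℕ) (jj : ℕ → ℕ) (r : Fin n) (v i : ℕ) :
    Decidable (high A w g h jj r v i) := by
  unfold high
  infer_instance

lemma column_fit (A : Fin n → Fin n → Bool) (w g h I : ℕ) (jj : ℕ → ℕ) (hw : 0 < w)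
    (hoff : ∀ v, h + 2 * h * jj v < g) (hI : w + g ≤ I * g) (c : Fin n) :
    ∃ i, i ≤ I ∧ ((univ.filter fun r : Fin n => decide (high A w g h jj r (c.val / w) i) ≠ A r c).card) ^ 2
      ≤ 4 * invc A w g c := by
  have key := fit_abstract (fun r : Fin n => A r c)
    (fun i r => high A w g h jj r (c.val / w) i) I
    (by
      intro r
      unfold high
      have := hoff (c.val / w)
      simp only [zero_mul, add_zero]
      omega)
    (by
      intro r
      unfold high
      have := cnt_le A w hw r (c.val / w)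
      have h0 : 0 ≤ h + 2 * h * jj (c.val / w) := Nat.zero_le _
      omega)
    (fun r s => cnt A w r (c.val / w) < cnt A w s (c.val / w) + g)
    (by
      intro i r s h1 h2
      unfold high at h1 h2
      have e : (i + 1) * g = i * g + g := by ring
      omega)
  exact key

/-- If two rows outside the bands are separated by a threshold, the upper has at least `h`
private columns. -/
lemma margin_la (A : Fin n → Fin n → Bool) (w g h : ℕ) (jj : ℕ → ℕ) (hh : 0 < h)
    (r s : Fin n) (v i : ℕ)
    (hr : ¬ inBand h g (jj v) (cnt A w r v + g)) (hs : ¬ inBand h g (jj v) (cnt A w s v + g))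
    (h1 : high A w g h jj r v i) (h2 : ¬ high A w g h jj s v i) : h ≤ la A w r s v := by
  unfold high at h1 h2
  have e : 2 * h * (jj v + 1) = 2 * h * jj v + 2 * h := by ring
  have hr' : ¬ (2 * h * jj v + i * g ≤ cnt A w r v + g ∧
      cnt A w r v + g < 2 * h * (jj v + 1) + i * g) := fun hc => hr ⟨i, hc.1, hc.2⟩
  have hs' : ¬ (2 * h * jj v + i * g ≤ cnt A w s v + g ∧
      cnt A w s v + g < 2 * h * (jj v + 1) + i * g) := fun hc => hs ⟨i, hc.1, hc.2⟩
  have hid := cnt_add_lb A w r s v
  omega

lemma margin_lb (A : Fin n → Fin n → Bool) (w g h : ℕ) (jj : ℕ → ℕ) (hh : 0 < h)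
    (r s : Fin n) (v i : ℕ)
    (hr : ¬ inBand h g (jj v) (cnt A w r v + g)) (hs : ¬ inBand h g (jj v) (cnt A w s v + g))
    (h1 : ¬ high A w g h jj r v i) (h2 : high A w g h jj s v i) : h ≤ lb A w r s v := by
  rw [← la_swap]
  exact margin_la A w g h jj hh s r v i hs hr h2 h1

end Vale.Agent.P037
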