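import Vale.Agent.P037.Two

/-! Averaging over sampled tuples of rows and the cover of a pair of rows. -/

namespace Vale.Agent.P037

open Finset

variable {n m : ℕ}

/-- For two rows, a small set of columns hits all copies of a `2 × 2` pattern with distinct
columns. -/
lemma exists_cover (H : Fin 2 → Fin 2 → Bool) (hH : H 0 0 ≠ H 0 1 ∨ H 1 0 ≠ H 1 1)
    (A : Fin n → Fin n → Bool) (a b : Fin n) :
    ∃ (Cov : Finset (Fin n)) (y : ℕ), Cov.card ≤ 2 * y ∧ y * y ≤ patCount H A a b ∧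
      ∀ c d, IsPat H A a b c d → c ∈ Cov ∨ d ∈ Cov := by
  classical
  let P : Finset (Fin n) := univ.filter fun c => a < b ∧ A a c = H 0 0 ∧ A b c = H 1 0
  let Q : Finset (Fin n) := univ.filter fun d => a < b ∧ A a d = H 0 1 ∧ A b d = H 1 1
  have hPQ : Disjoint P Q := by
    rw [disjoint_left]
    intro x hx hy
    simp only [P, Q, mem_filter, mem_univ, true_and] at hx hy
    rcases hH with h | h
    · exact h (hx.2.1.symm.trans hy.2.1)
    · exact h (hx.2.2.symm.trans hy.2.2)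
  obtain ⟨U, _, hup, hbal, hpairs⟩ := balanced_pairs (fun x y : Fin n => x < y) univ P Q
    (subset_univ _) (subset_univ _) hPQ (fun a _ => lt_irrefl a)
    (fun a _ b _ c _ h1 h2 => h1.trans h2) (fun a _ b _ h => lt_or_gt_of_ne h)
  refine ⟨(P \ U) ∪ (Q ∩ U), (P \ U).card, ?_, ?_, ?_⟩
  · have := card_union_le (P \ U) (Q ∩ U)
    omega
  · refine hpairs.trans (card_le_card ?_)
    intro x hx
    simp only [mem_filter, mem_product, P, Q, mem_univ, true_and] at hx
    simp only [mem_filter, mem_univ, true_and]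
    exact ⟨hx.1.1.1, hx.2, hx.1.1.2.1, hx.1.2.2.1, hx.1.1.2.2, hx.1.2.2.2⟩
  · intro c d hp
    obtain ⟨hab, hcd, h1, h2, h3, h4⟩ := hp
    have hc : c ∈ P := by simp [P, hab, h1, h3]
    have hd : d ∈ Q := by simp [Q, hab, h2, h4]
    by_cases hcU : c ∈ U
    · exact Or.inr (mem_union_right _ (mem_inter.mpr ⟨hd, hup c hcU d (mem_univ _) hcd⟩))
    · exact Or.inl (mem_union_left _ (mem_sdiff.mpr ⟨hc, hcU⟩))

/-- Sum over tuples of the number of rows of `Q` not seen: general form. -/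
lemma sum_tuple_tail (Q : Finset (Fin n)) (T : Fin n → Finset (Fin n))
    (hmem : ∀ r ∈ Q, r ∈ T r)
    (hchain : ∀ r ∈ Q, ∀ r' ∈ Q, r ≠ r' → (T r).card ≠ (T r').card) :
    (m + 1) * ∑ r ∈ Q, ((univ : Finset (Fin m → Fin n)).filter fun σ => ∀ i, σ i ∉ T r).card
      ≤ n ^ (m + 1) := by
  classical
  have h1 : ∀ r ∈ Q, ((univ : Finset (Fin m → Fin n)).filter fun σ => ∀ i, σ i ∉ T r).card
      = (n - (T r).card) ^ m := fun r _ => card_tuple_avoid (T r)
  rw [sum_congr rfl h1]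
  have hle : ∀ r, (T r).card ≤ n := fun r => by
    simpa using card_le_univ (T r)
  have hinj : Set.InjOn (fun r => n - (T r).card) (Q : Set (Fin n)) := by
    intro r hr r' hr' h
    by_contra hne
    apply hchain r hr r' hr' hne
    have h1 := hle r
    have h2 := hle r'
    simp only at h
    omega
  have h2 : ∑ r ∈ Q, (n - (T r).card) ^ m = ∑ x ∈ Q.image (fun r => n - (T r).card), x ^ m := by
    rw [sum_image hinj]
  have h3 : Q.image (fun r => n - (T r).card) ⊆ range n := by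
    intro x hx
    simp only [mem_image] at hx
    obtain ⟨r, hr, rfl⟩ := hx
    have : 0 < (T r).card := card_pos.mpr ⟨r, hmem r hr⟩
    have h4 := hle r
    simp only [mem_range]
    omega
  rw [h2]
  refine le_trans (Nat.mul_le_mul_left _ (sum_le_sum_of_subset h3)) (sum_range_pow_mul_le n m)

/-- Choosing a good tuple by averaging three quantities. -/
lemma exists_tuple_le (hn : 0 < n) (G T V : (Fin m → Fin n) → ℝ) (α β γ : ℝ)
    (hα : 0 < α) (hβ : 0 < β) (hγ : 0 < γ)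
    (hG0 : ∀ σ, 0 ≤ G σ) (hT0 : ∀ σ, 0 ≤ T σ) (hV0 : ∀ σ, 0 ≤ V σ)
    (hG : ∑ σ, G σ ≤ α * n ^ m) (hT : ∑ σ, T σ ≤ β * n ^ m) (hV : ∑ σ, V σ ≤ γ * n ^ m) :
    ∃ σ, G σ ≤ 3 * α ∧ T σ ≤ 3 * β ∧ V σ ≤ 3 * γ := by
  classical
  have : Nonempty (Fin n) := ⟨⟨0, hn⟩⟩
  have hcard : ((univ : Finset (Fin m → Fin n)).card : ℝ) = n ^ m := by
    simp
  have hsum : ∑ σ : Fin m → Fin n, (G σ / α + T σ / β + V σ / γ)
      ≤ ∑ σ : Fin m → Fin n, (3 : ℝ) := by
    rw [sum_const, nsmul_eq_mul, hcard, sum_add_distrib, sum_add_distrib, ← sum_div, ← sum_div,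
      ← sum_div]
    have hpow : (0 : ℝ) < n ^ m := by positivity
    have h1 : (∑ σ, G σ) / α ≤ n ^ m := by
      rw [div_le_iff₀ hα]; linarith
    have h2 : (∑ σ, T σ) / β ≤ n ^ m := by
      rw [div_le_iff₀ hβ]; linarith
    have h3 : (∑ σ, V σ) / γ ≤ n ^ m := by
      rw [div_le_iff₀ hγ]; linarith
    linarith
  obtain ⟨σ, -, hσ⟩ := exists_le_of_sum_le (s := (univ : Finset (Fin m → Fin n))) univ_nonempty hsum
  have a1 : 0 ≤ G σ / α := div_nonneg (hG0 σ) hα.le
  have a2 : 0 ≤ T σ / β := div_nonneg (hT0 σ) hβ.le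
  have a3 : 0 ≤ V σ / γ := div_nonneg (hV0 σ) hγ.le
  refine ⟨σ, ?_, ?_, ?_⟩
  · have : G σ / α ≤ 3 := by linarith
    rw [div_le_iff₀ hα] at this; linarith
  · have : T σ / β ≤ 3 := by linarith
    rw [div_le_iff₀ hβ] at this; linarith
  · have : V σ / γ ≤ 3 := by linarith
    rw [div_le_iff₀ hγ] at this; linarith

/-- Average of the sum of a function of a sampled row. -/
lemma sum_tuple_sum_eval (f : Fin n → ℝ) :
    ∑ σ : Fin m → Fin n, ∑ i, f (σ i) = m * n ^ (m - 1) * ∑ a, f a := by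
  rw [sum_comm]
  simp_rw [sum_tuple_eval]
  rw [sum_const, card_univ, Fintype.card_fin, nsmul_eq_mul]
  ring

/-- Average of the sum over pairs of sampled rows of a nonnegative function vanishing on the
diagonal. -/
lemma sum_tuple_sum_pairs_le (f : Fin n → Fin n → ℝ) (hdiag : ∀ a, f a a = 0)
    (hf : ∀ a b, 0 ≤ f a b) :
    ∑ σ : Fin m → Fin n, ∑ i, ∑ j, f (σ i) (σ j) ≤ m ^ 2 * n ^ (m - 2) * ∑ a, ∑ b, f a b := by
  classical
  rw [sum_comm]
  have h0 : (0:ℝ) ≤ n ^ (m - 2) * ∑ a, ∑ b, f a b :=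
    mul_nonneg (by positivity) (sum_nonneg fun a _ => sum_nonneg fun b _ => hf a b)
  have h1 : ∀ i : Fin m, ∑ σ : Fin m → Fin n, ∑ j, f (σ i) (σ j)
      ≤ m * (n ^ (m - 2) * ∑ a, ∑ b, f a b) := by
    intro i
    rw [sum_comm]
    have h2 : ∀ j : Fin m, ∑ σ : Fin m → Fin n, f (σ i) (σ j)
        ≤ n ^ (m - 2) * ∑ a, ∑ b, f a b := by
      intro j
      by_cases hij : i = j
      · subst hij
        simp only [hdiag, sum_const_zero]
        exact h0
      · exact le_of_eq (sum_tuple_eval₂ i j hij f)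
    refine (sum_le_sum fun j _ => h2 j).trans ?_
    rw [sum_const, card_univ, Fintype.card_fin, nsmul_eq_mul]
  refine (sum_le_sum fun i _ => h1 i).trans ?_
  rw [sum_const, card_univ, Fintype.card_fin, nsmul_eq_mul]
  apply le_of_eq
  ring

end Vale.Agent.P037
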