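import Vale.Agent.P037.GammaCore
import Vale.Agent.P037.Sampling

/-! Removal for the pattern `[[1,1],[1,0]]`: the counting part. -/

namespace Vale.Agent.P037

open Finset

variable {n m : ℕ}

/-- The tail sum over tuples is small. -/
lemma sum_tailG_le (A : Fin n → Fin n → Bool) :
    (m + 1) * ∑ σ : Fin m → Fin n, ∑ r, tailG A σ r ≤ n ^ 2 * n ^ (m + 1) := by
  classical
  have h1 : ∑ σ : Fin m → Fin n, ∑ r, tailG A σ r
      = ∑ x : Fin n × Fin n, ∑ σ : Fin m → Fin n, ∑ r,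
          if x.1 < x.2 ∧ A r x.1 = true ∧ A r x.2 = true ∧ ¬ Both A σ r x.1 x.2 then (1 : ℕ) else 0 := by
    simp only [tailG, card_filter]
    rw [Finset.sum_comm (s := (univ : Finset (Fin n × Fin n)))]
    refine sum_congr rfl fun σ _ => ?_
    rw [Finset.sum_comm]
  rw [h1, mul_sum]
  have hbound : ∀ x : Fin n × Fin n, (m + 1) * ∑ σ : Fin m → Fin n, ∑ r,
      (if x.1 < x.2 ∧ A r x.1 = true ∧ A r x.2 = true ∧ ¬ Both A σ r x.1 x.2 then (1 : ℕ) else 0)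
      ≤ n ^ (m + 1) := by
    intro x
    let Q : Finset (Fin n) := univ.filter fun s => A s x.1 = true ∧ A s x.2 = true
    let T : Fin n → Finset (Fin n) := fun r => Q.filter fun s => s ≤ r
    have hmem : ∀ r ∈ Q, r ∈ T r := fun r hr => mem_filter.mpr ⟨hr, le_refl r⟩
    have hchain : ∀ r ∈ Q, ∀ r' ∈ Q, r ≠ r' → (T r).card ≠ (T r').card := by
      have aux : ∀ r ∈ Q, ∀ r' ∈ Q, r < r' → (T r).card < (T r').card := by
        intro r _ r' hr' hlt
        apply card_lt_card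
        refine ⟨fun s hs => ?_, fun hsub => ?_⟩
        · have hs' := mem_filter.mp hs
          exact mem_filter.mpr ⟨hs'.1, hs'.2.trans hlt.le⟩
        · have := hsub (hmem r' hr')
          have h2 := (mem_filter.mp this).2
          exact absurd h2 (not_le.mpr hlt)
      intro r hr r' hr' hne
      rcases lt_or_gt_of_ne hne with h | h
      · exact (aux r hr r' hr' h).ne
      · exact (aux r' hr' r hr h).ne'
    have h2 := sum_tuple_tail (m := m) Q T hmem hchain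
    refine le_trans (Nat.mul_le_mul_left _ ?_) h2
    rw [sum_comm]
    have h3 : ∀ r, ∑ σ : Fin m → Fin n,
        (if x.1 < x.2 ∧ A r x.1 = true ∧ A r x.2 = true ∧ ¬ Both A σ r x.1 x.2 then (1 : ℕ) else 0)
        ≤ if r ∈ Q then ((univ : Finset (Fin m → Fin n)).filter fun σ => ∀ i, σ i ∉ T r).card
          else 0 := by
      intro r
      by_cases hr : r ∈ Q
      · rw [if_pos hr, ← card_filter]
        apply card_le_card
        intro σ hσ
        simp only [mem_filter, mem_univ, true_and] at hσ ⊢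
        intro i hi
        have hi' := mem_filter.mp hi
        have hiQ := mem_filter.mp hi'.1
        exact hσ.2.2.2 ⟨i, hi'.2, hiQ.2.1, hiQ.2.2⟩
      · rw [if_neg hr]
        apply le_of_eq
        apply sum_eq_zero
        intro σ _
        rw [if_neg]
        rintro ⟨_, h1, h2, _⟩
        exact hr (mem_filter.mpr ⟨mem_univ _, h1, h2⟩)
    refine (sum_le_sum fun r _ => h3 r).trans ?_
    rw [← sum_filter]
    apply le_of_eq
    refine sum_congr ?_ fun _ _ => rfl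
    ext r
    simp
  refine (sum_le_sum fun x _ => hbound x).trans ?_
  rw [sum_const, card_univ, Fintype.card_prod, Fintype.card_fin, smul_eq_mul, sq]

/-- The choice of a good sample of rows. -/
theorem gamma_sample (hn : 1 ≤ n) (A : Fin n → Fin n → Bool) (η : ℝ) (m : ℕ)
    (hη : 0 < η) (hm2 : 2 ≤ m)
    (hN : (copies patG A : ℝ) < η ^ 2 * n ^ 4) :
    ∃ (σ : Fin m → Fin n) (D₁ : Finset (Fin n)),
      (∀ i j c d, IsPat patG A (σ i) (σ j) c d → c ∈ D₁ ∨ d ∈ D₁) ∧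
      (D₁.card : ℝ) ≤ 6 * (m ^ 2 * η) * n ∧
      ∑ r, (genG A σ r : ℝ) ≤ 3 * (m * η ^ 2 * n ^ 3) ∧
      ∑ r, (tailG A σ r : ℝ) ≤ 3 * ((n : ℝ) ^ 3 / (m + 1)) := by
  classical
  have hn0 : 0 < n := hn
  have hnR : (0 : ℝ) < n := by exact_mod_cast hn0
  have hm0 : 0 < m := by omega
  have hmR : (0 : ℝ) < m := by exact_mod_cast hm0
  -- covers
  have hH : patG 0 0 ≠ patG 0 1 ∨ patG 1 0 ≠ patG 1 1 := by simp [patG]
  choose Cov y hCov hy hhit using fun (a b : Fin n) => exists_cover patG hH A a b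
  have hydiag : ∀ a, y a a = 0 := by
    intro a
    have h := hy a a
    have h0 : patCount patG A a a = 0 := by
      simp only [patCount, card_eq_zero, filter_eq_empty_iff]
      intro x _ hx
      exact lt_irrefl _ hx.1
    rw [h0] at h
    exact mul_self_eq_zero.mp (Nat.le_zero.mp h)
  -- total of y
  have hcopies : (copies patG A : ℝ) = ∑ a, ∑ b, (patCount patG A a b : ℝ) := by
    rw [copies_eq_sum]; push_cast; rfl
  have hY : (∑ a, ∑ b, (y a b : ℝ)) ≤ η * n ^ 3 := by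
    have hcs : (∑ p : Fin n × Fin n, (y p.1 p.2 : ℝ)) ^ 2
        ≤ (univ : Finset (Fin n × Fin n)).card * ∑ p : Fin n × Fin n, (y p.1 p.2 : ℝ) ^ 2 :=
      sq_sum_le_card_mul_sum_sq
    have hsum : ∑ p : Fin n × Fin n, (y p.1 p.2 : ℝ) = ∑ a, ∑ b, (y a b : ℝ) := by
      rw [Fintype.sum_prod_type]
    have hsum2 : ∑ p : Fin n × Fin n, (y p.1 p.2 : ℝ) ^ 2 ≤ (copies patG A : ℝ) := by
      rw [Fintype.sum_prod_type, hcopies]
      refine sum_le_sum fun a _ => sum_le_sum fun b _ => ?_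
      rw [sq]
      exact_mod_cast hy a b
    have hc : ((univ : Finset (Fin n × Fin n)).card : ℝ) = n ^ 2 := by
      simp [sq]
    rw [hsum, hc] at hcs
    have hlt : (∑ a, ∑ b, (y a b : ℝ)) ^ 2 ≤ (η * n ^ 3) ^ 2 := by
      calc (∑ a, ∑ b, (y a b : ℝ)) ^ 2 ≤ n ^ 2 * ∑ p : Fin n × Fin n, (y p.1 p.2 : ℝ) ^ 2 := hcs
        _ ≤ n ^ 2 * (η ^ 2 * n ^ 4) := by
          apply mul_le_mul_of_nonneg_left (hsum2.trans hN.le) (by positivity)
        _ = (η * n ^ 3) ^ 2 := by ring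
    exact abs_le_of_sq_le_sq' hlt (by positivity) |>.2
  -- the three quantities
  let G : (Fin m → Fin n) → ℝ := fun σ => ∑ r, (genG A σ r : ℝ)
  let T : (Fin m → Fin n) → ℝ := fun σ => ∑ r, (tailG A σ r : ℝ)
  let V : (Fin m → Fin n) → ℝ := fun σ => ∑ i, ∑ j, (y (σ i) (σ j) : ℝ)
  have hpowm : (n : ℝ) ^ (m - 1) * n = n ^ m := by
    rw [← pow_succ]; congr 1; omega
  have hpowm2 : (n : ℝ) ^ (m - 2) * n ^ 2 = n ^ m := by
    rw [← pow_add]; congr 1; omega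
  have hG : ∑ σ, G σ ≤ (m * η ^ 2 * n ^ 3) * n ^ m := by
    have e1 : ∀ σ : Fin m → Fin n, G σ = ∑ i, ∑ r, (patCount patG A (σ i) r : ℝ) := by
      intro σ
      change ∑ r, ((∑ i, patCount patG A (σ i) r : ℕ) : ℝ) = _
      push_cast
      rw [sum_comm]
    rw [sum_congr rfl fun σ _ => e1 σ]
    rw [sum_tuple_sum_eval (fun a => ∑ r, (patCount patG A a r : ℝ)), ← hcopies]
    have h0 : (m : ℝ) * n ^ (m - 1) * (copies patG A : ℝ)
        ≤ m * n ^ (m - 1) * (η ^ 2 * n ^ 4) :=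
      mul_le_mul_of_nonneg_left hN.le (by positivity)
    refine h0.trans (le_of_eq ?_)
    calc (m : ℝ) * n ^ (m - 1) * (η ^ 2 * n ^ 4) = m * η ^ 2 * n ^ 3 * (n ^ (m - 1) * n) := by ring
      _ = _ := by rw [hpowm]
  have hT : ∑ σ, T σ ≤ ((n : ℝ) ^ 3 / (m + 1)) * n ^ m := by
    have h := sum_tailG_le (m := m) A
    have h' : ((m : ℝ) + 1) * ∑ σ : Fin m → Fin n, ∑ r, (tailG A σ r : ℝ)
        ≤ n ^ 2 * n ^ (m + 1) := by exact_mod_cast h
    have hpos : (0 : ℝ) < (m : ℝ) + 1 := by positivity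
    change ∑ σ : Fin m → Fin n, ∑ r, (tailG A σ r : ℝ) ≤ _
    rw [div_mul_eq_mul_div, le_div_iff₀ hpos, mul_comm]
    refine h'.trans (le_of_eq ?_)
    ring
  have hV : ∑ σ, V σ ≤ ((m : ℝ) ^ 2 * η * n) * n ^ m := by
    change ∑ σ : Fin m → Fin n, ∑ i, ∑ j, (y (σ i) (σ j) : ℝ) ≤ _
    have h := sum_tuple_sum_pairs_le (m := m) (fun a b => (y a b : ℝ))
      (fun a => by simp [hydiag a]) (fun a b => by positivity)
    refine h.trans ?_
    have h0 : (m : ℝ) ^ 2 * n ^ (m - 2) * ∑ a, ∑ b, (y a b : ℝ)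
        ≤ m ^ 2 * n ^ (m - 2) * (η * n ^ 3) :=
      mul_le_mul_of_nonneg_left hY (by positivity)
    refine h0.trans (le_of_eq ?_)
    calc (m : ℝ) ^ 2 * n ^ (m - 2) * (η * n ^ 3) = m ^ 2 * η * n * (n ^ (m - 2) * n ^ 2) := by ring
      _ = _ := by rw [hpowm2]
  obtain ⟨σ, hGσ, hTσ, hVσ⟩ := exists_tuple_le hn0 G T V (m * η ^ 2 * n ^ 3) ((n : ℝ) ^ 3 / (m + 1))
    ((m : ℝ) ^ 2 * η * n) (by positivity) (by positivity) (by positivity)
    (fun σ => by positivity) (fun σ => by positivity) (fun σ => by positivity) hG hT hV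
  -- the columns to remove
  let D₁ : Finset (Fin n) := univ.biUnion fun i => univ.biUnion fun j => Cov (σ i) (σ j)
  have hD₁ : (D₁.card : ℝ) ≤ 6 * (m ^ 2 * η) * n := by
    have h0 : D₁.card ≤ ∑ i, ∑ j, 2 * y (σ i) (σ j) := by
      refine card_biUnion_le.trans (sum_le_sum fun i _ => ?_)
      refine card_biUnion_le.trans (sum_le_sum fun j _ => hCov _ _)
    have h0' : (D₁.card : ℝ) ≤ 2 * V σ := by
      have : (D₁.card : ℝ) ≤ ∑ i, ∑ j, 2 * (y (σ i) (σ j) : ℝ) := by exact_mod_cast h0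
      refine this.trans (le_of_eq ?_)
      change _ = 2 * ∑ i, ∑ j, (y (σ i) (σ j) : ℝ)
      simp only [mul_sum]
    refine h0'.trans ?_
    have : V σ ≤ 3 * ((m : ℝ) ^ 2 * η * n) := hVσ
    linarith
  refine ⟨σ, D₁, ?_, hD₁, hGσ, hTσ⟩
  intro i j c d hp
  have hmem : ∀ x, x ∈ Cov (σ i) (σ j) → x ∈ D₁ := by
    intro x hx
    simp only [D₁, mem_biUnion, mem_univ, true_and]
    exact ⟨i, j, hx⟩
  rcases hhit _ _ c d hp with h | h
  · exact Or.inl (hmem c h)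
  · exact Or.inr (hmem d h)

/-- The construction of the cleaned matrix from a sample. -/
theorem gamma_build (A : Fin n → Fin n → Bool) (σ : Fin m → Fin n) (D₁ : Finset (Fin n))
    (hhit : ∀ i j c d, IsPat patG A (σ i) (σ j) c d → c ∈ D₁ ∨ d ∈ D₁)
    (g : ℕ) (hg : 1 ≤ g) (hlt : D₁.card + m ^ 2 * (D₁.card + 2 * g) < n) :
    ∃ (B : Fin n → Fin n → Bool) (bad : Finset (Fin n)),
      (∀ r ∈ bad, g * g < genG A σ r) ∧
      (∀ a b c d, ¬ IsPat patG B a b c d) ∧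
      diffCount A B ≤ ∑ r, (3 * g + 2 * Nat.sqrt (tailG A σ r)) + n * bad.card
        + n * (D₁.card + m ^ 2 * (D₁.card + 2 * g)) := by
  classical
  let l : ℕ := D₁.card + 2 * g
  -- the first ones of each pair
  let Hp : Fin m → Fin m → Finset (Fin n) := fun i j =>
    univ.filter fun f => A (σ i) f = true ∧ A (σ j) f = true
  let Del : Fin m → Fin m → Finset (Fin n) := fun i j =>
    (Hp i j).filter fun b => ((Hp i j).filter fun f => f < b).card < l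
  let D₂ : Finset (Fin n) := univ.biUnion fun i => univ.biUnion fun j => Del i j
  have hD₂ : D₂.card ≤ m ^ 2 * l := by
    have h0 : D₂.card ≤ ∑ _i : Fin m, ∑ _j : Fin m, l := by
      refine card_biUnion_le.trans (sum_le_sum fun i _ => ?_)
      refine card_biUnion_le.trans (sum_le_sum fun j _ => card_first_le _ _)
    refine h0.trans (le_of_eq ?_)
    simp [sq, mul_assoc]
  let C : Finset (Fin n) := (D₁ ∪ D₂)ᶜ
  have hCc : (Cᶜ).card ≤ D₁.card + m ^ 2 * (D₁.card + 2 * g) := by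
    rw [compl_compl]
    exact (card_union_le _ _).trans (Nat.add_le_add_left hD₂ _)
  have hCne : C.Nonempty := by
    rw [← card_pos]
    have := card_compl_add_card C
    simp only [Fintype.card_fin] at this
    omega
  have hnotD₁ : ∀ x ∈ C, x ∉ D₁ := fun x hx h =>
    (mem_compl.mp hx) (mem_union_left _ h)
  have hnotD₂ : ∀ x ∈ C, x ∉ D₂ := fun x hx h =>
    (mem_compl.mp hx) (mem_union_right _ h)
  have hfree : ∀ i j, ∀ c ∈ C, ∀ d ∈ C, ¬ IsPat patG A (σ i) (σ j) c d := by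
    intro i j c hc d hd hp
    rcases hhit _ _ c d hp with h | h
    · exact hnotD₁ c hc h
    · exact hnotD₁ d hd h
  have hcov : ∀ i j, σ i < σ j → ∀ a ∈ C, A (σ i) a = true → A (σ j) a = false →
      (univ.filter fun f => f < a ∧ A (σ i) f = true ∧ A (σ j) f = true).card ≤ D₁.card := by
    intro i j hij a ha hia hja
    apply card_le_card
    intro f hf
    simp only [mem_filter, mem_univ, true_and] at hf
    have hp : IsPat patG A (σ i) (σ j) f a :=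
      (isPat_patG _ _ _ _ _).mpr ⟨hij, hf.1, hf.2.1, hia, hf.2.2, hja⟩
    rcases hhit _ _ f a hp with h | h
    · exact h
    · exact absurd h (hnotD₁ a ha)
  have hdel : ∀ i j, ∀ b ∈ C, A (σ i) b = true → A (σ j) b = true →
      l ≤ (univ.filter fun f => f < b ∧ A (σ i) f = true ∧ A (σ j) f = true).card := by
    intro i j b hb hib hjb
    by_contra hcon
    push Not at hcon
    apply hnotD₂ b hb
    simp only [D₂, mem_biUnion, mem_univ, true_and]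
    refine ⟨i, j, ?_⟩
    simp only [Del, mem_filter]
    refine ⟨?_, ?_⟩
    · simp only [Hp, mem_filter, mem_univ, true_and]
      exact ⟨hib, hjb⟩
    · refine lt_of_le_of_lt (card_le_card ?_) hcon
      intro f hf
      simp only [Hp, mem_filter, mem_univ, true_and] at hf ⊢
      exact ⟨hf.2, hf.1⟩
  obtain ⟨B, bad, hbad, hBfree, hdiff⟩ :=
    gamma_free_of_sample A σ C hCne hfree (V := D₁.card) (l := l) (g := g) (le_refl _) hg hcov hdel
  refine ⟨B, bad, hbad, hBfree, hdiff.trans ?_⟩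
  exact Nat.add_le_add_left (Nat.mul_le_mul_left _ hCc) _

/-- Removal for the pattern `[[1,1],[1,0]]`, contrapositive form with explicit parameters. -/
theorem gamma_clean (hn : 1 ≤ n) (A : Fin n → Fin n → Bool) (ε η ρ : ℝ) (m : ℕ)
    (hε : 0 < ε) (hη : 0 < η) (hρ : 0 < ρ) (hm2 : 2 ≤ m)
    (hN : (copies patG A : ℝ) < η ^ 2 * n ^ 4)
    (hρn : 1 ≤ ρ * n)
    (h1 : 3 / ((m : ℝ) + 1) ≤ ε ^ 2 / 64)
    (h2 : 6 * ρ + 3 * m * η ^ 2 / ρ ^ 2 + (6 * (m ^ 2 * η) + 6 * (m ^ 4 * η) + 4 * (m ^ 2 * ρ))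
      < 3 * ε / 4)
    (h3 : 6 * (m ^ 2 * η) + 6 * (m ^ 4 * η) + 4 * (m ^ 2 * ρ) < 1) :
    ∃ B : Fin n → Fin n → Bool, copies patG B = 0 ∧ (diffCount A B : ℝ) < ε * n ^ 2 := by
  classical
  have hn0 : 0 < n := hn
  have hnR : (0 : ℝ) < n := by exact_mod_cast hn0
  obtain ⟨σ, D₁, hhit, hD₁, hGσ, hTσ⟩ := gamma_sample hn A η m hη hm2 hN
  -- the parameter `g`
  let g : ℕ := ⌈ρ * n⌉₊
  have hg1 : ρ * n ≤ g := Nat.le_ceil _
  have hg2 : (g : ℝ) ≤ 2 * (ρ * n) := by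
    have := (Nat.ceil_lt_add_one (a := ρ * n) (by positivity)).le
    linarith
  have hg : 1 ≤ g := by
    have : (1 : ℝ) ≤ g := hρn.trans hg1
    exact_mod_cast this
  have hCc : ((D₁.card + m ^ 2 * (D₁.card + 2 * g) : ℕ) : ℝ)
      ≤ (6 * (m ^ 2 * η) + 6 * (m ^ 4 * η) + 4 * (m ^ 2 * ρ)) * n := by
    push_cast
    have hm2 : (0 : ℝ) ≤ (m : ℝ) ^ 2 := by positivity
    have h4 : (m : ℝ) ^ 2 * (D₁.card : ℝ) ≤ (m : ℝ) ^ 2 * (6 * (m ^ 2 * η) * n) :=
      mul_le_mul_of_nonneg_left hD₁ hm2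
    have h5 : (m : ℝ) ^ 2 * (2 * (g : ℝ)) ≤ (m : ℝ) ^ 2 * (2 * (2 * (ρ * n))) :=
      mul_le_mul_of_nonneg_left (by linarith) hm2
    have e : (6 * ((m : ℝ) ^ 2 * η) + 6 * (m ^ 4 * η) + 4 * (m ^ 2 * ρ)) * n
        = 6 * ((m : ℝ) ^ 2 * η) * n + (m : ℝ) ^ 2 * (6 * (m ^ 2 * η) * n)
          + (m : ℝ) ^ 2 * (2 * (2 * (ρ * n))) := by ring
    rw [e]
    nlinarith
  have hCclt : D₁.card + m ^ 2 * (D₁.card + 2 * g) < n := by
    have : ((D₁.card + m ^ 2 * (D₁.card + 2 * g) : ℕ) : ℝ) < n := by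
      calc ((D₁.card + m ^ 2 * (D₁.card + 2 * g) : ℕ) : ℝ)
          ≤ (6 * (m ^ 2 * η) + 6 * (m ^ 4 * η) + 4 * (m ^ 2 * ρ)) * n := hCc
        _ < 1 * n := mul_lt_mul_of_pos_right h3 hnR
        _ = n := one_mul _
    exact_mod_cast this
  obtain ⟨B, bad, hbad, hBfree, hdiff⟩ := gamma_build A σ D₁ hhit g hg hCclt
  refine ⟨B, copies_eq_zero_of hBfree, ?_⟩
  -- the number of bad rows
  have hbadcard : (bad.card : ℝ) ≤ 3 * m * η ^ 2 / ρ ^ 2 * n := by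
    have h0 : bad.card * (g * g) ≤ ∑ r ∈ bad, genG A σ r := by
      rw [← smul_eq_mul, ← sum_const]
      exact sum_le_sum fun r hr => (hbad r hr).le
    have h0' : ((bad.card * (g * g) : ℕ) : ℝ) ≤ ∑ r, (genG A σ r : ℝ) := by
      calc ((bad.card * (g * g) : ℕ) : ℝ) ≤ ((∑ r ∈ bad, genG A σ r : ℕ) : ℝ) := by
            exact_mod_cast h0
        _ = ∑ r ∈ bad, (genG A σ r : ℝ) := by push_cast; rfl
        _ ≤ ∑ r, (genG A σ r : ℝ) :=
            sum_le_sum_of_subset_of_nonneg (subset_univ _) (fun _ _ _ => by positivity)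
    have h1' : (bad.card : ℝ) * ((ρ * n) * (ρ * n)) ≤ bad.card * ((g : ℝ) * g) := by
      apply mul_le_mul_of_nonneg_left _ (by positivity)
      exact mul_le_mul hg1 hg1 (by positivity) (by positivity)
    have h2' : (bad.card : ℝ) * ((g : ℝ) * g) ≤ 3 * (m * η ^ 2 * n ^ 3) := by
      have e : (bad.card : ℝ) * ((g : ℝ) * g) = ((bad.card * (g * g) : ℕ) : ℝ) := by push_cast; ring
      rw [e]
      exact h0'.trans hGσ
    have h3' : (bad.card : ℝ) * (ρ ^ 2 * n ^ 2) ≤ 3 * (m * η ^ 2 * n ^ 3) := by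
      calc (bad.card : ℝ) * (ρ ^ 2 * n ^ 2) = bad.card * ((ρ * n) * (ρ * n)) := by ring
        _ ≤ _ := h1'.trans h2'
    have hpos : 0 < ρ ^ 2 * (n : ℝ) ^ 2 := by positivity
    have e : 3 * (m : ℝ) * η ^ 2 / ρ ^ 2 * n = 3 * (m * η ^ 2 * n ^ 3) / (ρ ^ 2 * n ^ 2) := by
      field_simp
    rw [e, le_div_iff₀ hpos]
    exact h3'
  -- the tail sum
  have hsqrt : (∑ r, (Nat.sqrt (tailG A σ r) : ℝ)) ≤ ε / 8 * n ^ 2 := by
    have hcs : (∑ r, (Nat.sqrt (tailG A σ r) : ℝ)) ^ 2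
        ≤ (univ : Finset (Fin n)).card * ∑ r, (Nat.sqrt (tailG A σ r) : ℝ) ^ 2 :=
      sq_sum_le_card_mul_sum_sq
    have hsq : ∑ r, (Nat.sqrt (tailG A σ r) : ℝ) ^ 2 ≤ ∑ r, (tailG A σ r : ℝ) := by
      refine sum_le_sum fun r _ => ?_
      have := Nat.sqrt_le' (tailG A σ r)
      exact_mod_cast this
    have hc : ((univ : Finset (Fin n)).card : ℝ) = n := by simp
    rw [hc] at hcs
    have hT2 : ∑ r, (tailG A σ r : ℝ) ≤ ε ^ 2 / 64 * n ^ 3 := by
      have e : 3 * ((n : ℝ) ^ 3 / (m + 1)) = 3 / ((m : ℝ) + 1) * n ^ 3 := by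
        field_simp
      rw [e] at hTσ
      exact hTσ.trans (mul_le_mul_of_nonneg_right h1 (by positivity))
    have hlt : (∑ r, (Nat.sqrt (tailG A σ r) : ℝ)) ^ 2 ≤ (ε / 8 * n ^ 2) ^ 2 := by
      calc (∑ r, (Nat.sqrt (tailG A σ r) : ℝ)) ^ 2 ≤ n * ∑ r, (Nat.sqrt (tailG A σ r) : ℝ) ^ 2 := hcs
        _ ≤ n * (ε ^ 2 / 64 * n ^ 3) := by
          apply mul_le_mul_of_nonneg_left (hsq.trans hT2) hnR.le
        _ = (ε / 8 * n ^ 2) ^ 2 := by ring
    exact abs_le_of_sq_le_sq' hlt (by positivity) |>.2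
  -- total
  have hdiffR : (diffCount A B : ℝ) ≤ n * (3 * g) + 2 * ∑ r, (Nat.sqrt (tailG A σ r) : ℝ)
      + n * bad.card + n * ((D₁.card + m ^ 2 * (D₁.card + 2 * g) : ℕ) : ℝ) := by
    have h0 : (diffCount A B : ℝ) ≤ ((∑ r : Fin n, (3 * g + 2 * Nat.sqrt (tailG A σ r))
        + n * bad.card + n * (D₁.card + m ^ 2 * (D₁.card + 2 * g)) : ℕ) : ℝ) := by
      exact_mod_cast hdiff
    refine h0.trans (le_of_eq ?_)
    push_cast
    rw [sum_add_distrib, sum_const, card_univ, Fintype.card_fin, nsmul_eq_mul, mul_sum]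
  have h4 : (n : ℝ) * (3 * g) ≤ 6 * ρ * n ^ 2 := by
    have := mul_le_mul_of_nonneg_left hg2 hnR.le
    nlinarith
  have h5 : (n : ℝ) * bad.card ≤ 3 * m * η ^ 2 / ρ ^ 2 * n ^ 2 := by
    have := mul_le_mul_of_nonneg_left hbadcard hnR.le
    calc (n : ℝ) * bad.card ≤ n * (3 * m * η ^ 2 / ρ ^ 2 * n) := this
      _ = _ := by ring
  have h6 : (n : ℝ) * ((D₁.card + m ^ 2 * (D₁.card + 2 * g) : ℕ) : ℝ)
      ≤ (6 * (m ^ 2 * η) + 6 * (m ^ 4 * η) + 4 * (m ^ 2 * ρ)) * n ^ 2 := by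
    have := mul_le_mul_of_nonneg_left hCc hnR.le
    refine this.trans (le_of_eq ?_)
    ring
  have hn2 : (0 : ℝ) < n ^ 2 := by positivity
  have hstrict := mul_lt_mul_of_pos_right h2 hn2
  calc (diffCount A B : ℝ) ≤ n * (3 * g) + 2 * ∑ r, (Nat.sqrt (tailG A σ r) : ℝ)
      + n * bad.card + n * ((D₁.card + m ^ 2 * (D₁.card + 2 * g) : ℕ) : ℝ) := hdiffR
    _ ≤ 6 * ρ * n ^ 2 + 2 * (ε / 8 * n ^ 2) + 3 * m * η ^ 2 / ρ ^ 2 * n ^ 2
        + (6 * (m ^ 2 * η) + 6 * (m ^ 4 * η) + 4 * (m ^ 2 * ρ)) * n ^ 2 := by linarith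
    _ = (6 * ρ + 3 * m * η ^ 2 / ρ ^ 2 + (6 * (m ^ 2 * η) + 6 * (m ^ 4 * η) + 4 * (m ^ 2 * ρ))) * n ^ 2
        + ε / 4 * n ^ 2 := by ring
    _ < 3 * ε / 4 * n ^ 2 + ε / 4 * n ^ 2 := by linarith
    _ = ε * n ^ 2 := by ring

/-- The pattern `[[1,1],[1,0]]` has polynomial removal. -/
theorem gamma_removal (hn : 1 ≤ n) (A : Fin n → Fin n → Bool) (ε : ℝ) (hε : 0 < ε) (hε1 : ε < 1)
    (hfar : ∀ B : Fin n → Fin n → Bool, copies patG B = 0 → ε * n ^ 2 ≤ diffCount A B) :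
    ε ^ 20 / 10 ^ 26 * n ^ 4 ≤ copies patG A := by
  have hn0 : 0 < n := hn
  have hnR : (0 : ℝ) < n := by exact_mod_cast hn0
  set ρ : ℝ := ε ^ 5 / (2 * 10 ^ 6) with hρdef
  have hρ : 0 < ρ := by positivity
  by_cases hsmall : ρ * n < 1
  · -- small case: one copy is enough
    have hne : copies patG A ≠ 0 := by
      intro h0
      have h := hfar A h0
      have hz : diffCount A A = 0 := by
        simp [diffCount]
      rw [hz] at h
      have : (0 : ℝ) < ε * n ^ 2 := by positivity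
      simp at h
      linarith
    have hone : (1 : ℝ) ≤ copies patG A := by
      exact_mod_cast Nat.one_le_iff_ne_zero.mpr hne
    refine le_trans ?_ hone
    have hεn : ε ^ 5 * n < 2 * 10 ^ 6 := by
      have : ε ^ 5 / (2 * 10 ^ 6) * n < 1 := hsmall
      have e : ε ^ 5 / (2 * 10 ^ 6) * n = ε ^ 5 * n / (2 * 10 ^ 6) := by ring
      rw [e, div_lt_one (by positivity)] at this
      exact this
    have h4 : (ε ^ 5 * n) ^ 4 ≤ (2 * 10 ^ 6) ^ 4 :=
      pow_le_pow_left₀ (by positivity) hεn.le 4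
    have e : ε ^ 20 / 10 ^ 26 * (n : ℝ) ^ 4 = (ε ^ 5 * n) ^ 4 / 10 ^ 26 := by ring
    rw [e, div_le_one (by positivity)]
    calc (ε ^ 5 * n) ^ 4 ≤ (2 * 10 ^ 6) ^ 4 := h4
      _ ≤ 10 ^ 26 := by norm_num
  · push Not at hsmall
    by_contra hcon
    push Not at hcon
    set η : ℝ := ε ^ 9 / 10 ^ 11 with hηdef
    have hη : 0 < η := by positivity
    have hηsq : ε ^ 20 / 10 ^ 26 ≤ η ^ 2 := by
      have e : η ^ 2 = ε ^ 18 / 10 ^ 22 := by
        rw [hηdef]; ring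
      rw [e, div_le_div_iff₀ (by positivity) (by positivity)]
      have h20 : ε ^ 20 ≤ ε ^ 18 := pow_le_pow_of_le_one hε.le hε1.le (by norm_num)
      have hpos : 0 < ε ^ 18 := by positivity
      nlinarith
    have hN : (copies patG A : ℝ) < η ^ 2 * n ^ 4 :=
      hcon.trans_le (mul_le_mul_of_nonneg_right hηsq (by positivity))
    -- the sample size
    set m : ℕ := ⌈192 / ε ^ 2⌉₊ with hmdef
    have hε2 : 0 < ε ^ 2 := by positivity
    have hε2lt : ε ^ 2 < 1 := by nlinarith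
    have hm1 : 192 / ε ^ 2 ≤ m := Nat.le_ceil _
    have hm2' : (m : ℝ) < 192 / ε ^ 2 + 1 := Nat.ceil_lt_add_one (by positivity)
    have hmε1 : 192 ≤ (m : ℝ) * ε ^ 2 := by
      rwa [div_le_iff₀ hε2] at hm1
    have hmε2 : (m : ℝ) * ε ^ 2 ≤ 193 := by
      have : (m : ℝ) * ε ^ 2 < (192 / ε ^ 2 + 1) * ε ^ 2 := mul_lt_mul_of_pos_right hm2' hε2
      have e : (192 / ε ^ 2 + 1) * ε ^ 2 = 192 + ε ^ 2 := by field_simp
      rw [e] at this
      linarith
    have hm2R : (2 : ℝ) ≤ m := by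
      by_contra h
      push Not at h
      nlinarith
    have hm2 : 2 ≤ m := by exact_mod_cast hm2R
    have hmpos : (0 : ℝ) < m := by linarith
    have hm0 : (0 : ℝ) ≤ (m : ℝ) * ε ^ 2 := by positivity
    have hsq : (m : ℝ) ^ 2 * ε ^ 4 ≤ 37249 := by
      have : ((m : ℝ) * ε ^ 2) ^ 2 ≤ 193 ^ 2 := pow_le_pow_left₀ hm0 hmε2 2
      calc (m : ℝ) ^ 2 * ε ^ 4 = ((m : ℝ) * ε ^ 2) ^ 2 := by ring
        _ ≤ 193 ^ 2 := this
        _ = 37249 := by norm_num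
    have hq : (m : ℝ) ^ 4 * ε ^ 8 ≤ 1387488001 := by
      have : ((m : ℝ) * ε ^ 2) ^ 4 ≤ 193 ^ 4 := pow_le_pow_left₀ hm0 hmε2 4
      calc (m : ℝ) ^ 4 * ε ^ 8 = ((m : ℝ) * ε ^ 2) ^ 4 := by ring
        _ ≤ 193 ^ 4 := this
        _ = 1387488001 := by norm_num
    have hε5 : ε ^ 5 ≤ ε := by
      calc ε ^ 5 ≤ ε ^ 1 := pow_le_pow_of_le_one hε.le hε1.le (by norm_num)
        _ = ε := pow_one ε
    have t1 : (m : ℝ) ^ 2 * η ≤ 37249 * ε / 10 ^ 11 := by
      have e : (m : ℝ) ^ 2 * η = ((m : ℝ) ^ 2 * ε ^ 4) * (ε ^ 5 / 10 ^ 11) := by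
        rw [hηdef]; ring
      rw [e]
      calc ((m : ℝ) ^ 2 * ε ^ 4) * (ε ^ 5 / 10 ^ 11) ≤ 37249 * (ε ^ 5 / 10 ^ 11) :=
            mul_le_mul_of_nonneg_right hsq (by positivity)
        _ ≤ 37249 * (ε / 10 ^ 11) := by
            apply mul_le_mul_of_nonneg_left _ (by norm_num)
            exact div_le_div_of_nonneg_right hε5 (by norm_num)
        _ = _ := by ring
    have t2 : (m : ℝ) ^ 4 * η ≤ 1387488001 * ε / 10 ^ 11 := by
      have e : (m : ℝ) ^ 4 * η = ((m : ℝ) ^ 4 * ε ^ 8) * (ε / 10 ^ 11) := by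
        rw [hηdef]; ring
      rw [e]
      calc ((m : ℝ) ^ 4 * ε ^ 8) * (ε / 10 ^ 11) ≤ 1387488001 * (ε / 10 ^ 11) :=
            mul_le_mul_of_nonneg_right hq (by positivity)
        _ = _ := by ring
    have t3 : (m : ℝ) ^ 2 * ρ ≤ 37249 * ε / (2 * 10 ^ 6) := by
      have e : (m : ℝ) ^ 2 * ρ = ((m : ℝ) ^ 2 * ε ^ 4) * (ε / (2 * 10 ^ 6)) := by
        rw [hρdef]; ring
      rw [e]
      calc ((m : ℝ) ^ 2 * ε ^ 4) * (ε / (2 * 10 ^ 6)) ≤ 37249 * (ε / (2 * 10 ^ 6)) :=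
            mul_le_mul_of_nonneg_right hsq (by positivity)
        _ = _ := by ring
    have t4 : 3 * (m : ℝ) * η ^ 2 / ρ ^ 2 ≤ ε / 1000 := by
      have e : 3 * (m : ℝ) * η ^ 2 / ρ ^ 2 = ((m : ℝ) * ε ^ 2) * (12 * ε ^ 6 / 10 ^ 10) := by
        rw [hηdef, hρdef]
        field_simp
        ring
      rw [e]
      have h6 : ε ^ 6 ≤ ε := by
        calc ε ^ 6 ≤ ε ^ 1 := pow_le_pow_of_le_one hε.le hε1.le (by norm_num)
          _ = ε := pow_one ε
      calc ((m : ℝ) * ε ^ 2) * (12 * ε ^ 6 / 10 ^ 10) ≤ 193 * (12 * ε ^ 6 / 10 ^ 10) :=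
            mul_le_mul_of_nonneg_right hmε2 (by positivity)
        _ ≤ ε / 1000 := by nlinarith
    have t5 : 6 * ρ ≤ ε / 1000 := by
      rw [hρdef]
      nlinarith
    have h1 : 3 / ((m : ℝ) + 1) ≤ ε ^ 2 / 64 := by
      rw [div_le_iff₀ (by positivity)]
      nlinarith
    have h3 : 6 * ((m : ℝ) ^ 2 * η) + 6 * (m ^ 4 * η) + 4 * (m ^ 2 * ρ) < 1 := by
      nlinarith
    have h2 : 6 * ρ + 3 * (m : ℝ) * η ^ 2 / ρ ^ 2
        + (6 * ((m : ℝ) ^ 2 * η) + 6 * (m ^ 4 * η) + 4 * (m ^ 2 * ρ)) < 3 * ε / 4 := by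
      nlinarith
    obtain ⟨B, hB, hdiff⟩ := gamma_clean hn A ε η ρ m hε hη hρ hm2 hN hsmall h1 h2 h3
    exact absurd (hfar B hB) (not_le.mpr hdiff)

end Vale.Agent.P037
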