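import Vale.Agent.P037.Two

/-! Removal for the `2 × 2` patterns with constant rows. -/

namespace Vale.Agent.P037

open Finset

variable {n : ℕ}

/-- The pattern with rows `(u,u)` and `(v,v)`. -/
def patRC (u v : Bool) : Fin 2 → Fin 2 → Bool := ![![u, u], ![v, v]]

lemma isPat_patRC (u v : Bool) (A : Fin n → Fin n → Bool) (a b c d : Fin n) :
    IsPat (patRC u v) A a b c d ↔
      a < b ∧ c < d ∧ A a c = u ∧ A a d = u ∧ A b c = v ∧ A b d = v := by
  simp [IsPat, patRC]

/-- A finite set of a linear order: ordered pairs against all pairs. -/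
lemma card_sq_le (P : Finset (Fin n)) :
    P.card ^ 2 ≤ 2 * ((P ×ˢ P).filter fun x => x.1 < x.2).card + P.card := by
  classical
  let L := (P ×ˢ P).filter fun x => x.1 < x.2
  have hsub : P ×ˢ P ⊆ L ∪ L.image Prod.swap ∪ P.image fun c => (c, c) := by
    intro x hx
    have hx' := mem_product.mp hx
    rcases lt_trichotomy x.1 x.2 with h | h | h
    · exact mem_union_left _ (mem_union_left _ (mem_filter.mpr ⟨hx, h⟩))
    · refine mem_union_right _ (mem_image.mpr ⟨x.1, hx'.1, ?_⟩)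
      exact Prod.ext rfl h
    · refine mem_union_left _ (mem_union_right _ (mem_image.mpr ⟨x.swap, ?_, by simp⟩))
      exact mem_filter.mpr ⟨mem_product.mpr ⟨hx'.2, hx'.1⟩, h⟩
  have h1 := card_le_card hsub
  rw [card_product] at h1
  have h2 := card_union_le (L ∪ L.image Prod.swap) (P.image fun c => (c, c))
  have h3 := card_union_le L (L.image Prod.swap)
  have h4 : (L.image Prod.swap).card ≤ L.card := card_image_le
  have h5 : (P.image fun c => (c, c)).card ≤ P.card := card_image_le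
  rw [sq]
  have : ((P ×ˢ P).filter fun x => x.1 < x.2) = L := rfl
  rw [this]
  omega

/-- Number of triples with given column. -/
def invCount (u v : Bool) (A : Fin n → Fin n → Bool) (c : Fin n) : ℕ :=
  (univ.filter fun x : Fin n × Fin n => x.1 < x.2 ∧ A x.1 c = u ∧ A x.2 c = v).card

/-- Number of triples with given pair of rows. -/
def pairCount (u v : Bool) (A : Fin n → Fin n → Bool) (x : Fin n × Fin n) : ℕ :=
  (univ.filter fun c : Fin n => x.1 < x.2 ∧ A x.1 c = u ∧ A x.2 c = v).card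

lemma sum_inv_eq (u v : Bool) (A : Fin n → Fin n → Bool) :
    ∑ c, invCount u v A c = ∑ x, pairCount u v A x := by
  simp only [invCount, pairCount, card_filter]
  rw [sum_comm]

lemma pairCount_sq_le (u v : Bool) (A : Fin n → Fin n → Bool) (x : Fin n × Fin n) :
    pairCount u v A x ^ 2 ≤ 2 * patCount (patRC u v) A x.1 x.2 + pairCount u v A x := by
  classical
  have h := card_sq_le (univ.filter fun c : Fin n => x.1 < x.2 ∧ A x.1 c = u ∧ A x.2 c = v)
  refine h.trans (Nat.add_le_add_right (Nat.mul_le_mul_left _ (card_le_card ?_)) _)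
  intro y hy
  simp only [mem_filter, mem_product, mem_univ, true_and] at hy
  simp only [mem_filter, mem_univ, true_and]
  exact (isPat_patRC _ _ _ _ _ _ _).mpr
    ⟨hy.1.1.1, hy.2, hy.1.1.2.1, hy.1.2.2.1, hy.1.1.2.2, hy.1.2.2.2⟩

/-- The basic inequality between copies and triples. -/
lemma main_ineq (u v : Bool) (A : Fin n → Fin n → Bool) :
    (∑ x, pairCount u v A x) ^ 2
      ≤ n ^ 2 * (2 * copies (patRC u v) A + ∑ x, pairCount u v A x) := by
  classical
  have hcs : (∑ x : Fin n × Fin n, pairCount u v A x) ^ 2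
      ≤ (univ : Finset (Fin n × Fin n)).card * ∑ x : Fin n × Fin n, pairCount u v A x ^ 2 :=
    sq_sum_le_card_mul_sum_sq
  have hc : (univ : Finset (Fin n × Fin n)).card = n ^ 2 := by
    simp [sq]
  rw [hc] at hcs
  refine hcs.trans (Nat.mul_le_mul_left _ ?_)
  rw [copies_eq_sum, mul_sum]
  have h1 : ∑ i, 2 * ∑ b, patCount (patRC u v) A i b
      = ∑ x : Fin n × Fin n, 2 * patCount (patRC u v) A x.1 x.2 := by
    rw [Fintype.sum_prod_type]
    simp only [mul_sum]
  rw [h1, ← sum_add_distrib]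
  exact sum_le_sum fun x _ => pairCount_sq_le u v A x

/-- The final inequality from the number of triples. -/
lemma removal_of_triples (u v : Bool) (hn : 1 ≤ n) (A : Fin n → Fin n → Bool) (ε : ℝ)
    (hε : 0 < ε) (hε1 : ε < 1) (hne : copies (patRC u v) A ≠ 0)
    (hS : 8 ≤ ε ^ 2 * n → ε ^ 2 * n ^ 3 / 4 ≤ ∑ c, (invCount u v A c : ℝ)) :
    ε ^ 8 / 4096 * n ^ 4 ≤ copies (patRC u v) A := by
  have hn0 : 0 < n := hn
  have hnR : (0 : ℝ) < n := by exact_mod_cast hn0
  have hone : (1 : ℝ) ≤ copies (patRC u v) A := by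
    exact_mod_cast Nat.one_le_iff_ne_zero.mpr hne
  by_cases hsmall : ε ^ 2 * n < 8
  · refine le_trans ?_ hone
    have h4 : (ε ^ 2 * n) ^ 4 ≤ 8 ^ 4 := pow_le_pow_left₀ (by positivity) hsmall.le 4
    have e : ε ^ 8 / 4096 * (n : ℝ) ^ 4 = (ε ^ 2 * n) ^ 4 / 4096 := by ring
    rw [e, div_le_one (by norm_num)]
    linarith
  · push Not at hsmall
    have hS' := hS hsmall
    set S : ℝ := ∑ c, (invCount u v A c : ℝ) with hSdef
    have hSeq : S = ((∑ x, pairCount u v A x : ℕ) : ℝ) := by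
      rw [hSdef, ← sum_inv_eq]; push_cast; rfl
    have hmain := main_ineq u v A
    have hmainR : S ^ 2 ≤ n ^ 2 * (2 * copies (patRC u v) A + S) := by
      rw [hSeq]
      exact_mod_cast hmain
    set N : ℝ := (copies (patRC u v) A : ℝ) with hNdef
    have hn2 : (0 : ℝ) < n ^ 2 := by positivity
    have hSpos : 0 < S := lt_of_lt_of_le (by positivity) hS'
    have h2 : 2 * (n : ℝ) ^ 2 ≤ S := by
      have : ε ^ 2 * (n : ℝ) ^ 3 / 4 = (ε ^ 2 * n) * (n : ℝ) ^ 2 / 4 := by ring
      rw [this] at hS'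
      have h8 : 8 * (n : ℝ) ^ 2 ≤ (ε ^ 2 * n) * (n : ℝ) ^ 2 :=
        mul_le_mul_of_nonneg_right hsmall hn2.le
      linarith
    -- `S ^ 2 ≤ 4 n ^ 2 N`
    have h3 : S ^ 2 ≤ 4 * (n : ℝ) ^ 2 * N := by
      have h4 : (n : ℝ) ^ 2 * S ≤ S ^ 2 / 2 := by nlinarith
      nlinarith
    have h5 : (ε ^ 2 * (n : ℝ) ^ 3 / 4) ^ 2 ≤ S ^ 2 := pow_le_pow_left₀ (by positivity) hS' 2
    have h6 : ε ^ 4 * (n : ℝ) ^ 4 / 64 ≤ N := by
      have e : (ε ^ 2 * (n : ℝ) ^ 3 / 4) ^ 2 = (n : ℝ) ^ 2 * (ε ^ 4 * (n : ℝ) ^ 4 / 16) := by ring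
      rw [e] at h5
      have h7 : (n : ℝ) ^ 2 * (ε ^ 4 * (n : ℝ) ^ 4 / 16) ≤ (n : ℝ) ^ 2 * (4 * N) := by
        calc _ ≤ S ^ 2 := h5
          _ ≤ 4 * (n : ℝ) ^ 2 * N := h3
          _ = _ := by ring
      have h8 := le_of_mul_le_mul_left h7 hn2
      linarith
    refine le_trans ?_ h6
    have h8 : ε ^ 8 ≤ ε ^ 4 := pow_le_pow_of_le_one hε.le hε1.le (by norm_num)
    have hn4 : (0 : ℝ) ≤ (n : ℝ) ^ 4 := by positivity
    have : ε ^ 8 * (n : ℝ) ^ 4 ≤ ε ^ 4 * (n : ℝ) ^ 4 := mul_le_mul_of_nonneg_right h8 hn4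
    have h9 : 0 ≤ ε ^ 4 * (n : ℝ) ^ 4 := by positivity
    have e : ε ^ 8 / 4096 * (n : ℝ) ^ 4 = ε ^ 8 * (n : ℝ) ^ 4 / 4096 := by ring
    rw [e]
    linarith

lemma copies_ne_zero_of_far {H : Fin 2 → Fin 2 → Bool} (hn : 1 ≤ n) (A : Fin n → Fin n → Bool)
    (ε : ℝ) (hε : 0 < ε)
    (hfar : ∀ B : Fin n → Fin n → Bool, copies H B = 0 → ε * n ^ 2 ≤ diffCount A B) :
    copies H A ≠ 0 := by
  intro h0
  have h := hfar A h0
  have hz : diffCount A A = 0 := by
    simp [diffCount]
  rw [hz] at h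
  have hn0 : 0 < n := hn
  have hnR : (0 : ℝ) < n := by exact_mod_cast hn0
  have : (0 : ℝ) < ε * n ^ 2 := by positivity
  simp at h
  linarith

/-- Polynomial removal for the all-ones pattern. -/
theorem ones_removal (hn : 1 ≤ n) (A : Fin n → Fin n → Bool) (ε : ℝ) (hε : 0 < ε) (hε1 : ε < 1)
    (hfar : ∀ B : Fin n → Fin n → Bool, copies (patRC true true) B = 0 →
      ε * n ^ 2 ≤ diffCount A B) :
    ε ^ 8 / 4096 * n ^ 4 ≤ copies (patRC true true) A := by
  classical
  have hn0 : 0 < n := hn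
  have hnR : (0 : ℝ) < n := by exact_mod_cast hn0
  refine removal_of_triples true true hn A ε hε hε1 (copies_ne_zero_of_far hn A ε hε hfar) ?_
  intro hsmall
  -- the zero matrix is free
  have hzero : copies (patRC true true) (fun _ _ : Fin n => false) = 0 := by
    apply copies_eq_zero_of
    intro a b c d hp
    have := (isPat_patRC _ _ _ _ _ _ _).mp hp
    simp at this
  have hE := hfar _ hzero
  let deg : Fin n → Finset (Fin n) := fun c => univ.filter fun a => A a c = true
  have hdiff : diffCount A (fun _ _ : Fin n => false) = ∑ c, (deg c).card := by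
    simp only [diffCount, deg, card_filter]
    rw [Fintype.sum_prod_type_right]
    simp
  rw [hdiff] at hE
  have hcs : (∑ c, ((deg c).card : ℝ)) ^ 2 ≤ (univ : Finset (Fin n)).card * ∑ c, ((deg c).card : ℝ) ^ 2 :=
    sq_sum_le_card_mul_sum_sq
  have hc : ((univ : Finset (Fin n)).card : ℝ) = n := by simp
  rw [hc] at hcs
  have hdeg : ∀ c, ((deg c).card : ℝ) ^ 2 ≤ 2 * (invCount true true A c : ℝ) + (deg c).card := by
    intro c
    have h1 := card_sq_le (deg c)
    have h2 : ((deg c ×ˢ deg c).filter fun x => x.1 < x.2).card ≤ invCount true true A c := by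
      apply card_le_card
      intro y hy
      simp only [deg, mem_filter, mem_product, mem_univ, true_and] at hy
      simp only [mem_filter, mem_univ, true_and]
      exact ⟨hy.2, hy.1.1, hy.1.2⟩
    have h3 : (deg c).card ^ 2 ≤ 2 * invCount true true A c + (deg c).card := by omega
    exact_mod_cast h3
  have hsum : ∑ c, ((deg c).card : ℝ) ^ 2 ≤ 2 * ∑ c, (invCount true true A c : ℝ)
      + ∑ c, ((deg c).card : ℝ) := by
    rw [mul_sum, ← sum_add_distrib]
    exact sum_le_sum fun c _ => hdeg c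
  set E : ℝ := ∑ c, ((deg c).card : ℝ) with hEdef
  set S : ℝ := ∑ c, (invCount true true A c : ℝ) with hSdef
  have hE' : ε * (n : ℝ) ^ 2 ≤ E := by
    rw [hEdef]
    have : ((∑ c, (deg c).card : ℕ) : ℝ) = ∑ c, ((deg c).card : ℝ) := by push_cast; rfl
    rw [← this]
    exact hE
  -- `ε n ≥ 2`
  have hεn : 2 ≤ ε * n := by
    have : ε ^ 2 * n ≤ ε * n := by
      have : ε ^ 2 ≤ ε := by nlinarith
      exact mul_le_mul_of_nonneg_right this hnR.le
    linarith
  have hEn : 2 * (n : ℝ) ≤ E := by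
    calc 2 * (n : ℝ) ≤ (ε * n) * n := mul_le_mul_of_nonneg_right hεn hnR.le
      _ = ε * (n : ℝ) ^ 2 := by ring
      _ ≤ E := hE'
  have hEpos : 0 < E := by linarith
  have h1 : E ^ 2 ≤ n * (2 * S + E) := by
    refine hcs.trans (mul_le_mul_of_nonneg_left hsum hnR.le)
  -- `E ^ 2 ≤ 4 n S`
  have h2 : E ^ 2 ≤ 4 * n * S := by nlinarith
  have h3 : (ε * (n : ℝ) ^ 2) ^ 2 ≤ E ^ 2 := pow_le_pow_left₀ (by positivity) hE' 2
  have h4 : (n : ℝ) * (ε ^ 2 * (n : ℝ) ^ 3 / 4) ≤ n * S := by
    have e : (n : ℝ) * (ε ^ 2 * (n : ℝ) ^ 3 / 4) = (ε * (n : ℝ) ^ 2) ^ 2 / 4 := by ring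
    rw [e]
    linarith
  exact le_of_mul_le_mul_left h4 hnR

/-- Polynomial removal for the pattern `[[1,1],[0,0]]`. -/
theorem rows_removal (hn : 1 ≤ n) (A : Fin n → Fin n → Bool) (ε : ℝ) (hε : 0 < ε) (hε1 : ε < 1)
    (hfar : ∀ B : Fin n → Fin n → Bool, copies (patRC true false) B = 0 →
      ε * n ^ 2 ≤ diffCount A B) :
    ε ^ 8 / 4096 * n ^ 4 ≤ copies (patRC true false) A := by
  classical
  have hn0 : 0 < n := hn
  have hnR : (0 : ℝ) < n := by exact_mod_cast hn0
  refine removal_of_triples true false hn A ε hε hε1 (copies_ne_zero_of_far hn A ε hε hfar) ?_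
  intro _
  -- a balanced threshold in each column
  have key : ∀ c : Fin n, ∃ U : Finset (Fin n), (∀ a ∈ U, ∀ b, a < b → b ∈ U) ∧
      ∃ y : ℕ, y * y ≤ invCount true false A c ∧
        (univ.filter fun a => A a c = true ∧ a ∉ U).card = y ∧
        (univ.filter fun a => A a c = false ∧ a ∈ U).card = y := by
    intro c
    let P : Finset (Fin n) := univ.filter fun a => A a c = true
    let Q : Finset (Fin n) := univ.filter fun a => A a c = false
    have hPQ : Disjoint P Q := by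
      rw [disjoint_left]
      intro x hx hy
      simp only [P, Q, mem_filter, mem_univ, true_and] at hx hy
      rw [hx] at hy
      exact Bool.noConfusion hy
    obtain ⟨U, _, hup, hbal, hpairs⟩ := balanced_pairs (fun x y : Fin n => x < y) univ P Q
      (subset_univ _) (subset_univ _) hPQ (fun a _ => lt_irrefl a)
      (fun a _ b _ c _ h1 h2 => h1.trans h2) (fun a _ b _ h => lt_or_gt_of_ne h)
    refine ⟨U, fun a ha b hab => hup a ha b (mem_univ _) hab, (P \ U).card, ?_, ?_, ?_⟩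
    · refine hpairs.trans (card_le_card ?_)
      intro x hx
      simp only [P, Q, mem_filter, mem_product, mem_univ, true_and] at hx
      simp only [mem_filter, mem_univ, true_and]
      exact ⟨hx.2, hx.1.1, hx.1.2⟩
    · congr 1
      ext a
      simp [P]
    · rw [hbal]
      congr 1
      ext a
      simp [Q]
  choose U hU y hy hy1 hy2 using key
  -- the sorted matrix
  let B : Fin n → Fin n → Bool := fun a c => decide (a ∈ U c)
  have hB : copies (patRC true false) B = 0 := by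
    apply copies_eq_zero_of
    intro a b c d hp
    obtain ⟨hab, _, h1, _, h3, _⟩ := (isPat_patRC _ _ _ _ _ _ _).mp hp
    simp only [B, decide_eq_true_eq, decide_eq_false_iff_not] at h1 h3
    exact h3 (hU c a h1 b hab)
  have hd := hfar B hB
  have hdiff : diffCount A B ≤ ∑ c, 2 * y c := by
    have hsub : (univ.filter fun p : Fin n × Fin n => A p.1 p.2 ≠ B p.1 p.2)
        ⊆ univ.biUnion fun c : Fin n => ((univ.filter fun a => A a c = true ∧ a ∉ U c) ∪
            (univ.filter fun a => A a c = false ∧ a ∈ U c)).image fun a => (a, c) := by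
      intro p hp
      simp only [mem_filter, mem_univ, true_and] at hp
      simp only [mem_biUnion, mem_univ, true_and, mem_image, mem_union, mem_filter]
      refine ⟨p.2, p.1, ?_, rfl⟩
      cases hv : A p.1 p.2 with
      | true =>
        refine Or.inl ⟨rfl, fun hmem => hp ?_⟩
        simp [B, hv, hmem]
      | false =>
        refine Or.inr ⟨rfl, ?_⟩
        by_contra hmem
        apply hp
        simp [B, hv, hmem]
    refine (card_le_card hsub).trans (card_biUnion_le.trans (sum_le_sum fun c _ => ?_))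
    refine card_image_le.trans ((card_union_le _ _).trans ?_)
    rw [hy1, hy2]
    omega
  -- Cauchy-Schwarz
  have hcs : (∑ c, (y c : ℝ)) ^ 2 ≤ (univ : Finset (Fin n)).card * ∑ c, (y c : ℝ) ^ 2 :=
    sq_sum_le_card_mul_sum_sq
  have hc : ((univ : Finset (Fin n)).card : ℝ) = n := by simp
  rw [hc] at hcs
  have hsq : ∑ c, (y c : ℝ) ^ 2 ≤ ∑ c, (invCount true false A c : ℝ) := by
    refine sum_le_sum fun c _ => ?_
    rw [sq]
    exact_mod_cast hy c
  have hεy : ε * (n : ℝ) ^ 2 ≤ 2 * ∑ c, (y c : ℝ) := by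
    have : (diffCount A B : ℝ) ≤ ((∑ c, 2 * y c : ℕ) : ℝ) := by exact_mod_cast hdiff
    push_cast at this
    rw [mul_sum]
    exact hd.trans this
  have h1 : (ε * (n : ℝ) ^ 2 / 2) ^ 2 ≤ (∑ c, (y c : ℝ)) ^ 2 :=
    pow_le_pow_left₀ (by positivity) (by linarith) 2
  have h2 : (n : ℝ) * (ε ^ 2 * (n : ℝ) ^ 3 / 4) ≤ n * ∑ c, (invCount true false A c : ℝ) := by
    have e : (n : ℝ) * (ε ^ 2 * (n : ℝ) ^ 3 / 4) = (ε * (n : ℝ) ^ 2 / 2) ^ 2 := by ring
    rw [e]
    exact h1.trans (hcs.trans (mul_le_mul_of_nonneg_left hsq hnR.le))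
  exact le_of_mul_le_mul_left h2 hnR

end Vale.Agent.P037
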