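import Vale.Agent.P037.DiagMain
import Vale.Agent.P037.GammaMain
import Vale.Agent.P037.RowConst

/-! Symmetries of the removal problem and the conclusion for all `2 × 2` patterns. -/

namespace Vale.Agent.P037

open Finset

variable {k n : ℕ}

/-- Reversal of the rows of a square array. -/
def rowRev {k : ℕ} (H : Fin k → Fin k → Bool) : Fin k → Fin k → Bool :=
  fun i j => H (Fin.rev i) j

/-- Reversal of the columns of a square array. -/
def colRev {k : ℕ} (H : Fin k → Fin k → Bool) : Fin k → Fin k → Bool :=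
  fun i j => H i (Fin.rev j)

/-- Transpose of a square array. -/
def transp {k : ℕ} (H : Fin k → Fin k → Bool) : Fin k → Fin k → Bool :=
  fun i j => H j i

/-- Complement of a square array. -/
def compl' {k : ℕ} (H : Fin k → Fin k → Bool) : Fin k → Fin k → Bool :=
  fun i j => !H i j

lemma rowRev_rowRev (H : Fin k → Fin k → Bool) : rowRev (rowRev H) = H := by
  funext i j; simp [rowRev]

lemma colRev_colRev (H : Fin k → Fin k → Bool) : colRev (colRev H) = H := by
  funext i j; simp [colRev]

lemma transp_transp (H : Fin k → Fin k → Bool) : transp (transp H) = H := rfl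

lemma compl_compl' (H : Fin k → Fin k → Bool) : compl' (compl' H) = H := by
  funext i j; simp [compl']

lemma strictMono_rev {f : Fin k → Fin n} (hf : StrictMono f) :
    StrictMono fun i => Fin.rev (f (Fin.rev i)) := by
  intro a b hab
  have h1 : Fin.rev b < Fin.rev a := Fin.rev_lt_rev.mpr hab
  exact Fin.rev_lt_rev.mpr (hf h1)

lemma card_filter_bij {α β : Type*} [Fintype α] [Fintype β] (P : α → Prop) (Q : β → Prop)
    [DecidablePred P] [DecidablePred Q] (f : α → β) (g : β → α)
    (h1 : ∀ p, P p → Q (f p)) (h2 : ∀ p, Q p → P (g p))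
    (h3 : ∀ p, g (f p) = p) (h4 : ∀ p, f (g p) = p) :
    (univ.filter P).card = (univ.filter Q).card := by
  refine card_bij' (fun a _ => f a) (fun b _ => g b) ?_ ?_ ?_ ?_
  · intro a ha
    exact mem_filter.mpr ⟨mem_univ _, h1 a (mem_filter.mp ha).2⟩
  · intro a ha
    exact mem_filter.mpr ⟨mem_univ _, h2 a (mem_filter.mp ha).2⟩
  · intro a _; exact h3 a
  · intro a _; exact h4 a

lemma copies_rowRev (H : Fin k → Fin k → Bool) (A : Fin n → Fin n → Bool) :
    copies (rowRev H) (rowRev A) = copies H A := by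
  unfold copies
  refine card_filter_bij _ _ (fun p => (fun i => Fin.rev (p.1 (Fin.rev i)), p.2))
    (fun p => (fun i => Fin.rev (p.1 (Fin.rev i)), p.2)) ?_ ?_ ?_ ?_
  · rintro p ⟨h1, h2, h3⟩
    refine ⟨strictMono_rev h1, h2, fun i j => ?_⟩
    have := h3 (Fin.rev i) j
    simpa [rowRev] using this
  · rintro p ⟨h1, h2, h3⟩
    refine ⟨strictMono_rev h1, h2, fun i j => ?_⟩
    simpa [rowRev] using h3 (Fin.rev i) j
  · intro p
    ext i <;> simp
  · intro p
    ext i <;> simp

lemma copies_colRev (H : Fin k → Fin k → Bool) (A : Fin n → Fin n → Bool) :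
    copies (colRev H) (colRev A) = copies H A := by
  unfold copies
  refine card_filter_bij _ _ (fun p => (p.1, fun i => Fin.rev (p.2 (Fin.rev i))))
    (fun p => (p.1, fun i => Fin.rev (p.2 (Fin.rev i)))) ?_ ?_ ?_ ?_
  · rintro p ⟨h1, h2, h3⟩
    refine ⟨h1, strictMono_rev h2, fun i j => ?_⟩
    simpa [colRev] using h3 i (Fin.rev j)
  · rintro p ⟨h1, h2, h3⟩
    refine ⟨h1, strictMono_rev h2, fun i j => ?_⟩
    simpa [colRev] using h3 i (Fin.rev j)
  · intro p
    ext i <;> simp
  · intro p
    ext i <;> simp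

lemma copies_transp (H : Fin k → Fin k → Bool) (A : Fin n → Fin n → Bool) :
    copies (transp H) (transp A) = copies H A := by
  unfold copies
  refine card_filter_bij _ _ Prod.swap Prod.swap ?_ ?_ ?_ ?_
  · rintro p ⟨h1, h2, h3⟩
    exact ⟨h2, h1, fun i j => h3 j i⟩
  · rintro p ⟨h1, h2, h3⟩
    exact ⟨h2, h1, fun i j => h3 j i⟩
  · intro p; simp
  · intro p; simp

lemma copies_compl (H : Fin k → Fin k → Bool) (A : Fin n → Fin n → Bool) :
    copies (compl' H) (compl' A) = copies H A := by
  unfold copies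
  refine card_filter_bij _ _ id id ?_ ?_ ?_ ?_
  · rintro p ⟨h1, h2, h3⟩
    refine ⟨h1, h2, fun i j => ?_⟩
    have := h3 i j
    simpa [compl'] using this
  · rintro p ⟨h1, h2, h3⟩
    refine ⟨h1, h2, fun i j => ?_⟩
    simp [compl', h3 i j]
  · intro p; rfl
  · intro p; rfl

lemma diffCount_rowRev (A B : Fin n → Fin n → Bool) :
    diffCount (rowRev A) (rowRev B) = diffCount A B := by
  unfold diffCount
  refine card_filter_bij _ _ (fun p => (Fin.rev p.1, p.2)) (fun p => (Fin.rev p.1, p.2)) ?_ ?_ ?_ ?_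
  · intro p hp
    simpa [rowRev] using hp
  · intro p hp
    simpa [rowRev] using hp
  · intro p; simp
  · intro p; simp

lemma diffCount_colRev (A B : Fin n → Fin n → Bool) :
    diffCount (colRev A) (colRev B) = diffCount A B := by
  unfold diffCount
  refine card_filter_bij _ _ (fun p => (p.1, Fin.rev p.2)) (fun p => (p.1, Fin.rev p.2)) ?_ ?_ ?_ ?_
  · intro p hp
    simpa [colRev] using hp
  · intro p hp
    simpa [colRev] using hp
  · intro p; simp
  · intro p; simp

lemma diffCount_transp (A B : Fin n → Fin n → Bool) :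
    diffCount (transp A) (transp B) = diffCount A B := by
  unfold diffCount
  refine card_filter_bij _ _ Prod.swap Prod.swap ?_ ?_ ?_ ?_
  · intro p hp
    exact hp
  · intro p hp
    exact hp
  · intro p; simp
  · intro p; simp

lemma diffCount_compl (A B : Fin n → Fin n → Bool) :
    diffCount (compl' A) (compl' B) = diffCount A B := by
  unfold diffCount
  refine card_filter_bij _ _ id id ?_ ?_ ?_ ?_
  · intro p hp
    simpa [compl'] using hp
  · intro p hp
    simpa [compl'] using hp
  · intro p; rfl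
  · intro p; rfl

/-- Removal with exponent `20` for a `2 × 2` pattern. -/
def Rem (H : Fin 2 → Fin 2 → Bool) : Prop :=
  ∀ (n : ℕ), 1 ≤ n → ∀ (A : Fin n → Fin n → Bool) (ε : ℝ), 0 < ε → ε < 1 →
    (∀ B : Fin n → Fin n → Bool, copies H B = 0 → ε * (n : ℝ) ^ 2 ≤ diffCount A B) →
    ε ^ 20 / 10 ^ 26 * (n : ℝ) ^ 4 ≤ copies H A

lemma Rem.rowRev {H : Fin 2 → Fin 2 → Bool} (h : Rem H) : Rem (rowRev H) := by
  intro n hn A ε hε hε1 hfar
  have h1 := h n hn (Vale.Agent.P037.rowRev A) ε hε hε1 (fun B hB => by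
    have h2 := hfar (Vale.Agent.P037.rowRev B) (by rw [copies_rowRev]; exact hB)
    rw [← diffCount_rowRev, rowRev_rowRev] at h2
    exact h2)
  rwa [← copies_rowRev, rowRev_rowRev] at h1

lemma Rem.colRev {H : Fin 2 → Fin 2 → Bool} (h : Rem H) : Rem (colRev H) := by
  intro n hn A ε hε hε1 hfar
  have h1 := h n hn (Vale.Agent.P037.colRev A) ε hε hε1 (fun B hB => by
    have h2 := hfar (Vale.Agent.P037.colRev B) (by rw [copies_colRev]; exact hB)
    rw [← diffCount_colRev, colRev_colRev] at h2
    exact h2)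
  rwa [← copies_colRev, colRev_colRev] at h1

lemma Rem.transp {H : Fin 2 → Fin 2 → Bool} (h : Rem H) : Rem (transp H) := by
  intro n hn A ε hε hε1 hfar
  have h1 := h n hn (Vale.Agent.P037.transp A) ε hε hε1 (fun B hB => by
    have h2 := hfar (Vale.Agent.P037.transp B) (by rw [copies_transp]; exact hB)
    rw [← diffCount_transp, transp_transp] at h2
    exact h2)
  rwa [← copies_transp, transp_transp] at h1

lemma Rem.compl {H : Fin 2 → Fin 2 → Bool} (h : Rem H) : Rem (compl' H) := by
  intro n hn A ε hε hε1 hfar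
  have h1 := h n hn (compl' A) ε hε hε1 (fun B hB => by
    have h2 := hfar (compl' B) (by rw [copies_compl]; exact hB)
    rw [← diffCount_compl, compl_compl'] at h2
    exact h2)
  rwa [← copies_compl, compl_compl'] at h1

lemma rem_of_bound {H : Fin 2 → Fin 2 → Bool} {a : ℝ} {p : ℕ} (hp : p ≤ 20) (ha : 0 ≤ a)
    (ha2 : 1 / 10 ^ 26 ≤ a)
    (h : ∀ (n : ℕ), 1 ≤ n → ∀ (A : Fin n → Fin n → Bool) (ε : ℝ), 0 < ε → ε < 1 →
      (∀ B : Fin n → Fin n → Bool, copies H B = 0 → ε * (n : ℝ) ^ 2 ≤ diffCount A B) →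
      (ε ^ p * a) * (n : ℝ) ^ 4 ≤ copies H A) : Rem H := by
  intro n hn A ε hε hε1 hfar
  refine le_trans ?_ (h n hn A ε hε hε1 hfar)
  apply mul_le_mul_of_nonneg_right _ (by positivity)
  have h20 : ε ^ 20 ≤ ε ^ p := pow_le_pow_of_le_one hε.le hε1.le hp
  calc ε ^ 20 / 10 ^ 26 = ε ^ 20 * (1 / 10 ^ 26) := by ring
    _ ≤ ε ^ p * a := mul_le_mul h20 ha2 (by positivity) (by positivity)

lemma rem_patX : Rem patX := by
  refine rem_of_bound (p := 10) (a := 1 / (144 * 10 ^ 8)) (by norm_num) (by norm_num) (by norm_num) ?_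
  intro n hn A ε hε hε1 hfar
  have := diag_removal hn A ε hε hε1 hfar
  rwa [div_eq_mul_one_div] at this

lemma rem_patG : Rem patG := by
  intro n hn A ε hε hε1 hfar
  exact gamma_removal hn A ε hε hε1 hfar

lemma rem_ones : Rem (patRC true true) := by
  refine rem_of_bound (p := 8) (a := 1 / 4096) (by norm_num) (by norm_num) (by norm_num) ?_
  intro n hn A ε hε hε1 hfar
  have := ones_removal hn A ε hε hε1 hfar
  rwa [div_eq_mul_one_div] at this

lemma rem_rows : Rem (patRC true false) := by
  refine rem_of_bound (p := 8) (a := 1 / 4096) (by norm_num) (by norm_num) (by norm_num) ?_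
  intro n hn A ε hε hε1 hfar
  have := rows_removal hn A ε hε hε1 hfar
  rwa [div_eq_mul_one_div] at this

lemma eta_two (H : Fin 2 → Fin 2 → Bool) : H = ![![H 0 0, H 0 1], ![H 1 0, H 1 1]] := by
  funext i j
  fin_cases i <;> fin_cases j <;> rfl

lemma rem_vec (a b c d : Bool) (h : Rem ![![a, b], ![c, d]]) : Rem ![![c, d], ![a, b]] := by
  have h1 := h.rowRev
  convert h1 using 1
  funext i j
  fin_cases i <;> fin_cases j <;> rfl

lemma rem_vec_col (a b c d : Bool) (h : Rem ![![a, b], ![c, d]]) : Rem ![![b, a], ![d, c]] := by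
  have h1 := h.colRev
  convert h1 using 1
  funext i j
  fin_cases i <;> fin_cases j <;> rfl

lemma rem_vec_tr (a b c d : Bool) (h : Rem ![![a, b], ![c, d]]) : Rem ![![a, c], ![b, d]] := by
  have h1 := h.transp
  convert h1 using 1
  funext i j
  fin_cases i <;> fin_cases j <;> rfl

lemma rem_vec_not (a b c d : Bool) (h : Rem ![![a, b], ![c, d]]) :
    Rem ![![!a, !b], ![!c, !d]] := by
  have h1 := h.compl
  convert h1 using 1
  funext i j
  fin_cases i <;> fin_cases j <;> rfl

/-- All sixteen patterns. -/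
theorem rem_all (H : Fin 2 → Fin 2 → Bool) : Rem H := by
  rw [eta_two H]
  generalize H 0 0 = a
  generalize H 0 1 = b
  generalize H 1 0 = c
  generalize H 1 1 = d
  have hX : Rem ![![true, false], ![false, true]] := rem_patX
  have hG : Rem ![![true, true], ![true, false]] := rem_patG
  have hO : Rem ![![true, true], ![true, true]] := rem_ones
  have hR : Rem ![![true, true], ![false, false]] := rem_rows
  have hG1 := rem_vec _ _ _ _ hG
  have hG2 := rem_vec_col _ _ _ _ hG
  have hG3 := rem_vec_col _ _ _ _ hG1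
  have hG4 := rem_vec_not _ _ _ _ hG
  have hG5 := rem_vec_not _ _ _ _ hG1
  have hG6 := rem_vec_not _ _ _ _ hG2
  have hG7 := rem_vec_not _ _ _ _ hG3
  have hX1 := rem_vec _ _ _ _ hX
  have hO1 := rem_vec_not _ _ _ _ hO
  have hR1 := rem_vec _ _ _ _ hR
  have hR2 := rem_vec_tr _ _ _ _ hR
  have hR3 := rem_vec_tr _ _ _ _ hR1
  simp only [Bool.not_true, Bool.not_false] at hG4 hG5 hG6 hG7 hO1
  cases a <;> cases b <;> cases c <;> cases d <;> assumption

end Vale.Agent.P037
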