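import Vale.Agent.P037.Blow
import Vale.Agent.P037.Sym

/-!
Block families of patterns with polynomial removal.
-/

namespace Vale.Agent.P037

open Finset

/-- Every `2 × 2` pattern has polynomial removal. -/
theorem polyRem_two (H : Fin 2 → Fin 2 → Bool) : PolyRem H := by
  refine ⟨1 / 10 ^ 26, 20, by norm_num, by norm_num, ?_⟩
  intro n ε A hε hε1 hfar
  rcases Nat.eq_zero_or_pos n with h0 | hnpos
  · subst h0
    simp
  · have h := rem_all H n hnpos A ε hε hε1 hfar
    rw [rcopies_eq_copies]
    calc (1 / 10 ^ 26 : ℝ) * ε ^ 20 * (n : ℝ) ^ (2 + 2) = ε ^ 20 / 10 ^ 26 * (n : ℝ) ^ 4 := by ring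
      _ ≤ _ := h

/-- The number of changes of a word before position `j`. -/
def changes (v : ℕ → Bool) : ℕ → ℕ
  | 0 => 0
  | j + 1 => changes v j + if v (j + 1) = v j then 0 else 1

lemma changes_mono (v : ℕ → Bool) : Monotone (changes v) := by
  apply monotone_nat_of_le_succ
  intro j
  simp only [changes]
  omega

lemma changes_step (v : ℕ → Bool) (j : ℕ) : changes v (j + 1) ≤ changes v j + 1 := by
  simp only [changes]
  split_ifs <;> omega

lemma changes_val (v : ℕ → Bool) (j : ℕ) :
    v j = xor (v 0) (decide (changes v j % 2 = 1)) := by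
  induction j with
  | zero => simp [changes]
  | succ j ih =>
    simp only [changes]
    by_cases h : v (j + 1) = v j
    · simp only [h, if_true, add_zero]
      exact ih
    · simp only [h, if_false]
      have h2 : v (j + 1) = !v j := by
        cases hv : v (j + 1) <;> cases hw : v j <;> simp_all
      rw [h2, ih]
      have h3 : (changes v j + 1) % 2 = 1 ↔ ¬ changes v j % 2 = 1 := by omega
      cases h0 : v 0 <;> by_cases h4 : changes v j % 2 = 1 <;> simp [h4, h3]

lemma changes_ivt (v : ℕ → Bool) (m y : ℕ) (hy : y ≤ changes v m) :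
    ∃ j, j ≤ m ∧ changes v j = y := by
  induction m with
  | zero => exact ⟨0, le_rfl, by simpa [changes] using (Nat.le_zero.mp (by simpa [changes] using hy)).symm⟩
  | succ m ih =>
    by_cases h : y ≤ changes v m
    · obtain ⟨j, hj, hjy⟩ := ih h
      exact ⟨j, by omega, hjy⟩
    · have := changes_step v m
      exact ⟨m + 1, le_rfl, by omega⟩

/-- Every word is a block blow-up of an alternating word. -/
lemma word_alt {k : ℕ} (hk : 0 < k) (u : Fin k → Bool) :
    ∃ (ℓ : ℕ) (s : Bool) (ψ : Fin k → Fin ℓ), 0 < ℓ ∧ Monotone ψ ∧ Function.Surjective ψ ∧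
      ∀ j, u j = xor s (decide ((ψ j).val % 2 = 1)) := by
  set v : ℕ → Bool := fun j => if h : j < k then u ⟨j, h⟩ else false with hv
  have hbd : ∀ j : Fin k, changes v j.val < changes v (k - 1) + 1 := by
    intro j
    exact Nat.lt_succ_of_le (changes_mono v (by have := j.isLt; omega))
  refine ⟨changes v (k - 1) + 1, v 0, fun j => ⟨changes v j.val, hbd j⟩, by omega, ?_, ?_, ?_⟩
  · intro i j hij
    rw [Fin.le_def]
    exact changes_mono v hij
  · intro y
    have hy : y.val ≤ changes v (k - 1) := by have := y.isLt; omega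
    obtain ⟨j, hj, hjy⟩ := changes_ivt v (k - 1) y.val hy
    refine ⟨⟨j, by omega⟩, ?_⟩
    apply Fin.ext
    exact hjy
  · intro j
    have h := changes_val v j.val
    have e : v j.val = u j := by
      simp only [hv, j.isLt, dif_pos]
    rw [e] at h
    exact h

/-- The two-block map `i ↦ (i ≥ t)`. -/
def blockMap (k t : ℕ) (i : Fin k) : Fin 2 := if i.val < t then 0 else 1

lemma blockMap_mono (k t : ℕ) : Monotone (blockMap k t) := by
  intro i j hij
  have hij' : i.val ≤ j.val := hij
  unfold blockMap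
  by_cases h1 : i.val < t
  · rw [if_pos h1]
    exact Fin.zero_le _
  · rw [if_neg h1, if_neg (by omega)]

lemma blockMap_surj {k t : ℕ} (h0 : 0 < t) (h1 : t < k) : Function.Surjective (blockMap k t) := by
  intro y
  fin_cases y
  · refine ⟨⟨0, by omega⟩, ?_⟩
    simp [blockMap, h0]
  · refine ⟨⟨t, h1⟩, ?_⟩
    simp [blockMap]

/-- Rows in two blocks: a word and its complement. -/
theorem polyRem_rows {k : ℕ} (H : Fin k → Fin k → Bool) (t : ℕ) (u : Fin k → Bool)
    (h0 : 0 < t) (h1 : t < k) (hH : ∀ i j, H i j = if i.val < t then u j else !u j) :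
    PolyRem H := by
  obtain ⟨ℓ, s, ψ, hℓ, hψm, hψs, hu⟩ := word_alt (by omega) u
  have h := polyRem_blow (alt ℓ s) (blockMap k t) ψ (blockMap_mono k t) (blockMap_surj h0 h1) hψm hψs
    (polyRem_alt ℓ hℓ s)
  have e : H = fun i j => alt ℓ s (blockMap k t i) (ψ j) := by
    funext i j
    rw [hH]
    by_cases hi : i.val < t
    · simp only [hi, if_true, blockMap, hu j, alt_zero]
    · simp only [hi, if_false, blockMap, hu j, alt_one, alt_zero]
  rw [e]
  exact h

/-- Columns in two blocks: a word and its complement. -/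
theorem polyRem_cols {k : ℕ} (H : Fin k → Fin k → Bool) (t : ℕ) (u : Fin k → Bool)
    (h0 : 0 < t) (h1 : t < k) (hH : ∀ i j, H i j = if j.val < t then u i else !u i) :
    PolyRem H :=
  polyRem_tr (tr H) (polyRem_rows (tr H) t u h0 h1 (fun i j => hH j i))

/-- Two row blocks and two column blocks, arbitrary values. -/
theorem polyRem_blocks {k : ℕ} (H : Fin k → Fin k → Bool) (t t' : ℕ) (M : Bool → Bool → Bool)
    (h0 : 0 < t) (h1 : t < k) (h0' : 0 < t') (h1' : t' < k)
    (hH : ∀ i j, H i j = M (decide (i.val < t)) (decide (j.val < t'))) : PolyRem H := by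
  have h := polyRem_blow (fun a b : Fin 2 => M (decide (a = 0)) (decide (b = 0))) (blockMap k t)
    (blockMap k t') (blockMap_mono k t) (blockMap_surj h0 h1) (blockMap_mono k t')
    (blockMap_surj h0' h1') (polyRem_two _)
  have e : H = fun i j => M (decide (blockMap k t i = 0)) (decide (blockMap k t' j = 0)) := by
    funext i j
    rw [hH]
    by_cases hi : i.val < t <;> by_cases hj : j.val < t' <;> simp [blockMap, hi, hj]
  rw [e]
  exact h

/-- The square form of polynomial removal. -/
theorem square_of_polyRem {k : ℕ} (H : Fin k → Fin k → Bool) (h : PolyRem H) :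
    ∃ (c : ℝ) (C : ℕ), 0 < c ∧ 0 < C ∧ ∀ (n : ℕ) (A : Fin n → Fin n → Bool) (ε : ℝ),
      0 < ε → ε < 1 → (∀ B : Fin n → Fin n → Bool, copies H B = 0 → ε * (n : ℝ) ^ 2 ≤ diffCount A B) →
      c * ε ^ C * (n : ℝ) ^ (2 * k) ≤ copies H A := by
  obtain ⟨c, C, hc, hC, hR⟩ := h
  refine ⟨c, C, hc, hC, ?_⟩
  intro n A ε hε hε1 hfar
  have h1 := hR n ε A hε hε1 hfar
  rw [two_mul]
  exact h1

end Vale.Agent.P037
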