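import Vale.Agent.P037.AltBand

/-!
Deleting few rows and building the free matrix.
-/

namespace Vale.Agent.P037

open Finset

variable {n : ℕ}

/-- The elements of `S` with fewer than `y` smaller elements in `S`. -/
def firstY {α : Type*} [LinearOrder α] (S : Finset α) (y : ℕ) : Finset α :=
  S.filter fun r => (S.filter (· < r)).card < y

/-- The elements of `S` with fewer than `y` larger elements in `S`. -/
def lastY {α : Type*} [LinearOrder α] (S : Finset α) (y : ℕ) : Finset α :=
  S.filter fun r => (S.filter (r < ·)).card < y

lemma firstY_card {α : Type*} [LinearOrder α] (S : Finset α) (y : ℕ) :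
    (firstY S y).card ≤ y := by
  have : (firstY S y).card ≤ (range y).card := by
    apply card_le_card_of_injOn (fun r => (S.filter (· < r)).card)
    · intro r hr
      have hr' := (mem_filter.mp (mem_coe.mp hr)).2
      exact mem_coe.mpr (mem_range.mpr hr')
    · intro a ha b hb hab
      have ha' := (mem_filter.mp (mem_coe.mp ha)).1
      have hb' := (mem_filter.mp (mem_coe.mp hb)).1
      by_contra hne
      rcases lt_or_gt_of_ne hne with hlt | hlt
      · have : (S.filter (· < a)).card < (S.filter (· < b)).card := by
          apply card_lt_card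
          refine ⟨fun x hx => ?_, fun hsub => ?_⟩
          · have := mem_filter.mp hx
            exact mem_filter.mpr ⟨this.1, lt_trans this.2 hlt⟩
          · have := hsub (mem_filter.mpr ⟨ha', hlt⟩)
            exact lt_irrefl _ (mem_filter.mp this).2
        simp only at hab
        omega
      · have : (S.filter (· < b)).card < (S.filter (· < a)).card := by
          apply card_lt_card
          refine ⟨fun x hx => ?_, fun hsub => ?_⟩
          · have := mem_filter.mp hx
            exact mem_filter.mpr ⟨this.1, lt_trans this.2 hlt⟩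
          · have := hsub (mem_filter.mpr ⟨hb', hlt⟩)
            exact lt_irrefl _ (mem_filter.mp this).2
        simp only at hab
        omega
  simpa using this

lemma lastY_card {α : Type*} [LinearOrder α] (S : Finset α) (y : ℕ) :
    (lastY S y).card ≤ y := by
  have : (lastY S y).card ≤ (range y).card := by
    apply card_le_card_of_injOn (fun r => (S.filter (r < ·)).card)
    · intro r hr
      have hr' := (mem_filter.mp (mem_coe.mp hr)).2
      exact mem_coe.mpr (mem_range.mpr hr')
    · intro a ha b hb hab
      have ha' := (mem_filter.mp (mem_coe.mp ha)).1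
      have hb' := (mem_filter.mp (mem_coe.mp hb)).1
      by_contra hne
      rcases lt_or_gt_of_ne hne with hlt | hlt
      · have : (S.filter (b < ·)).card < (S.filter (a < ·)).card := by
          apply card_lt_card
          refine ⟨fun x hx => ?_, fun hsub => ?_⟩
          · have := mem_filter.mp hx
            exact mem_filter.mpr ⟨this.1, lt_trans hlt this.2⟩
          · have := hsub (mem_filter.mpr ⟨hb', hlt⟩)
            exact lt_irrefl _ (mem_filter.mp this).2
        simp only at hab
        omega
      · have : (S.filter (a < ·)).card < (S.filter (b < ·)).card := by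
          apply card_lt_card
          refine ⟨fun x hx => ?_, fun hsub => ?_⟩
          · have := mem_filter.mp hx
            exact mem_filter.mpr ⟨this.1, lt_trans hlt this.2⟩
          · have := hsub (mem_filter.mpr ⟨ha', hlt⟩)
            exact lt_irrefl _ (mem_filter.mp this).2
        simp only at hab
        omega
  simpa using this

/-- A monotone retraction of a finite linear order onto a nonempty subset. -/
lemma exists_mono_retract (S : Finset (Fin n)) (hS : S.Nonempty) :
    ∃ ρ : Fin n → Fin n, Monotone ρ ∧ (∀ r, ρ r ∈ S) ∧ ∀ r ∈ S, ρ r = r := by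
  classical
  let ρ : Fin n → Fin n := fun r =>
    if h : (S.filter (· ≤ r)).Nonempty then (S.filter (· ≤ r)).max' h else S.min' hS
  have hmem : ∀ r, ρ r ∈ S := by
    intro r
    simp only [ρ]
    split_ifs with h
    · exact (mem_filter.mp (max'_mem _ h)).1
    · exact min'_mem S hS
  refine ⟨ρ, ?_, hmem, ?_⟩
  · intro a b hab
    simp only [ρ]
    by_cases ha : (S.filter (· ≤ a)).Nonempty
    · have hb : (S.filter (· ≤ b)).Nonempty := by
        obtain ⟨x, hx⟩ := ha
        have := mem_filter.mp hx
        exact ⟨x, mem_filter.mpr ⟨this.1, le_trans this.2 hab⟩⟩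
      rw [dif_pos ha, dif_pos hb]
      apply max'_le
      intro x hx
      have := mem_filter.mp hx
      exact le_max' (S.filter (· ≤ b)) x (mem_filter.mpr ⟨this.1, le_trans this.2 hab⟩)
    · rw [dif_neg ha]
      split_ifs with hb
      · obtain ⟨x, hx⟩ := hb
        have hx' := mem_filter.mp hx
        exact le_trans (min'_le S x hx'.1) (le_max' _ x hx)
      · exact le_refl _
  · intro r hr
    simp only [ρ]
    have h : (S.filter (· ≤ r)).Nonempty := ⟨r, mem_filter.mpr ⟨hr, le_refl _⟩⟩
    rw [dif_pos h]
    apply le_antisymm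
    · exact (mem_filter.mp (max'_mem _ h)).2
    · exact le_max' (S.filter (· ≤ r)) r (mem_filter.mpr ⟨hr, le_refl _⟩)

section build

variable (A : Fin n → Fin n → Bool) (w g h : ℕ) (jj : ℕ → ℕ)

open Classical in
/-- The rows lying in a band in one of the first `t` windows. -/
noncomputable def bnd (t : ℕ) : Finset (Fin n) :=
  (range t).biUnion fun v => univ.filter fun r => inBand h g (jj v) (cnt A w r v + g)

lemma not_mem_bnd {t v : ℕ} {r : Fin n} (hr : r ∉ bnd A w g h jj t) (hv : v < t) :
    ¬ inBand h g (jj v) (cnt A w r v + g) := by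
  classical
  intro hc
  apply hr
  exact mem_biUnion.mpr ⟨v, mem_range.mpr hv, mem_filter.mpr ⟨mem_univ _, hc⟩⟩

open Classical in
/-- Rows outside the bands following the word `e` along the thresholds `τ`. -/
noncomputable def pSet (t : ℕ) {ℓ : ℕ} (e : Fin ℓ → Bool) (τ : Fin ℓ → ℕ × ℕ) : Finset (Fin n) :=
  univ.filter fun r => r ∉ bnd A w g h jj t ∧ ∀ j, (high A w g h jj r (τ j).1 (τ j).2 ↔ e j = true)

open Classical in
/-- Rows outside the bands following the complementary word. -/
noncomputable def qSet (t : ℕ) {ℓ : ℕ} (e : Fin ℓ → Bool) (τ : Fin ℓ → ℕ × ℕ) : Finset (Fin n) :=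
  univ.filter fun r => r ∉ bnd A w g h jj t ∧ ∀ j, (high A w g h jj r (τ j).1 (τ j).2 ↔ e j = false)

open Classical in
/-- Index set of threshold sequences. -/
noncomputable def tauSet (t I ℓ : ℕ) : Finset (Fin ℓ → ℕ × ℕ) :=
  Fintype.piFinset fun _ => range t ×ˢ range (I + 1)

lemma tauSet_card (t I ℓ : ℕ) : (tauSet t I ℓ).card = (t * (I + 1)) ^ ℓ := by
  classical
  simp [tauSet, Fintype.card_piFinset]

open Classical in
/-- The rows that get deleted. -/
noncomputable def delSet (t I y : ℕ) {ℓ : ℕ} (e : Fin ℓ → Bool) : Finset (Fin n) :=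
  bnd A w g h jj t ∪ (tauSet t I ℓ).biUnion fun τ =>
    firstY (pSet A w g h jj t e τ) y ∪ lastY (qSet A w g h jj t e τ) y

open Classical in
lemma bnd_card (t J : ℕ) (hjj : ∀ v, J * (univ.filter fun r =>
      inBand h g (jj v) (cnt A w r v + g)).card ≤ n) (hJ : 0 < J) :
    (bnd A w g h jj t).card ≤ t * n / J := by
  classical
  rw [Nat.le_div_iff_mul_le hJ, mul_comm]
  calc J * (bnd A w g h jj t).card
      ≤ J * ∑ v ∈ range t, (univ.filter fun r => inBand h g (jj v) (cnt A w r v + g)).card :=
        Nat.mul_le_mul_left _ card_biUnion_le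
    _ = ∑ v ∈ range t, J * (univ.filter fun r => inBand h g (jj v) (cnt A w r v + g)).card := by
        rw [mul_sum]
    _ ≤ ∑ _v ∈ range t, n := sum_le_sum fun v _ => hjj v
    _ = t * n := by simp

open Classical in
lemma delSet_card (t I y J : ℕ) {ℓ : ℕ} (e : Fin ℓ → Bool)
    (hjj : ∀ v, J * (univ.filter fun r => inBand h g (jj v) (cnt A w r v + g)).card ≤ n)
    (hJ : 0 < J) :
    (delSet A w g h jj t I y e).card ≤ t * n / J + (t * (I + 1)) ^ ℓ * (2 * y) := by
  classical
  unfold delSet
  refine le_trans (card_union_le _ _) (add_le_add (bnd_card A w g h jj t J hjj hJ) ?_)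
  calc _ ≤ ∑ τ ∈ tauSet t I ℓ, (firstY (pSet A w g h jj t e τ) y ∪
        lastY (qSet A w g h jj t e τ) y).card := card_biUnion_le
    _ ≤ ∑ _τ ∈ tauSet t I ℓ, (2 * y) := by
        apply sum_le_sum
        intro τ _
        refine le_trans (card_union_le _ _) ?_
        have h1 := firstY_card (pSet A w g h jj t e τ) y
        have h2 := lastY_card (qSet A w g h jj t e τ) y
        omega
    _ = (t * (I + 1)) ^ ℓ * (2 * y) := by
        rw [sum_const, tauSet_card, smul_eq_mul]

end build

end Vale.Agent.P037
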