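import Vale.Agent.P037.AltFree

/-!
Counting copies from rich pairs, and the free matrix in terms of the alternating pattern.
-/

namespace Vale.Agent.P037

open Finset

variable {n : ℕ}

lemma rich_columns (A : Fin n → Fin n → Bool) (w h : ℕ) {ℓ : ℕ} (e : Fin ℓ → Bool) (r s : Fin n)
    (hr : Rich A w h e r s) :
    ∃ S : Finset (Fin ℓ → Fin n), h ^ ℓ ≤ S.card ∧
      ∀ c ∈ S, StrictMono c ∧ ∀ j, A r (c j) = e j ∧ A s (c j) = !e j := by
  classical
  obtain ⟨W, hW, hcount⟩ := hr
  let E : Fin ℓ → Finset (Fin n) := fun j =>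
    univ.filter fun c => c.val / w = W j ∧ A r c = e j ∧ A s c = !e j
  have hE : ∀ j, h ≤ (E j).card := by
    intro j
    have := hcount j
    by_cases hej : e j = true
    · rw [if_pos hej] at this
      simpa [E, la, hej] using this
    · rw [if_neg hej] at this
      have hej' : e j = false := by simpa using hej
      simpa [E, lb, hej'] using this
  refine ⟨Fintype.piFinset E, ?_, ?_⟩
  · rw [Fintype.card_piFinset]
    calc h ^ ℓ = ∏ _j : Fin ℓ, h := by simp
      _ ≤ ∏ j, (E j).card := prod_le_prod' fun j _ => hE j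
  · intro c hc
    have hc' := Fintype.mem_piFinset.mp hc
    have hmem : ∀ j, (c j).val / w = W j ∧ A r (c j) = e j ∧ A s (c j) = !e j := by
      intro j
      have := hc' j
      simpa [E] using this
    refine ⟨?_, fun j => (hmem j).2⟩
    intro a b hab
    by_contra hcon
    have hle : (c b).val ≤ (c a).val := not_lt.mp hcon
    have h1 := Nat.div_le_div_right (c := w) hle
    rw [(hmem a).1, (hmem b).1] at h1
    exact absurd (hW hab) (not_lt.mpr h1)

lemma strictMono_pair (r s : Fin n) (h : r < s) : StrictMono ![r, s] := by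
  intro a b hab
  fin_cases a <;> fin_cases b <;> simp_all

/-- Every rich pair yields at least `h ^ ℓ` copies of the alternating pattern. -/
lemma rcopies_ge (A : Fin n → Fin n → Bool) (w h : ℕ) (ℓ : ℕ) (s : Bool) :
    (richSet A w h (alt ℓ s 0)).card * h ^ ℓ ≤ rcopies (alt ℓ s) A := by
  classical
  set e := alt ℓ s 0 with he
  have hex : ∀ p ∈ richSet A w h e, ∃ S : Finset (Fin ℓ → Fin n), h ^ ℓ ≤ S.card ∧
      ∀ c ∈ S, StrictMono c ∧ ∀ j, A p.1 (c j) = e j ∧ A p.2 (c j) = !e j := by
    intro p hp
    exact rich_columns A w h e p.1 p.2 (mem_filter.mp hp).2.2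
  choose! S hS1 hS2 using hex
  have hlt : ∀ p ∈ richSet A w h e, p.1 < p.2 := fun p hp => (mem_filter.mp hp).2.1
  unfold rcopies
  calc (richSet A w h e).card * h ^ ℓ
      = ∑ _p ∈ richSet A w h e, h ^ ℓ := by simp
    _ ≤ ∑ p ∈ richSet A w h e, (S p).card := sum_le_sum hS1
    _ = ((richSet A w h e).sigma S).card := (card_sigma _ _).symm
    _ ≤ _ := by
        apply card_le_card_of_injOn
          (fun x : (Σ _ : Fin n × Fin n, Fin ℓ → Fin n) => (![x.1.1, x.1.2], x.2))
        · intro x hx
          have hx' := mem_sigma.mp (mem_coe.mp hx)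
          have h1 := hS2 x.1 hx'.1 x.2 hx'.2
          refine mem_coe.mpr (mem_filter.mpr ⟨mem_univ _, strictMono_pair _ _ (hlt x.1 hx'.1), h1.1, ?_⟩)
          intro i j
          fin_cases i
          · simpa [he] using (h1.2 j).1
          · have := (h1.2 j).2
            simp only [Fin.mk_one, Matrix.cons_val_one, Matrix.cons_val_fin_one]
            rw [this, alt_one]
        · intro x _ y _ hxy
          simp only [Prod.mk.injEq] at hxy
          obtain ⟨⟨a1, b1⟩, c1⟩ := x
          obtain ⟨⟨a2, b2⟩, c2⟩ := y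
          simp only at hxy
          have h0 := congrFun hxy.1 0
          have h1 := congrFun hxy.1 1
          simp at h0 h1
          subst h0 h1
          have := hxy.2
          subst this
          rfl

/-- The alternating words change at each step. -/
lemma alt_zero_ne (ℓ : ℕ) (s : Bool) (j j' : Fin ℓ) (h : j.val + 1 = j'.val) :
    alt ℓ s 0 j ≠ alt ℓ s 0 j' := by
  rw [alt_zero, alt_zero, ← h]
  have h2 : j.val % 2 = 0 ∨ j.val % 2 = 1 := by omega
  rcases h2 with h3 | h3
  · have h4 : (j.val + 1) % 2 = 1 := by omega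
    simp [h3, h4]
  · have h4 : (j.val + 1) % 2 = 0 := by omega
    simp [h3, h4]

/-- Freeness of the word implies that the matrix has no copy of the alternating pattern. -/
lemma rcopies_eq_zero_of_free (B : Fin n → Fin n → Bool) (ℓ : ℕ) (s : Bool)
    (hB : ∀ (r s' : Fin n) (cc : Fin ℓ → Fin n), r < s' → StrictMono cc →
        ¬ ∀ j, B r (cc j) = alt ℓ s 0 j ∧ B s' (cc j) = !alt ℓ s 0 j) :
    rcopies (alt ℓ s) B = 0 := by
  classical
  unfold rcopies
  rw [card_eq_zero, filter_eq_empty_iff]
  intro p _ hp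
  apply hB (p.1 0) (p.1 1) p.2 (hp.1 (by simp)) hp.2.1
  intro j
  refine ⟨hp.2.2 0 j, ?_⟩
  rw [hp.2.2 1 j, alt_one]

end Vale.Agent.P037
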