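import Vale.Agent.P037.Rect

/-!
Window counts and the threshold fit for a single column.
-/

namespace Vale.Agent.P037

open Finset

variable {n : ℕ}

/-- Number of ones of row `r` in the window number `v` of width `w`. -/
def cnt (A : Fin n → Fin n → Bool) (w : ℕ) (r : Fin n) (v : ℕ) : ℕ :=
  (univ.filter fun c : Fin n => c.val / w = v ∧ A r c = true).card

/-- Columns of window `v` where `r` has a one and `s` a zero. -/
def la (A : Fin n → Fin n → Bool) (w : ℕ) (r s : Fin n) (v : ℕ) : ℕ :=
  (univ.filter fun c : Fin n => c.val / w = v ∧ A r c = true ∧ A s c = false).card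

/-- Columns of window `v` where `r` has a zero and `s` a one. -/
def lb (A : Fin n → Fin n → Bool) (w : ℕ) (r s : Fin n) (v : ℕ) : ℕ :=
  (univ.filter fun c : Fin n => c.val / w = v ∧ A r c = false ∧ A s c = true).card

lemma la_swap (A : Fin n → Fin n → Bool) (w : ℕ) (r s : Fin n) (v : ℕ) :
    la A w r s v = lb A w s r v := by
  unfold la lb
  congr 1
  ext c
  simp only [mem_filter, mem_univ, true_and]
  tauto

lemma cnt_add_lb (A : Fin n → Fin n → Bool) (w : ℕ) (r s : Fin n) (v : ℕ) :
    cnt A w r v + lb A w r s v = cnt A w s v + la A w r s v := by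
  classical
  have h1 : cnt A w r v = (univ.filter fun c : Fin n =>
      c.val / w = v ∧ A r c = true ∧ A s c = true).card + la A w r s v := by
    unfold cnt la
    rw [← card_union_of_disjoint]
    · congr 1
      ext c
      simp only [mem_filter, mem_univ, true_and, mem_union]
      cases A r c <;> cases A s c <;> simp
    · rw [disjoint_left]
      intro c hc hc'
      simp only [mem_filter, mem_univ, true_and] at hc hc'
      rw [hc.2.2] at hc'
      simp at hc'
  have h2 : cnt A w s v = (univ.filter fun c : Fin n =>
      c.val / w = v ∧ A r c = true ∧ A s c = true).card + lb A w r s v := by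
    unfold cnt lb
    rw [← card_union_of_disjoint]
    · congr 1
      ext c
      simp only [mem_filter, mem_univ, true_and, mem_union]
      cases A r c <;> cases A s c <;> simp
    · rw [disjoint_left]
      intro c hc hc'
      simp only [mem_filter, mem_univ, true_and] at hc hc'
      rw [hc.2.1] at hc'
      simp at hc'
  omega

lemma fiber_card_le (w : ℕ) (hw : 0 < w) (v : ℕ) :
    (univ.filter fun c : Fin n => c.val / w = v).card ≤ w := by
  have : (univ.filter fun c : Fin n => c.val / w = v).card ≤ (Ico (v * w) (v * w + w)).card := by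
    apply card_le_card_of_injOn (fun c => c.val)
    · intro c hc
      have hc' : c.val / w = v := by simpa using hc
      have h1 := Nat.div_add_mod c.val w
      have h2 := Nat.mod_lt c.val hw
      rw [hc', mul_comm] at h1
      simp only [coe_Ico, Set.mem_Ico]
      constructor <;> omega
    · intro a _ b _ hab
      exact Fin.ext hab
  simpa using this

lemma la_le (A : Fin n → Fin n → Bool) (w : ℕ) (hw : 0 < w) (r s : Fin n) (v : ℕ) :
    la A w r s v ≤ w := by
  refine le_trans (card_le_card ?_) (fiber_card_le (n := n) w hw v)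
  intro c hc
  simp only [mem_filter, mem_univ, true_and] at hc ⊢
  exact hc.1

lemma lb_le (A : Fin n → Fin n → Bool) (w : ℕ) (hw : 0 < w) (r s : Fin n) (v : ℕ) :
    lb A w r s v ≤ w := by
  refine le_trans (card_le_card ?_) (fiber_card_le (n := n) w hw v)
  intro c hc
  simp only [mem_filter, mem_univ, true_and] at hc ⊢
  exact hc.1

lemma cnt_le (A : Fin n → Fin n → Bool) (w : ℕ) (hw : 0 < w) (r : Fin n) (v : ℕ) :
    cnt A w r v ≤ w := by
  refine le_trans (card_le_card ?_) (fiber_card_le (n := n) w hw v)
  intro c hc
  simp only [mem_filter, mem_univ, true_and] at hc ⊢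
  exact hc.1

/-- Abstract threshold fit.  `f i r` says that row `r` is on the high side of threshold `i`;
this is antitone in `i`.  `lab r` is the label.  There is a threshold with few mismatches
compared with the inverted pairs between consecutive thresholds. -/
lemma fit_abstract {α : Type*} [Fintype α] [DecidableEq α] (lab : α → Bool) (f : ℕ → α → Prop)
    [∀ i r, Decidable (f i r)] (I : ℕ)
    (h0 : ∀ r, f 0 r) (hI : ∀ r, ¬ f I r)
    (rel : α → α → Prop) [DecidableRel rel]
    (hrel : ∀ i r s, ¬ f (i + 1) r → f i s → rel r s) :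
    ∃ i, i ≤ I ∧
      ((univ.filter fun r => decide (f i r) ≠ lab r).card) ^ 2 ≤
        4 * (univ.filter fun p : α × α => lab p.1 = true ∧ lab p.2 = false ∧ rel p.1 p.2).card := by
  classical
  set X : ℕ → ℕ := fun i => (univ.filter fun r => lab r = true ∧ ¬ f i r).card with hX
  set Y : ℕ → ℕ := fun i => (univ.filter fun r => lab r = false ∧ f i r).card with hY
  have hmis : ∀ i, (univ.filter fun r => decide (f i r) ≠ lab r).card = X i + Y i := by
    intro i
    rw [hX, hY]
    simp only
    rw [← card_union_of_disjoint]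
    · congr 1
      ext r
      simp only [mem_filter, mem_univ, true_and, mem_union]
      by_cases h : f i r <;> cases lab r <;> simp [h]
    · rw [disjoint_left]
      intro r hr hr'
      simp only [mem_filter, mem_univ, true_and] at hr hr'
      rw [hr.1] at hr'
      simp at hr'
  set Inv := (univ.filter fun p : α × α => lab p.1 = true ∧ lab p.2 = false ∧ rel p.1 p.2).card
    with hInv
  have hpair : ∀ i, X (i + 1) * Y i ≤ Inv := by
    intro i
    rw [hX, hY, hInv]
    simp only
    rw [← card_product]
    apply card_le_card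
    intro p hp
    simp only [mem_product, mem_filter, mem_univ, true_and] at hp ⊢
    exact ⟨hp.1.1, hp.2.1, hrel i p.1 p.2 hp.1.2 hp.2.2⟩
  have hX0 : X 0 = 0 := by
    rw [hX]
    simp only
    rw [card_eq_zero, filter_eq_empty_iff]
    intro r _ h
    exact h.2 (h0 r)
  have hYI : Y I = 0 := by
    rw [hY]
    simp only
    rw [card_eq_zero, filter_eq_empty_iff]
    intro r _ h
    exact hI r h.2
  let P : ℕ → Prop := fun i => X i ≤ Y i
  have hP0 : P 0 := by simp [P, hX0]
  set i0 := Nat.findGreatest P I with hi0
  have hi0le : i0 ≤ I := Nat.findGreatest_le I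
  have hPi0 : P i0 := Nat.findGreatest_spec (P := P) (Nat.zero_le I) hP0
  by_cases hlast : i0 = I
  · refine ⟨I, le_refl _, ?_⟩
    rw [hmis]
    have h : X I ≤ Y I := by rw [← hlast]; exact hPi0
    have hx : X I = 0 := by omega
    rw [hx, hYI]
    simp
  · have hlt : i0 < I := lt_of_le_of_ne hi0le hlast
    have hnext : ¬ P (i0 + 1) := by
      intro h
      have := Nat.le_findGreatest (P := P) (m := i0 + 1) hlt h
      omega
    simp only [P, not_le] at hnext hPi0
    have hp := hpair i0
    by_cases hcase : X (i0 + 1) ≤ Y i0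
    · refine ⟨i0 + 1, hlt, ?_⟩
      rw [hmis]
      have h1 : X (i0 + 1) + Y (i0 + 1) ≤ 2 * X (i0 + 1) := by omega
      calc (X (i0 + 1) + Y (i0 + 1)) ^ 2 ≤ (2 * X (i0 + 1)) ^ 2 := Nat.pow_le_pow_left h1 2
        _ = 4 * (X (i0 + 1) * X (i0 + 1)) := by ring
        _ ≤ 4 * (X (i0 + 1) * Y i0) := by
            apply Nat.mul_le_mul_left
            exact Nat.mul_le_mul_left _ hcase
        _ ≤ 4 * Inv := Nat.mul_le_mul_left _ hp
    · refine ⟨i0, hi0le, ?_⟩
      rw [hmis]
      have hcase := not_le.mp hcase
      have h1 : X i0 + Y i0 ≤ 2 * Y i0 := by omega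
      calc (X i0 + Y i0) ^ 2 ≤ (2 * Y i0) ^ 2 := Nat.pow_le_pow_left h1 2
        _ = 4 * (Y i0 * Y i0) := by ring
        _ ≤ 4 * (X (i0 + 1) * Y i0) := by
            apply Nat.mul_le_mul_left
            exact Nat.mul_le_mul_right _ hcase.le
        _ ≤ 4 * Inv := Nat.mul_le_mul_left _ hp

end Vale.Agent.P037
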