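import Vale.Agent.P037.AltBuild

/-!
The matrix built from the thresholds is free of alternating copies.
-/

namespace Vale.Agent.P037

open Finset

variable {n : ℕ}

lemma windows_strict (A : Fin n → Fin n → Bool) (w g h : ℕ) (jj : ℕ → ℕ) (thr : Fin n → ℕ)
    {ℓ : ℕ} (e : Fin ℓ → Bool) (he : ∀ j j' : Fin ℓ, j.val + 1 = j'.val → e j ≠ e j')
    (cc : Fin ℓ → Fin n) (hcc : StrictMono cc) (r1 r2 : Fin n)
    (h1 : ∀ j, (high A w g h jj r1 ((cc j).val / w) (thr (cc j)) ↔ e j = true))
    (h2 : ∀ j, (high A w g h jj r2 ((cc j).val / w) (thr (cc j)) ↔ e j = false)) :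
    StrictMono fun j => (cc j).val / w := by
  cases ℓ with
  | zero =>
    intro a
    exact a.elim0
  | succ m =>
    rw [Fin.strictMono_iff_lt_succ]
    intro i
    have hlt : (cc i.castSucc).val < (cc i.succ).val := hcc (Fin.castSucc_lt_succ)
    have hle : (cc i.castSucc).val / w ≤ (cc i.succ).val / w := Nat.div_le_div_right hlt.le
    rcases Nat.lt_or_eq_of_le hle with hl | heq
    · exact hl
    · exfalso
      have hne := he i.castSucc i.succ (by simp)
      have a1 := h1 i.castSucc
      have a2 := h2 i.castSucc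
      have b1 := h1 i.succ
      have b2 := h2 i.succ
      unfold high at a1 a2 b1 b2
      rw [← heq] at b1 b2
      cases hej : e i.castSucc <;> cases hej' : e i.succ <;> simp [hej, hej'] at a1 a2 b1 b2 hne <;> omega

open Classical in
lemma no_copy (A : Fin n → Fin n → Bool) (w g h : ℕ) (jj : ℕ → ℕ) (t I y : ℕ) (hh : 0 < h)
    (ht : ∀ c : Fin n, c.val / w < t) (thr : Fin n → ℕ) (hthr : ∀ c, thr c ≤ I)
    {ℓ : ℕ} (hℓ : 0 < ℓ) (e : Fin ℓ → Bool)
    (he : ∀ j j' : Fin ℓ, j.val + 1 = j'.val → e j ≠ e j')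
    (hR : (richSet A w h e).card < y ^ 2)
    (ρ : Fin n → Fin n) (hρm : Monotone ρ)
    (hρS : ∀ r, ρ r ∉ delSet A w g h jj t I y e)
    (r s : Fin n) (hrs : r < s) (cc : Fin ℓ → Fin n) (hcc : StrictMono cc) :
    ¬ ∀ j, decide (high A w g h jj (ρ r) ((cc j).val / w) (thr (cc j))) = e j ∧
        decide (high A w g h jj (ρ s) ((cc j).val / w) (thr (cc j))) = !e j := by
  intro hcopy
  set r1 := ρ r with hr1
  set r2 := ρ s with hr2
  have h1 : ∀ j, (high A w g h jj r1 ((cc j).val / w) (thr (cc j)) ↔ e j = true) := by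
    intro j
    have := (hcopy j).1
    rw [← this]
    simp
  have h2 : ∀ j, (high A w g h jj r2 ((cc j).val / w) (thr (cc j)) ↔ e j = false) := by
    intro j
    have := (hcopy j).2
    constructor
    · intro hh'
      have h3 : decide (high A w g h jj r2 ((cc j).val / w) (thr (cc j))) = true := by simpa using hh'
      rw [h3] at this
      cases hej : e j
      · rfl
      · simp [hej] at this
    · intro hej
      rw [hej] at this
      simpa using this
  have hne : r1 ≠ r2 := by
    intro heq
    let j0 : Fin ℓ := ⟨0, hℓ⟩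
    have a := h1 j0
    have b := h2 j0
    rw [heq] at a
    cases hej : e j0 <;> simp [hej] at a b <;> exact absurd a (by simpa using b)
  have hlt : r1 < r2 := lt_of_le_of_ne (hρm hrs.le) hne
  let τ : Fin ℓ → ℕ × ℕ := fun j => ((cc j).val / w, thr (cc j))
  have hτ : τ ∈ tauSet t I ℓ := by
    simp only [tauSet, Fintype.mem_piFinset, mem_product, mem_range]
    intro j
    exact ⟨ht (cc j), Nat.lt_succ_of_le (hthr (cc j))⟩
  have hdel1 := hρS r
  have hdel2 := hρS s
  simp only [delSet, mem_union, mem_biUnion, not_or, not_exists, not_and] at hdel1 hdel2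
  have hb1 := hdel1.1
  have hb2 := hdel2.1
  have hp := hdel1.2 τ hτ
  have hq := hdel2.2 τ hτ
  have hr1P : r1 ∈ pSet A w g h jj t e τ := by
    simp only [pSet, mem_filter, mem_univ, true_and]
    exact ⟨hb1, h1⟩
  have hr2Q : r2 ∈ qSet A w g h jj t e τ := by
    simp only [qSet, mem_filter, mem_univ, true_and]
    exact ⟨hb2, h2⟩
  have hc1 : y ≤ ((pSet A w g h jj t e τ).filter (· < r1)).card := by
    by_contra hc
    exact hp.1 (mem_filter.mpr ⟨hr1P, not_le.mp hc⟩)
  have hc2 : y ≤ ((qSet A w g h jj t e τ).filter (r2 < ·)).card := by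
    by_contra hc
    exact hp.2 |> fun _ => hq.2 (mem_filter.mpr ⟨hr2Q, not_le.mp hc⟩)
  have hW := windows_strict A w g h jj thr e he cc hcc r1 r2 h1 h2
  have hsub : ((pSet A w g h jj t e τ).filter (· < r1)) ×ˢ ((qSet A w g h jj t e τ).filter (r2 < ·))
      ⊆ richSet A w h e := by
    intro p hpmem
    have hpm := mem_product.mp hpmem
    have ha := mem_filter.mp hpm.1
    have hb := mem_filter.mp hpm.2
    have hap := mem_filter.mp ha.1
    have hbq := mem_filter.mp hb.1
    simp only [richSet, mem_filter, mem_univ, true_and]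
    refine ⟨lt_trans ha.2 (lt_trans hlt hb.2), fun j => (cc j).val / w, hW, ?_⟩
    intro j
    have hv : (cc j).val / w < t := ht (cc j)
    have hap2 := hap.2.2 j
    have hbq2 := hbq.2.2 j
    have nb1 := not_mem_bnd A w g h jj hap.2.1 hv
    have nb2 := not_mem_bnd A w g h jj hbq.2.1 hv
    by_cases hej : e j = true
    · rw [if_pos hej]
      apply margin_la A w g h jj hh p.1 p.2 _ (thr (cc j)) nb1 nb2
      · exact hap2.mpr hej
      · intro hc
        have := hbq2.mp hc
        rw [hej] at this
        simp at this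
    · rw [if_neg hej]
      have hej' : e j = false := by simpa using hej
      apply margin_lb A w g h jj hh p.1 p.2 _ (thr (cc j)) nb1 nb2
      · intro hc
        exact hej (hap2.mp hc)
      · exact hbq2.mpr hej'
  have hcard := card_le_card hsub
  rw [card_product] at hcard
  have : y ^ 2 ≤ (richSet A w h e).card := by
    calc y ^ 2 = y * y := by ring
      _ ≤ _ := Nat.mul_le_mul hc1 hc2
      _ ≤ _ := hcard
  omega

/-- The construction: if there are few rich pairs, a matrix free of the alternating word is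
close to `A`. -/
theorem alt_build (A : Fin n → Fin n → Bool) (w t g h J I y : ℕ) (hw : 0 < w)
    (ht : ∀ c : Fin n, c.val / w < t) (hh : 0 < h) (hJpos : 0 < J) (hJ : J * (2 * h) ≤ g)
    (hI : w + g ≤ I * g) {ℓ : ℕ} (hℓ : 0 < ℓ) (e : Fin ℓ → Bool)
    (he : ∀ j j' : Fin ℓ, j.val + 1 = j'.val → e j ≠ e j')
    (hR : (richSet A w h e).card < y ^ 2)
    (hsurv : t * n / J + (t * (I + 1)) ^ ℓ * (2 * y) < n) :
    ∃ B : Fin n → Fin n → Bool,
      (∀ (r s : Fin n) (cc : Fin ℓ → Fin n), r < s → StrictMono cc →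
        ¬ ∀ j, B r (cc j) = e j ∧ B s (cc j) = !e j) ∧
      ∃ D : ℕ, D ^ 2 ≤ 4 * n * (n ^ 2 * (ℓ * w + t * h + t * g) + 2 * n * (richSet A w h e).card) ∧
        diffCount A B ≤ D + (t * n / J + (t * (I + 1)) ^ ℓ * (2 * y)) * n := by
  classical
  have hoffs : ∀ v, ∃ j, j < J ∧ J * (univ.filter fun r =>
      inBand h g j (cnt A w r v + g)).card ≤ n :=
    fun v => exists_offset h g J hJpos hJ (fun r => cnt A w r v + g)
  choose jj hjj1 hjj2 using hoffs
  have hoff : ∀ v, h + 2 * h * jj v < g := by
    intro v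
    have h1 : 2 * h * (jj v + 1) ≤ g := by
      calc 2 * h * (jj v + 1) = (jj v + 1) * (2 * h) := by ring
        _ ≤ J * (2 * h) := Nat.mul_le_mul_right _ (hjj1 v)
        _ ≤ g := hJ
    have e2 : 2 * h * (jj v + 1) = 2 * h * jj v + 2 * h := by ring
    omega
  have hfit := fun c : Fin n => column_fit A w g h I jj hw hoff hI c
  choose thr hthr1 hthr2 using hfit
  have hdelcard := delSet_card A w g h jj t I y J e hjj2 hJpos
  set Del := delSet A w g h jj t I y e with hDel
  have hS : (Delᶜ).Nonempty := by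
    by_contra hemp
    rw [not_nonempty_iff_eq_empty, compl_eq_empty_iff] at hemp
    have h1 : Del.card = n := by rw [hemp]; simp
    omega
  obtain ⟨ρ, hρm, hρS, hρid⟩ := exists_mono_retract (Delᶜ) hS
  refine ⟨fun r c => decide (high A w g h jj (ρ r) (c.val / w) (thr c)), ?_, ?_⟩
  · intro r s cc hrs hcc
    exact no_copy A w g h jj t I y hh ht thr hthr1 hℓ e he hR ρ hρm
      (fun r => mem_compl.mp (hρS r)) r s hrs cc hcc
  · set mis : Fin n → ℕ := fun c =>
      (univ.filter fun r : Fin n => decide (high A w g h jj r (c.val / w) (thr c)) ≠ A r c).card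
      with hmis
    refine ⟨∑ c, mis c, ?_, ?_⟩
    · calc (∑ c, mis c) ^ 2 ≤ (univ : Finset (Fin n)).card * ∑ c, mis c ^ 2 :=
            sq_sum_le_card_mul_sum_sq
        _ ≤ n * ∑ c, 4 * invc A w g c := by
            rw [card_univ, Fintype.card_fin]
            exact Nat.mul_le_mul_left _ (sum_le_sum fun c _ => hthr2 c)
        _ = 4 * n * ∑ c, invc A w g c := by rw [← mul_sum]; ring
        _ ≤ _ := Nat.mul_le_mul_left _ (sum_invc_total A w t g h hw ht e)
    · have hsub : (univ.filter fun p : Fin n × Fin n =>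
          A p.1 p.2 ≠ decide (high A w g h jj (ρ p.1) (p.2.val / w) (thr p.2))) ⊆
          (univ.filter fun p : Fin n × Fin n =>
            decide (high A w g h jj p.1 (p.2.val / w) (thr p.2)) ≠ A p.1 p.2) ∪
          (Del ×ˢ univ) := by
        intro p hp
        have hp' := (mem_filter.mp hp).2
        by_cases hpd : p.1 ∈ Del
        · exact mem_union_right _ (mem_product.mpr ⟨hpd, mem_univ _⟩)
        · apply mem_union_left
          have := hρid p.1 (mem_compl.mpr hpd)
          rw [this] at hp'
          exact mem_filter.mpr ⟨mem_univ _, fun hc => hp' hc.symm⟩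
      have hfirst : (univ.filter fun p : Fin n × Fin n =>
            decide (high A w g h jj p.1 (p.2.val / w) (thr p.2)) ≠ A p.1 p.2).card = ∑ c, mis c := by
        simp only [hmis, card_filter]
        rw [Fintype.sum_prod_type_right]
      have hsecond : (Del ×ˢ (univ : Finset (Fin n))).card = Del.card * n := by
        simp
      unfold diffCount
      calc _ ≤ _ := card_le_card hsub
        _ ≤ _ := card_union_le _ _
        _ = ∑ c, mis c + Del.card * n := by rw [hfirst, hsecond]
        _ ≤ _ := by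
            apply Nat.add_le_add_left
            exact Nat.mul_le_mul_right _ hdelcard

end Vale.Agent.P037
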