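import Vale.Agent.P037.AltCount

/-!
Choice of the parameters: polynomial removal for the alternating patterns.
-/

namespace Vale.Agent.P037

open Finset

variable {n : ℕ}

lemma lt_succ_div_mul (n d : ℕ) (hd : 0 < d) : n < (n / d + 1) * d := by
  have h1 := Nat.div_add_mod n d
  have h2 := Nat.mod_lt n hd
  nlinarith

lemma params_w (q n : ℕ) (hq8 : 8 ≤ q) (hpow1 : 2 * q ^ 10 ≤ n) :
    ∃ w t : ℕ, 0 < w ∧ w * q ^ 3 ≤ n ∧ n ≤ 2 * q ^ 3 * w ∧ 2 * q ^ 7 ≤ w ∧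
      (∀ c, c < n → c / w < t) ∧ t ≤ 2 * q ^ 3 ∧ t * w ≤ 2 * n := by
  have hqpos : 0 < q := by omega
  have hq3 : 0 < q ^ 3 := by positivity
  refine ⟨n / q ^ 3, n / (n / q ^ 3) + 1, ?_⟩
  have hw1 : n / q ^ 3 * q ^ 3 ≤ n := Nat.div_mul_le_self _ _
  have hw2 : n < (n / q ^ 3 + 1) * q ^ 3 := lt_succ_div_mul n _ hq3
  generalize hw : n / q ^ 3 = w at *
  have hwlarge : 2 * q ^ 7 ≤ w := by
    rw [← hw, Nat.le_div_iff_mul_le hq3]
    calc 2 * q ^ 7 * q ^ 3 = 2 * q ^ 10 := by ring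
      _ ≤ n := hpow1
  have hwpos : 0 < w := lt_of_lt_of_le (by positivity) hwlarge
  have hn2 : n ≤ 2 * q ^ 3 * w := by
    calc n ≤ (w + 1) * q ^ 3 := hw2.le
      _ ≤ (w + w) * q ^ 3 := Nat.mul_le_mul_right _ (by omega)
      _ = 2 * q ^ 3 * w := by ring
  refine ⟨hwpos, hw1, hn2, hwlarge, ?_, ?_, ?_⟩
  · intro c hc
    have : c / w ≤ n / w := Nat.div_le_div_right hc.le
    omega
  · have h1 : n < (2 * q ^ 3) * w := by
      calc n < (w + 1) * q ^ 3 := hw2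
        _ ≤ (w + w) * q ^ 3 := Nat.mul_le_mul_right _ (by omega)
        _ = (2 * q ^ 3) * w := by ring
    have h2 : n / w < 2 * q ^ 3 := Nat.div_lt_of_lt_mul (by rwa [mul_comm] at h1)
    omega
  · have : n / w * w ≤ n := Nat.div_mul_le_self _ _
    have h3 : w ≤ n := by
      calc w ≤ w * q ^ 3 := Nat.le_mul_of_pos_right _ hq3
        _ ≤ n := hw1
    rw [add_mul, one_mul]
    omega

lemma params_g (q w : ℕ) (hq8 : 8 ≤ q) (hwlarge : 2 * q ^ 7 ≤ w) :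
    ∃ g h I : ℕ, g * q ^ 2 ≤ w ∧ w ≤ 2 * q ^ 2 * g ∧ 0 < h ∧ q ^ 5 * (2 * h) ≤ g ∧ h ≤ g ∧
      g ≤ 4 * q ^ 5 * h ∧ w + g ≤ I * g ∧ I + 1 ≤ 3 * q ^ 2 := by
  have hqpos : 0 < q := by omega
  have hq2 : 0 < q ^ 2 := by positivity
  have hq5 : 0 < 2 * q ^ 5 := by positivity
  refine ⟨w / q ^ 2, w / q ^ 2 / (2 * q ^ 5), 2 * q ^ 2 + 1, ?_⟩
  have hg1 : w / q ^ 2 * q ^ 2 ≤ w := Nat.div_mul_le_self _ _
  have hg2 : w < (w / q ^ 2 + 1) * q ^ 2 := lt_succ_div_mul w _ hq2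
  generalize hg : w / q ^ 2 = g at *
  have hglarge : 2 * q ^ 5 ≤ g := by
    rw [← hg, Nat.le_div_iff_mul_le hq2]
    calc 2 * q ^ 5 * q ^ 2 = 2 * q ^ 7 := by ring
      _ ≤ w := hwlarge
  have hgpos : 0 < g := lt_of_lt_of_le hq5 hglarge
  have hh1 : g / (2 * q ^ 5) * (2 * q ^ 5) ≤ g := Nat.div_mul_le_self _ _
  have hh2 : g < (g / (2 * q ^ 5) + 1) * (2 * q ^ 5) := lt_succ_div_mul g _ hq5
  have hhle : g / (2 * q ^ 5) ≤ g := Nat.div_le_self _ _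
  have hhpos : 0 < g / (2 * q ^ 5) := Nat.div_pos hglarge hq5
  generalize hh : g / (2 * q ^ 5) = h at *
  have hw2 : w ≤ 2 * q ^ 2 * g := by
    calc w ≤ (g + 1) * q ^ 2 := hg2.le
      _ ≤ (g + g) * q ^ 2 := Nat.mul_le_mul_right _ (by omega)
      _ = 2 * q ^ 2 * g := by ring
  refine ⟨hg1, hw2, hhpos, ?_, hhle, ?_, ?_, ?_⟩
  · calc q ^ 5 * (2 * h) = h * (2 * q ^ 5) := by ring
      _ ≤ g := hh1
  · calc g ≤ (h + 1) * (2 * q ^ 5) := hh2.le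
      _ ≤ (h + h) * (2 * q ^ 5) := Nat.mul_le_mul_right _ (by omega)
      _ = 4 * q ^ 5 * h := by ring
  · calc w + g ≤ 2 * q ^ 2 * g + g := by omega
      _ = (2 * q ^ 2 + 1) * g := by ring
  · have : 64 ≤ q ^ 2 := by nlinarith
    omega

lemma params_y (D n : ℕ) (hD : 0 < D) (hpow2 : 2 * D ≤ n) :
    ∃ y : ℕ, y * (2 * D) ≤ n ∧ n ≤ 4 * D * y := by
  have hDy : 0 < 2 * D := by positivity
  refine ⟨n / (2 * D), Nat.div_mul_le_self _ _, ?_⟩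
  have hy2 : n < (n / (2 * D) + 1) * (2 * D) := lt_succ_div_mul n _ hDy
  have hypos : 0 < n / (2 * D) := Nat.div_pos hpow2 hDy
  generalize n / (2 * D) = y at *
  calc n ≤ (y + 1) * (2 * D) := hy2.le
    _ ≤ (y + y) * (2 * D) := Nat.mul_le_mul_right _ (by omega)
    _ = 4 * D * y := by ring

/-- All parameters in one go. -/
lemma params_all (ℓ q n : ℕ) (hq : ℓ + 8 ≤ q) (hn : q ^ (6 * ℓ + 11) ≤ n) :
    ∃ w t g J h I y : ℕ, 0 < w ∧ (∀ c, c < n → c / w < t) ∧ 0 < h ∧ 0 < J ∧ J * (2 * h) ≤ g ∧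
      w + g ≤ I * g ∧
      q ^ 2 * (t * n / J + (t * (I + 1)) ^ ℓ * (2 * y)) ≤ 3 * n ∧
      q ^ 2 * (ℓ * w + t * h + t * g) ≤ 5 * n ∧ y * q ≤ n ∧
      n ≤ 4 * q ^ (6 * ℓ + 2) * y ∧ n ≤ 16 * q ^ 10 * h := by
  have hq8 : 8 ≤ q := by omega
  have hqpos : 0 < q := by omega
  have hqℓ : ℓ ≤ q := by omega
  have hq3 : 0 < q ^ 3 := by positivity
  have hpow1 : 2 * q ^ 10 ≤ n := by
    calc 2 * q ^ 10 ≤ q * q ^ 10 := Nat.mul_le_mul_right _ (by omega)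
      _ = q ^ 11 := by ring
      _ ≤ q ^ (6 * ℓ + 11) := Nat.pow_le_pow_right hqpos (by omega)
      _ ≤ n := hn
  have hpow2 : 2 * q ^ (6 * ℓ + 2) ≤ n := by
    calc 2 * q ^ (6 * ℓ + 2) ≤ q * q ^ (6 * ℓ + 2) := Nat.mul_le_mul_right _ (by omega)
      _ = q ^ (6 * ℓ + 3) := by ring
      _ ≤ q ^ (6 * ℓ + 11) := Nat.pow_le_pow_right hqpos (by omega)
      _ ≤ n := hn
  obtain ⟨w, t, hwpos, hw1, hn2, hwlarge, hcol, ht2, htw⟩ := params_w q n hq8 hpow1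
  obtain ⟨g, h, I, hg1, hg2, hhpos, hh1, hhg, hh2, hI, hI3⟩ := params_g q w hq8 hwlarge
  obtain ⟨y, hy1, hy2⟩ := params_y (q ^ (6 * ℓ + 2)) n (by positivity) hpow2
  refine ⟨w, t, g, q ^ 5, h, I, y, hwpos, hcol, hhpos, by positivity, hh1, hI, ?_, ?_, ?_, hy2, ?_⟩
  · have hT : (t * (I + 1)) ^ ℓ ≤ q ^ (6 * ℓ) := by
      have h1 : t * (I + 1) ≤ q ^ 6 := by
        calc t * (I + 1) ≤ (2 * q ^ 3) * (3 * q ^ 2) := Nat.mul_le_mul ht2 hI3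
          _ = 6 * q ^ 5 := by ring
          _ ≤ q * q ^ 5 := Nat.mul_le_mul_right _ (by omega)
          _ = q ^ 6 := by ring
      calc (t * (I + 1)) ^ ℓ ≤ (q ^ 6) ^ ℓ := Nat.pow_le_pow_left h1 _
        _ = q ^ (6 * ℓ) := by rw [pow_mul]
    have hdl1 : q ^ 2 * (t * n / q ^ 5) ≤ 2 * n := by
      have h1 : t * n / q ^ 5 * q ^ 5 ≤ t * n := Nat.div_mul_le_self _ _
      have h2 : (q ^ 2 * (t * n / q ^ 5)) * q ^ 3 ≤ (2 * n) * q ^ 3 := by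
        calc (q ^ 2 * (t * n / q ^ 5)) * q ^ 3 = t * n / q ^ 5 * q ^ 5 := by ring
          _ ≤ t * n := h1
          _ ≤ (2 * q ^ 3) * n := Nat.mul_le_mul_right _ ht2
          _ = (2 * n) * q ^ 3 := by ring
      exact Nat.le_of_mul_le_mul_right h2 hq3
    have hdl2 : q ^ 2 * ((t * (I + 1)) ^ ℓ * (2 * y)) ≤ n := by
      calc q ^ 2 * ((t * (I + 1)) ^ ℓ * (2 * y)) ≤ q ^ 2 * (q ^ (6 * ℓ) * (2 * y)) := by
            apply Nat.mul_le_mul_left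
            exact Nat.mul_le_mul_right _ hT
        _ = y * (2 * q ^ (6 * ℓ + 2)) := by ring
        _ ≤ n := hy1
    rw [mul_add]
    omega
  · have hX1 : q ^ 2 * (ℓ * w) ≤ n := by
      calc q ^ 2 * (ℓ * w) ≤ q ^ 2 * (q * w) := by
            apply Nat.mul_le_mul_left
            exact Nat.mul_le_mul_right _ hqℓ
        _ = w * q ^ 3 := by ring
        _ ≤ n := hw1
    have hX3 : q ^ 2 * (t * g) ≤ 2 * n := by
      calc q ^ 2 * (t * g) = t * (g * q ^ 2) := by ring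
        _ ≤ t * w := Nat.mul_le_mul_left _ hg1
        _ ≤ 2 * n := htw
    have hX2 : q ^ 2 * (t * h) ≤ 2 * n := by
      calc q ^ 2 * (t * h) ≤ q ^ 2 * (t * g) := by
            apply Nat.mul_le_mul_left
            exact Nat.mul_le_mul_left _ hhg
        _ ≤ 2 * n := hX3
    rw [mul_add, mul_add]
    omega
  · calc y * q ≤ y * (2 * q ^ (6 * ℓ + 2)) := by
          apply Nat.mul_le_mul_left
          calc q = q ^ 1 := (pow_one q).symm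
            _ ≤ q ^ (6 * ℓ + 2) := Nat.pow_le_pow_right hqpos (by omega)
            _ ≤ 2 * q ^ (6 * ℓ + 2) := by omega
      _ ≤ n := hy1
  · calc n ≤ 2 * q ^ 3 * w := hn2
      _ ≤ 2 * q ^ 3 * (2 * q ^ 2 * (4 * q ^ 5 * h)) := by
          apply Nat.mul_le_mul_left
          calc w ≤ 2 * q ^ 2 * g := hg2
            _ ≤ 2 * q ^ 2 * (4 * q ^ 5 * h) := Nat.mul_le_mul_left _ hh2
      _ = 16 * q ^ 10 * h := by ring

/-- The final contradiction in natural numbers. -/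
lemma nat_contra (q n D dl X R diff : ℕ) (hq8 : 8 ≤ q) (hn : 0 < n)
    (hD1 : D ^ 2 ≤ 4 * n * (n ^ 2 * X + 2 * n * R))
    (hD2 : diff ≤ D + dl * n) (hfar : 8 * n ^ 2 ≤ q * diff)
    (hX : q ^ 2 * X ≤ 5 * n) (hRq : q ^ 2 * R ≤ n ^ 2) (hdl : q ^ 2 * dl ≤ 3 * n) : False := by
  have hD3 : (q * D) ^ 2 ≤ (6 * n ^ 2) ^ 2 := by
    calc (q * D) ^ 2 = q ^ 2 * D ^ 2 := by ring
      _ ≤ q ^ 2 * (4 * n * (n ^ 2 * X + 2 * n * R)) := Nat.mul_le_mul_left _ hD1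
      _ = 4 * n * (n ^ 2 * (q ^ 2 * X) + 2 * n * (q ^ 2 * R)) := by ring
      _ ≤ 4 * n * (n ^ 2 * (5 * n) + 2 * n * n ^ 2) := by
          apply Nat.mul_le_mul_left
          exact Nat.add_le_add (Nat.mul_le_mul_left _ hX) (Nat.mul_le_mul_left _ hRq)
      _ = 28 * (n ^ 2) ^ 2 := by ring
      _ ≤ 36 * (n ^ 2) ^ 2 := Nat.mul_le_mul_right _ (by norm_num)
      _ = (6 * n ^ 2) ^ 2 := by ring
  have hD4 : q * D ≤ 6 * n ^ 2 := (Nat.pow_le_pow_iff_left (by norm_num)).mp hD3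
  have hn2 : 0 < n ^ 2 := by positivity
  have hfin : 8 * q * n ^ 2 ≤ 6 * q * n ^ 2 + 3 * n ^ 2 := by
    calc 8 * q * n ^ 2 = q * (8 * n ^ 2) := by ring
      _ ≤ q * (q * diff) := Nat.mul_le_mul_left _ hfar
      _ ≤ q * (q * (D + dl * n)) := by
          apply Nat.mul_le_mul_left
          exact Nat.mul_le_mul_left _ hD2
      _ = q * (q * D) + (q ^ 2 * dl) * n := by ring
      _ ≤ q * (6 * n ^ 2) + (3 * n) * n := by
          apply Nat.add_le_add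
          · exact Nat.mul_le_mul_left _ hD4
          · exact Nat.mul_le_mul_right _ hdl
      _ = 6 * q * n ^ 2 + 3 * n ^ 2 := by ring
  have h1 : 2 * q * n ^ 2 ≤ 3 * n ^ 2 := by
    have e1 : 8 * q * n ^ 2 = 6 * q * n ^ 2 + 2 * q * n ^ 2 := by ring
    omega
  have h2 : 16 * n ^ 2 ≤ 2 * q * n ^ 2 := Nat.mul_le_mul_right _ (by omega)
  omega

/-- The core in natural numbers. -/
theorem alt_core (ℓ : ℕ) (hℓ : 0 < ℓ) (s : Bool) (q : ℕ) (hq : ℓ + 8 ≤ q)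
    (hn : q ^ (6 * ℓ + 11) ≤ n) (A : Fin n → Fin n → Bool)
    (hfar : ∀ B : Fin n → Fin n → Bool, rcopies (alt ℓ s) B = 0 → 8 * n ^ 2 ≤ q * diffCount A B) :
    n ^ (2 + ℓ) ≤ 16 ^ (ℓ + 1) * q ^ (22 * ℓ + 4) * rcopies (alt ℓ s) A := by
  have hq8 : 8 ≤ q := by omega
  have hqpos : 0 < q := by omega
  have hnpos : 0 < n := lt_of_lt_of_le (by positivity) hn
  obtain ⟨w, t, g, J, h, I, y, hwpos, hcol, hhpos, hJpos, hh1, hI, hdl3, hX, hyq, hbase1, hbase2⟩ :=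
    params_all ℓ q n hq hn
  have hcol' : ∀ c : Fin n, c.val / w < t := fun c => hcol c.val c.isLt
  have hq2' : 64 ≤ q ^ 2 := by nlinarith
  have hsurv : t * n / J + (t * (I + 1)) ^ ℓ * (2 * y) < n := by
    have : 64 * (t * n / J + (t * (I + 1)) ^ ℓ * (2 * y)) ≤
        q ^ 2 * (t * n / J + (t * (I + 1)) ^ ℓ * (2 * y)) := Nat.mul_le_mul_right _ hq2'
    omega
  have hrich : y ^ 2 ≤ (richSet A w h (alt ℓ s 0)).card := by
    by_contra hcon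
    have hR := not_le.mp hcon
    obtain ⟨B, hBfree, D, hD1, hD2⟩ := alt_build A w t g h J I y hwpos hcol' hhpos hJpos hh1 hI hℓ
      (alt ℓ s 0) (alt_zero_ne ℓ s) hR hsurv
    have hB0 := rcopies_eq_zero_of_free B ℓ s hBfree
    have hfarB := hfar B hB0
    have hRq : q ^ 2 * (richSet A w h (alt ℓ s 0)).card ≤ n ^ 2 := by
      calc q ^ 2 * (richSet A w h (alt ℓ s 0)).card ≤ q ^ 2 * y ^ 2 := Nat.mul_le_mul_left _ hR.le
        _ = (y * q) ^ 2 := by ring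
        _ ≤ n ^ 2 := Nat.pow_le_pow_left hyq 2
    exact nat_contra q n D _ _ _ _ hq8 hnpos hD1 hD2 hfarB hX hRq hdl3
  have hcount := rcopies_ge A w h ℓ s
  calc n ^ (2 + ℓ) = n ^ 2 * n ^ ℓ := by rw [pow_add]
    _ ≤ (4 * q ^ (6 * ℓ + 2) * y) ^ 2 * (16 * q ^ 10 * h) ^ ℓ :=
        Nat.mul_le_mul (Nat.pow_le_pow_left hbase1 2) (Nat.pow_le_pow_left hbase2 ℓ)
    _ = 16 ^ (ℓ + 1) * q ^ (22 * ℓ + 4) * (y ^ 2 * h ^ ℓ) := by
        have e1 : (4 * q ^ (6 * ℓ + 2) * y) ^ 2 = 16 * q ^ (12 * ℓ + 4) * y ^ 2 := by ring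
        have e2 : (16 * q ^ 10 * h) ^ ℓ = 16 ^ ℓ * q ^ (10 * ℓ) * h ^ ℓ := by
          rw [mul_pow, mul_pow, ← pow_mul]
        rw [e1, e2]
        ring
    _ ≤ 16 ^ (ℓ + 1) * q ^ (22 * ℓ + 4) * rcopies (alt ℓ s) A := by
        apply Nat.mul_le_mul_left
        exact le_trans (Nat.mul_le_mul_right _ hrich) hcount

end Vale.Agent.P037
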