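import Vale.Agent.P037.AltMain

/-!
Polynomial removal for the alternating `2 × ℓ` patterns.
-/

namespace Vale.Agent.P037

open Finset

lemma diffCount_self {n : ℕ} (A : Fin n → Fin n → Bool) : diffCount A A = 0 := by
  unfold diffCount
  simp

/-- If `A` is far from being free of `H`, and `n ≥ 1`, then `A` has a copy of `H`. -/
lemma rcopies_pos_of_far {a b n : ℕ} (H : Fin a → Fin b → Bool) (A : Fin n → Fin n → Bool)
    (ε : ℝ) (hε : 0 < ε) (hn : 1 ≤ n)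
    (hfar : ∀ B : Fin n → Fin n → Bool, rcopies H B = 0 → ε * (n : ℝ) ^ 2 ≤ diffCount A B) :
    1 ≤ rcopies H A := by
  by_contra hcon
  have h0 : rcopies H A = 0 := by omega
  have h1 := hfar A h0
  rw [diffCount_self] at h1
  have h2 : (0 : ℝ) < (n : ℝ) ^ 2 := by
    have : (0 : ℝ) < n := by exact_mod_cast hn
    positivity
  have h3 : 0 < ε * (n : ℝ) ^ 2 := mul_pos hε h2
  simp at h1
  linarith

/-- Real comparison used for both ranges of `n`. -/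
lemma scale_bound (ε q K : ℝ) (m C : ℕ) (hm : m ≤ C) (hε : 0 < ε) (hε1 : ε < 1) (hq : 0 ≤ q)
    (hK : 1 ≤ K) (hqK : ε * q ≤ K) :
    ε ^ C * q ^ m ≤ K ^ C := by
  have h1 : ε ^ C ≤ ε ^ m := pow_le_pow_of_le_one hε.le hε1.le hm
  calc ε ^ C * q ^ m ≤ ε ^ m * q ^ m := by
        apply mul_le_mul_of_nonneg_right h1
        positivity
    _ = (ε * q) ^ m := (mul_pow _ _ _).symm
    _ ≤ K ^ m := pow_le_pow_left₀ (by positivity) hqK _
    _ ≤ K ^ C := pow_le_pow_right₀ hK hm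

theorem polyRem_alt (ℓ : ℕ) (hℓ : 0 < ℓ) (s : Bool) : PolyRem (alt ℓ s) := by
  set K : ℕ := ℓ + 8 with hKdef
  set E : ℕ := 6 * ℓ + 11 with hE
  set F : ℕ := 22 * ℓ + 4 with hF
  set C : ℕ := E * (2 + ℓ) + F with hC
  have hKR : (8 : ℝ) ≤ (K : ℝ) := by
    have : 8 ≤ K := by omega
    exact_mod_cast this
  set K2 : ℝ := 2 * (K : ℝ) with hK2
  have hK2one : 1 ≤ K2 := by rw [hK2]; linarith
  have hK2pos : 0 < K2 := by linarith
  refine ⟨1 / ((16 : ℝ) ^ (ℓ + 1) * K2 ^ C), C, by positivity, ?_, ?_⟩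
  · rw [hC, hF]
    omega
  intro n ε A hε hε1 hfar
  obtain ⟨q, hq⟩ : ∃ q : ℕ, q = ⌈(K : ℝ) / ε⌉₊ := ⟨_, rfl⟩
  have hq1 : (K : ℝ) / ε ≤ q := by
    rw [hq]
    exact Nat.le_ceil _
  have hKε : (K : ℝ) ≤ ε * q := by
    rw [div_le_iff₀ hε] at hq1
    linarith
  have hq2 : ε * (q : ℝ) ≤ K2 := by
    have h1 : (q : ℝ) < (K : ℝ) / ε + 1 := by
      rw [hq]
      exact Nat.ceil_lt_add_one (by positivity)
    have h2 : ε * (q : ℝ) ≤ ε * ((K : ℝ) / ε + 1) :=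
      mul_le_mul_of_nonneg_left h1.le hε.le
    have h3 : ε * ((K : ℝ) / ε + 1) = K + ε := by
      field_simp
    rw [hK2]
    linarith
  have hqK : K ≤ q := by
    have h1 : (K : ℝ) ≤ q := by
      have : ε * (q : ℝ) ≤ 1 * q := mul_le_mul_of_nonneg_right hε1.le (Nat.cast_nonneg q)
      linarith
    exact_mod_cast h1
  have hpos : (0 : ℝ) < (16 : ℝ) ^ (ℓ + 1) * K2 ^ C := by positivity
  rw [div_mul_eq_mul_div, one_mul, div_mul_eq_mul_div, div_le_iff₀ hpos]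
  by_cases hn : q ^ E ≤ n
  · -- the main range
    have hnat := alt_core (n := n) ℓ hℓ s q hqK hn A (by
      intro B hB
      have h1 := hfar B hB
      have h2 : (8 : ℝ) * (n : ℝ) ^ 2 ≤ (q : ℝ) * diffCount A B := by
        have h3 : (K : ℝ) * (n : ℝ) ^ 2 ≤ (ε * q) * (n : ℝ) ^ 2 :=
          mul_le_mul_of_nonneg_right hKε (by positivity)
        have h4 : (ε * q) * (n : ℝ) ^ 2 = (q : ℝ) * (ε * (n : ℝ) ^ 2) := by ring
        have h5 : (q : ℝ) * (ε * (n : ℝ) ^ 2) ≤ (q : ℝ) * diffCount A B :=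
          mul_le_mul_of_nonneg_left h1 (Nat.cast_nonneg q)
        have h6 : (8 : ℝ) * (n : ℝ) ^ 2 ≤ (K : ℝ) * (n : ℝ) ^ 2 :=
          mul_le_mul_of_nonneg_right hKR (by positivity)
        linarith
      exact_mod_cast h2)
    have hnat' : (n : ℝ) ^ (2 + ℓ) ≤ (16 : ℝ) ^ (ℓ + 1) * (q : ℝ) ^ F * rcopies (alt ℓ s) A := by
      exact_mod_cast hnat
    have hsc := scale_bound ε q K2 F C (by rw [hC]; omega) hε hε1 (Nat.cast_nonneg q) hK2one hq2
    have hnn : (0 : ℝ) ≤ (n : ℝ) ^ (2 + ℓ) := by positivity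
    have hrc : (0 : ℝ) ≤ (rcopies (alt ℓ s) A : ℝ) := Nat.cast_nonneg _
    calc ε ^ C * (n : ℝ) ^ (2 + ℓ)
        ≤ ε ^ C * ((16 : ℝ) ^ (ℓ + 1) * (q : ℝ) ^ F * rcopies (alt ℓ s) A) :=
          mul_le_mul_of_nonneg_left hnat' (by positivity)
      _ = (ε ^ C * (q : ℝ) ^ F) * ((16 : ℝ) ^ (ℓ + 1) * rcopies (alt ℓ s) A) := by ring
      _ ≤ K2 ^ C * ((16 : ℝ) ^ (ℓ + 1) * rcopies (alt ℓ s) A) :=
          mul_le_mul_of_nonneg_right hsc (by positivity)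
      _ = (rcopies (alt ℓ s) A : ℝ) * ((16 : ℝ) ^ (ℓ + 1) * K2 ^ C) := by ring
  · -- small `n`
    have hn' : n < q ^ E := not_le.mp hn
    rcases Nat.eq_zero_or_pos n with h0 | hnpos
    · subst h0
      simp
      positivity
    · have h1 := rcopies_pos_of_far (alt ℓ s) A ε hε hnpos hfar
      have h1' : (1 : ℝ) ≤ rcopies (alt ℓ s) A := by exact_mod_cast h1
      have hpow : (n : ℝ) ^ (2 + ℓ) ≤ (q : ℝ) ^ (E * (2 + ℓ)) := by
        rw [pow_mul]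
        apply pow_le_pow_left₀ (by positivity)
        exact_mod_cast hn'.le
      have hsc := scale_bound ε q K2 (E * (2 + ℓ)) C (by rw [hC]; omega) hε hε1 (Nat.cast_nonneg q)
        hK2one hq2
      calc ε ^ C * (n : ℝ) ^ (2 + ℓ) ≤ ε ^ C * (q : ℝ) ^ (E * (2 + ℓ)) :=
            mul_le_mul_of_nonneg_left hpow (by positivity)
        _ ≤ K2 ^ C := hsc
        _ ≤ (16 : ℝ) ^ (ℓ + 1) * K2 ^ C := by
            have : (1 : ℝ) ≤ (16 : ℝ) ^ (ℓ + 1) := one_le_pow₀ (by norm_num)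
            have h2 : (0 : ℝ) ≤ K2 ^ C := by positivity
            nlinarith
        _ ≤ (rcopies (alt ℓ s) A : ℝ) * ((16 : ℝ) ^ (ℓ + 1) * K2 ^ C) := by
            have h2 : (0 : ℝ) ≤ (16 : ℝ) ^ (ℓ + 1) * K2 ^ C := by positivity
            nlinarith

end Vale.Agent.P037
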