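import Vale.Agent.P037.AltFit

/-!
Summing the inverted pairs over the columns; rich pairs.
-/

namespace Vale.Agent.P037

open Finset

variable {n : ℕ}

/-- Inverted pairs at the column `c`. -/
def invc (A : Fin n → Fin n → Bool) (w g : ℕ) (c : Fin n) : ℕ :=
  (univ.filter fun p : Fin n × Fin n =>
    A p.1 c = true ∧ A p.2 c = false ∧ cnt A w p.1 (c.val / w) < cnt A w p.2 (c.val / w) + g).card

/-- The mixing sum of a pair of rows. -/
def mixS (A : Fin n → Fin n → Bool) (w t : ℕ) (r s : Fin n) : ℕ :=
  ∑ v ∈ range t, min (la A w r s v) (lb A w r s v)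

/-- A pair of rows is rich if along a strictly increasing sequence of windows it has at least
`h` columns carrying the required letter in each window. -/
def Rich (A : Fin n → Fin n → Bool) (w h : ℕ) {ℓ : ℕ} (e : Fin ℓ → Bool) (r s : Fin n) : Prop :=
  ∃ W : Fin ℓ → ℕ, StrictMono W ∧ ∀ j, h ≤ (if e j = true then la A w r s (W j) else lb A w r s (W j))

open Classical in
/-- The rich pairs. -/
noncomputable def richSet (A : Fin n → Fin n → Bool) (w h : ℕ) {ℓ : ℕ} (e : Fin ℓ → Bool) :
    Finset (Fin n × Fin n) :=
  univ.filter fun p => p.1 < p.2 ∧ Rich A w h e p.1 p.2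

lemma column_count (A : Fin n → Fin n → Bool) (w t g : ℕ) (ht : ∀ c : Fin n, c.val / w < t)
    (r s : Fin n) :
    (univ.filter fun c : Fin n => A r c = true ∧ A s c = false ∧
        cnt A w r (c.val / w) < cnt A w s (c.val / w) + g).card
      ≤ mixS A w t r s + t * g := by
  classical
  set F := univ.filter fun c : Fin n => A r c = true ∧ A s c = false ∧
        cnt A w r (c.val / w) < cnt A w s (c.val / w) + g with hF
  have hsum : F.card = ∑ v ∈ range t, (F.filter fun c => c.val / w = v).card :=
    card_eq_sum_card_fiberwise (fun c _ => mem_coe.mpr (mem_range.mpr (ht c)))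
  have hv : ∀ v ∈ range t, (F.filter fun c => c.val / w = v).card ≤
      min (la A w r s v) (lb A w r s v) + g := by
    intro v _
    by_cases hc : cnt A w r v < cnt A w s v + g
    · have hid := cnt_add_lb A w r s v
      have h1 : (F.filter fun c => c.val / w = v).card ≤ la A w r s v := by
        apply card_le_card
        intro c hc'
        simp only [hF, mem_filter, mem_univ, true_and] at hc' ⊢
        exact ⟨hc'.2, hc'.1.1, hc'.1.2.1⟩
      omega
    · have h0 : (F.filter fun c => c.val / w = v) = ∅ := by
        rw [filter_eq_empty_iff]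
        intro c hc' hv'
        simp only [hF, mem_filter, mem_univ, true_and] at hc'
        rw [hv'] at hc'
        exact hc hc'.2.2
      rw [h0]
      simp
  rw [hsum]
  calc ∑ v ∈ range t, (F.filter fun c => c.val / w = v).card
      ≤ ∑ v ∈ range t, (min (la A w r s v) (lb A w r s v) + g) := sum_le_sum hv
    _ = mixS A w t r s + t * g := by
        rw [sum_add_distrib, sum_const, card_range, smul_eq_mul]
        rfl

lemma sum_invc_le (A : Fin n → Fin n → Bool) (w t g : ℕ) (ht : ∀ c : Fin n, c.val / w < t) :
    ∑ c : Fin n, invc A w g c ≤ ∑ p : Fin n × Fin n, (mixS A w t p.1 p.2 + t * g) := by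
  classical
  have h1 : ∑ c : Fin n, invc A w g c = ∑ p : Fin n × Fin n,
      (univ.filter fun c : Fin n => A p.1 c = true ∧ A p.2 c = false ∧
        cnt A w p.1 (c.val / w) < cnt A w p.2 (c.val / w) + g).card := by
    unfold invc
    simp only [card_eq_sum_ones, sum_filter]
    rw [sum_comm]
  rw [h1]
  exact sum_le_sum fun p _ => column_count A w t g ht p.1 p.2

lemma mixS_swap (A : Fin n → Fin n → Bool) (w t : ℕ) (r s : Fin n) :
    mixS A w t r s = mixS A w t s r := by
  unfold mixS
  apply sum_congr rfl
  intro v _
  rw [la_swap A w r s v, la_swap A w s r v, min_comm]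

lemma mixS_self (A : Fin n → Fin n → Bool) (w t : ℕ) (r : Fin n) : mixS A w t r r = 0 := by
  unfold mixS
  apply sum_eq_zero
  intro v _
  have : la A w r r v = 0 := by
    unfold la
    rw [card_eq_zero, filter_eq_empty_iff]
    intro c _ h
    rw [h.2.1] at h
    simp at h
  rw [this]
  simp

lemma mixS_le_n (A : Fin n → Fin n → Bool) (w t : ℕ) (r s : Fin n) : mixS A w t r s ≤ n := by
  classical
  unfold mixS
  calc ∑ v ∈ range t, min (la A w r s v) (lb A w r s v)
      ≤ ∑ v ∈ range t, la A w r s v := sum_le_sum fun v _ => min_le_left _ _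
    _ = ∑ v ∈ range t, ((univ.filter fun c : Fin n => A r c = true ∧ A s c = false ∧ c.val / w < t).filter
          fun c => c.val / w = v).card := by
        apply sum_congr rfl
        intro v hv
        unfold la
        congr 1
        ext c
        simp only [mem_filter, mem_univ, true_and]
        constructor
        · rintro ⟨h1, h2, h3⟩
          exact ⟨⟨h2, h3, h1 ▸ mem_range.mp hv⟩, h1⟩
        · rintro ⟨⟨h1, h2, _⟩, h3⟩
          exact ⟨h3, h1, h2⟩
    _ = (univ.filter fun c : Fin n => A r c = true ∧ A s c = false ∧ c.val / w < t).card := by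
        symm
        apply card_eq_sum_card_fiberwise
        intro c hc
        have hc' : c ∈ univ.filter fun c : Fin n => A r c = true ∧ A s c = false ∧ c.val / w < t := hc
        simp only [mem_filter, mem_univ, true_and] at hc'
        exact mem_coe.mpr (mem_range.mpr hc'.2.2)
    _ ≤ n := by
        calc _ ≤ (univ : Finset (Fin n)).card := card_le_univ _
          _ = n := by simp

lemma mixS_le_of_not_rich (A : Fin n → Fin n → Bool) (w t h : ℕ) (hw : 0 < w) {ℓ : ℕ}
    (e : Fin ℓ → Bool) (r s : Fin n) (hr : ¬ Rich A w h e r s) :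
    mixS A w t r s ≤ ℓ * w + t * h := by
  classical
  set G := (range t).filter fun v => h ≤ min (la A w r s v) (lb A w r s v) with hG
  have hGcard : G.card ≤ ℓ := by
    by_contra hcon
    have hle : ℓ ≤ G.card := by omega
    apply hr
    refine ⟨fun j => G.orderEmbOfCardLe hle j, (G.orderEmbOfCardLe hle).strictMono, ?_⟩
    intro j
    have hmem : G.orderEmbOfCardLe hle j ∈ G := orderEmbOfCardLe_mem G hle j
    have hmem' := (mem_filter.mp hmem).2
    have h1 := le_trans hmem' (min_le_left _ _)
    have h2 := le_trans hmem' (min_le_right _ _)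
    by_cases hej : e j = true
    · simpa [hej] using h1
    · simpa [hej] using h2
  unfold mixS
  rw [← sum_filter_add_sum_filter_not (range t) (fun v => h ≤ min (la A w r s v) (lb A w r s v))]
  apply add_le_add
  · calc ∑ v ∈ G, min (la A w r s v) (lb A w r s v)
        ≤ ∑ _v ∈ G, w := sum_le_sum fun v _ => le_trans (min_le_left _ _) (la_le A w hw r s v)
      _ = G.card * w := by rw [sum_const, smul_eq_mul]
      _ ≤ ℓ * w := Nat.mul_le_mul_right _ hGcard
  · calc ∑ v ∈ (range t).filter (fun v => ¬ h ≤ min (la A w r s v) (lb A w r s v)),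
          min (la A w r s v) (lb A w r s v)
        ≤ ∑ _v ∈ (range t).filter (fun v => ¬ h ≤ min (la A w r s v) (lb A w r s v)), h := by
          apply sum_le_sum
          intro v hv
          have := (mem_filter.mp hv).2
          omega
      _ ≤ ∑ _v ∈ range t, h := sum_le_sum_of_subset (filter_subset _ _)
      _ = t * h := by rw [sum_const, card_range, smul_eq_mul]

lemma sum_mixS_le (A : Fin n → Fin n → Bool) (w t h : ℕ) (hw : 0 < w) {ℓ : ℕ}
    (e : Fin ℓ → Bool) :
    ∑ p : Fin n × Fin n, mixS A w t p.1 p.2 ≤
      n ^ 2 * (ℓ * w + t * h) + 2 * n * (richSet A w h e).card := by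
  classical
  set RR := richSet A w h e with hRR
  have hp : ∀ p : Fin n × Fin n, mixS A w t p.1 p.2 ≤ (ℓ * w + t * h)
      + ((if p ∈ RR then n else 0) + (if p.swap ∈ RR then n else 0)) := by
    intro p
    rcases lt_trichotomy p.1 p.2 with hlt | heq | hgt
    · by_cases hri : Rich A w h e p.1 p.2
      · have : p ∈ RR := by
          simp only [hRR, richSet, mem_filter, mem_univ, true_and]
          exact ⟨hlt, hri⟩
        rw [if_pos this]
        have := mixS_le_n A w t p.1 p.2
        omega
      · have := mixS_le_of_not_rich A w t h hw e p.1 p.2 hri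
        omega
    · rw [heq, mixS_self]
      omega
    · by_cases hri : Rich A w h e p.2 p.1
      · have : p.swap ∈ RR := by
          simp only [hRR, richSet, mem_filter, mem_univ, true_and, Prod.fst_swap, Prod.snd_swap]
          exact ⟨hgt, hri⟩
        rw [if_pos this]
        have := mixS_le_n A w t p.1 p.2
        omega
      · have := mixS_le_of_not_rich A w t h hw e p.2 p.1 hri
        rw [mixS_swap]
        omega
  calc ∑ p : Fin n × Fin n, mixS A w t p.1 p.2
      ≤ ∑ p : Fin n × Fin n, ((ℓ * w + t * h)
          + ((if p ∈ RR then n else 0) + (if p.swap ∈ RR then n else 0))) := sum_le_sum fun p _ => hp p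
    _ = n ^ 2 * (ℓ * w + t * h) + (RR.card * n + RR.card * n) := by
        generalize ℓ * w + t * h = K
        rw [sum_add_distrib, sum_add_distrib, sum_const]
        have h1 : (univ : Finset (Fin n × Fin n)).card = n ^ 2 := by
          simp [sq]
        have h2 : ∑ p : Fin n × Fin n, (if p ∈ RR then n else 0) = RR.card * n := by
          rw [sum_ite_mem]
          simp
        have h3 : ∑ p : Fin n × Fin n, (if p.swap ∈ RR then n else 0) = RR.card * n := by
          rw [← h2]
          exact Equiv.sum_comp (Equiv.prodComm (Fin n) (Fin n))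
            (fun p : Fin n × Fin n => if p ∈ RR then n else 0)
        rw [h1, h2, h3, smul_eq_mul]
    _ = n ^ 2 * (ℓ * w + t * h) + 2 * n * RR.card := by ring

/-- The total number of inverted pairs is small unless there are many rich pairs. -/
lemma sum_invc_total (A : Fin n → Fin n → Bool) (w t g h : ℕ) (hw : 0 < w)
    (ht : ∀ c : Fin n, c.val / w < t) {ℓ : ℕ} (e : Fin ℓ → Bool) :
    ∑ c : Fin n, invc A w g c ≤
      n ^ 2 * (ℓ * w + t * h + t * g) + 2 * n * (richSet A w h e).card := by
  have h1 := sum_invc_le A w t g ht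
  have h2 := sum_mixS_le A w t h hw e
  have h3 : ∑ p : Fin n × Fin n, (mixS A w t p.1 p.2 + t * g)
      = ∑ p : Fin n × Fin n, mixS A w t p.1 p.2 + n ^ 2 * (t * g) := by
    rw [sum_add_distrib, sum_const, smul_eq_mul]
    congr 2
    simp [sq]
  rw [h3] at h1
  calc _ ≤ _ := h1
    _ ≤ n ^ 2 * (ℓ * w + t * h) + 2 * n * (richSet A w h e).card + n ^ 2 * (t * g) := by omega
    _ = _ := by ring

end Vale.Agent.P037
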