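import Vale.Agent.P037.Defs

namespace Vale.Agent.P037

open Finset

/-- A strict relation on a nonempty finite set has a minimal element. -/
lemma exists_min_rel {α : Type*} [DecidableEq α] (r : α → α → Prop)
    (S : Finset α) (hS : S.Nonempty)
    (irr : ∀ a ∈ S, ¬ r a a)
    (tr : ∀ a ∈ S, ∀ b ∈ S, ∀ c ∈ S, r a b → r b c → r a c) :
    ∃ e ∈ S, ∀ b ∈ S, ¬ r b e := by
  classical
  induction S using Finset.induction_on with
  | empty => exact absurd hS (by simp)
  | insert a S' ha ih =>
    by_cases hS' : S'.Nonempty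
    · obtain ⟨e, he, hmin⟩ := ih hS' (fun x hx => irr x (mem_insert_of_mem hx))
        (fun x hx y hy z hz => tr x (mem_insert_of_mem hx) y (mem_insert_of_mem hy) z
          (mem_insert_of_mem hz))
      by_cases hae : r a e
      · refine ⟨a, mem_insert_self _ _, ?_⟩
        intro b hb hba
        rcases mem_insert.mp hb with rfl | hb'
        · exact irr b (mem_insert_self _ _) hba
        · exact hmin b hb' (tr b (mem_insert_of_mem hb') a (mem_insert_self _ _) e
            (mem_insert_of_mem he) hba hae)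
      · refine ⟨e, mem_insert_of_mem he, ?_⟩
        intro b hb
        rcases mem_insert.mp hb with rfl | hb'
        · exact hae
        · exact hmin b hb'
    · have : S' = ∅ := not_nonempty_iff_eq_empty.mp hS'
      subst this
      refine ⟨a, mem_insert_self _ _, ?_⟩
      intro b hb
      rcases mem_insert.mp hb with rfl | hb'
      · exact irr b (mem_insert_self _ _)
      · exact absurd hb' (by simp)

/-- Balanced threshold: for a strict relation on `F` and disjoint `P, Q ⊆ F`, there is an
upper set `U` with as many elements of `P` outside `U` as elements of `Q` inside `U`. -/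
lemma exists_balanced {α : Type*} [DecidableEq α] (r : α → α → Prop) (F P Q : Finset α)
    (hP : P ⊆ F) (hQ : Q ⊆ F) (hPQ : Disjoint P Q)
    (irr : ∀ a ∈ F, ¬ r a a)
    (tr : ∀ a ∈ F, ∀ b ∈ F, ∀ c ∈ F, r a b → r b c → r a c) :
    ∃ U, U ⊆ F ∧ (∀ a ∈ U, ∀ b ∈ F, r a b → b ∈ U) ∧ (P \ U).card = (Q ∩ U).card := by
  classical
  let fam : Finset (Finset α) := F.powerset.filter fun U =>
    (∀ a ∈ U, ∀ b ∈ F, r a b → b ∈ U) ∧ (P \ U).card ≤ (Q ∩ U).card
  have hfam : fam.Nonempty := by
    refine ⟨F, ?_⟩
    simp only [fam, mem_filter, mem_powerset, Subset.refl, true_and]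
    refine ⟨fun a _ b hb _ => hb, ?_⟩
    have : P \ F = ∅ := sdiff_eq_empty_iff_subset.mpr hP
    simp [this]
  obtain ⟨U, hU, hmin⟩ := exists_min_image fam (fun U => U.card) hfam
  simp only [fam, mem_filter, mem_powerset] at hU hmin
  obtain ⟨hUF, hup, hle⟩ := hU
  refine ⟨U, hUF, hup, ?_⟩
  by_contra hne
  have hlt : (P \ U).card < (Q ∩ U).card := lt_of_le_of_ne hle hne
  have hUne : U.Nonempty := by
    by_contra h
    have : U = ∅ := not_nonempty_iff_eq_empty.mp h
    subst this
    simp at hlt
  obtain ⟨e, heU, hemin⟩ := exists_min_rel r U hUne (fun a ha => irr a (hUF ha))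
    (fun a ha b hb c hc => tr a (hUF ha) b (hUF hb) c (hUF hc))
  have hU'up : ∀ a ∈ U.erase e, ∀ b ∈ F, r a b → b ∈ U.erase e := by
    intro a ha b hb hab
    have haU := (mem_erase.mp ha).2
    have hbU := hup a haU b hb hab
    refine mem_erase.mpr ⟨?_, hbU⟩
    rintro rfl
    exact hemin a haU hab
  have hcard : (P \ U.erase e).card ≤ (Q ∩ U.erase e).card := by
    by_cases heP : e ∈ P
    · have heQ : e ∉ Q := fun h => (disjoint_left.mp hPQ) heP h
      have h1 : P \ U.erase e ⊆ insert e (P \ U) := by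
        intro x hx
        simp only [mem_sdiff, mem_erase, not_and] at hx
        by_cases hxe : x = e
        · simp [hxe]
        · refine mem_insert_of_mem (mem_sdiff.mpr ⟨hx.1, fun hxU => hx.2 hxe hxU⟩)
      have h2 : Q ∩ U ⊆ Q ∩ U.erase e := by
        intro x hx
        simp only [mem_inter, mem_erase] at hx ⊢
        refine ⟨hx.1, ?_, hx.2⟩
        rintro rfl
        exact heQ hx.1
      calc (P \ U.erase e).card ≤ (insert e (P \ U)).card := card_le_card h1
        _ ≤ (P \ U).card + 1 := card_insert_le _ _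
        _ ≤ (Q ∩ U).card := hlt
        _ ≤ _ := card_le_card h2
    · have h1 : P \ U.erase e ⊆ P \ U := by
        intro x hx
        simp only [mem_sdiff, mem_erase, not_and] at hx
        refine mem_sdiff.mpr ⟨hx.1, fun hxU => ?_⟩
        have : x ≠ e := by
          rintro rfl
          exact heP hx.1
        exact hx.2 this hxU
      have h2 : Q ∩ U ⊆ insert e (Q ∩ U.erase e) := by
        intro x hx
        simp only [mem_inter] at hx
        by_cases hxe : x = e
        · simp [hxe]
        · refine mem_insert_of_mem ?_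
          simp only [mem_inter, mem_erase]
          exact ⟨hx.1, hxe, hx.2⟩
      have h3 : (Q ∩ U).card ≤ (Q ∩ U.erase e).card + 1 :=
        (card_le_card h2).trans (card_insert_le _ _)
      have h4 := card_le_card h1
      omega
  have hmem : U.erase e ∈ fam := by
    simp only [fam, mem_filter, mem_powerset]
    exact ⟨(erase_subset _ _).trans hUF, hU'up, hcard⟩
  have := hmin (U.erase e) (by simpa [fam] using hmem)
  have h5 := card_erase_lt_of_mem heU
  omega

/-- With a total relation, the balanced upper set of `exists_balanced` gives `y^2` related pairs. -/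
lemma balanced_pairs {α : Type*} [DecidableEq α] (r : α → α → Prop) [DecidableRel r]
    (F P Q : Finset α)
    (hP : P ⊆ F) (hQ : Q ⊆ F) (hPQ : Disjoint P Q)
    (irr : ∀ a ∈ F, ¬ r a a)
    (tr : ∀ a ∈ F, ∀ b ∈ F, ∀ c ∈ F, r a b → r b c → r a c)
    (tot : ∀ a ∈ F, ∀ b ∈ F, a ≠ b → r a b ∨ r b a) :
    ∃ U, U ⊆ F ∧ (∀ a ∈ U, ∀ b ∈ F, r a b → b ∈ U) ∧ (P \ U).card = (Q ∩ U).card ∧
      (P \ U).card * (P \ U).card ≤ ((P ×ˢ Q).filter fun x => r x.1 x.2).card := by
  obtain ⟨U, hUF, hup, hbal⟩ := exists_balanced r F P Q hP hQ hPQ irr tr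
  refine ⟨U, hUF, hup, hbal, ?_⟩
  have hsub : (P \ U) ×ˢ (Q ∩ U) ⊆ (P ×ˢ Q).filter fun x => r x.1 x.2 := by
    intro x hx
    simp only [mem_product, mem_sdiff, mem_inter] at hx
    simp only [mem_filter, mem_product]
    refine ⟨⟨hx.1.1, hx.2.1⟩, ?_⟩
    have hne : x.1 ≠ x.2 := by
      intro h
      exact (disjoint_left.mp hPQ) hx.1.1 (h ▸ hx.2.1)
    rcases tot x.1 (hP hx.1.1) x.2 (hQ hx.2.1) hne with h | h
    · exact h
    · exact absurd (hup x.2 hx.2.2 x.1 (hP hx.1.1) h) hx.1.2
  have := card_le_card hsub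
  rw [card_product, ← hbal] at this
  exact this

/-! ### Averaging over tuples -/

section tuples

variable {m n : ℕ}

lemma card_tuple_fixed (D : Finset (Fin m)) (g : Fin m → Fin n) :
    ((univ : Finset (Fin m → Fin n)).filter fun σ => ∀ k ∈ D, σ k = g k).card
      = n ^ (m - D.card) := by
  classical
  have : ((univ : Finset (Fin m → Fin n)).filter fun σ => ∀ k ∈ D, σ k = g k)
      = Fintype.piFinset (fun k => if k ∈ D then {g k} else univ) := by
    ext σ
    simp only [mem_filter, mem_univ, true_and, Fintype.mem_piFinset]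
    constructor
    · intro h k
      by_cases hk : k ∈ D
      · simp [hk, h k hk]
      · simp [hk]
    · intro h k hk
      have := h k
      simpa [hk] using this
  rw [this, Fintype.card_piFinset]
  have h2 : ∀ k, (if k ∈ D then ({g k} : Finset (Fin n)) else univ).card
      = if k ∈ D then 1 else n := by
    intro k
    split_ifs <;> simp
  simp only [h2]
  rw [Finset.prod_ite]
  simp only [prod_const_one, one_mul, prod_const]
  congr 1
  have : (univ.filter fun k => k ∉ D) = Dᶜ := by
    ext k; simp
  rw [this, card_compl, Fintype.card_fin]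

lemma sum_tuple_eval (i : Fin m) (f : Fin n → ℝ) :
    ∑ σ : Fin m → Fin n, f (σ i) = n ^ (m - 1) * ∑ a, f a := by
  classical
  have h1 : ∀ σ : Fin m → Fin n, f (σ i) = ∑ a, if σ i = a then f a else 0 := by
    intro σ
    simp
  simp_rw [h1]
  rw [Finset.sum_comm, Finset.mul_sum]
  refine Finset.sum_congr rfl fun a _ => ?_
  rw [← Finset.sum_filter, Finset.sum_const, nsmul_eq_mul]
  have h2 := card_tuple_fixed (m := m) (n := n) {i} (fun _ => a)
  simp only [mem_singleton, forall_eq, card_singleton] at h2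
  rw [h2]
  push_cast
  ring

lemma sum_tuple_eval₂ (i j : Fin m) (hij : i ≠ j) (f : Fin n → Fin n → ℝ) :
    ∑ σ : Fin m → Fin n, f (σ i) (σ j) = n ^ (m - 2) * ∑ a, ∑ b, f a b := by
  classical
  have h1 : ∀ σ : Fin m → Fin n, f (σ i) (σ j)
      = ∑ a, ∑ b, if σ i = a ∧ σ j = b then f a b else 0 := by
    intro σ
    rw [Finset.sum_eq_single (σ i), Finset.sum_eq_single (σ j)]
    · simp
    · intro b _ hb
      simp [Ne.symm hb]
    · simp
    · intro a _ ha
      apply Finset.sum_eq_zero
      intro b _
      simp [Ne.symm ha]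
    · simp
  simp_rw [h1]
  rw [Finset.sum_comm, Finset.mul_sum]
  refine Finset.sum_congr rfl fun a _ => ?_
  rw [Finset.sum_comm, Finset.mul_sum]
  refine Finset.sum_congr rfl fun b _ => ?_
  rw [← Finset.sum_filter, Finset.sum_const, nsmul_eq_mul]
  have h2 := card_tuple_fixed (m := m) (n := n) {i, j} (fun k => if k = i then a else b)
  have h3 : ({i, j} : Finset (Fin m)).card = 2 := card_pair hij
  rw [h3] at h2
  have h4 : ((univ : Finset (Fin m → Fin n)).filter fun σ => ∀ k ∈ ({i, j} : Finset (Fin m)),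
      σ k = if k = i then a else b) = (univ.filter fun σ => σ i = a ∧ σ j = b) := by
    ext σ
    simp only [mem_filter, mem_univ, true_and, mem_insert, mem_singleton, forall_eq_or_imp,
      forall_eq, if_true]
    simp [Ne.symm hij]
  rw [h4] at h2
  rw [h2]
  push_cast
  ring

/-- The number of tuples avoiding a set `T`. -/
lemma card_tuple_avoid (T : Finset (Fin n)) :
    ((univ : Finset (Fin m → Fin n)).filter fun σ => ∀ i, σ i ∉ T).card = (n - T.card) ^ m := by
  classical
  have : ((univ : Finset (Fin m → Fin n)).filter fun σ => ∀ i, σ i ∉ T)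
      = Fintype.piFinset (fun _ => Tᶜ) := by
    ext σ
    simp
  rw [this, Fintype.card_piFinset]
  simp [card_compl]

lemma pow_succ_add_le (x m : ℕ) : x ^ (m + 1) + (m + 1) * x ^ m ≤ (x + 1) ^ (m + 1) := by
  induction m with
  | zero => simp
  | succ m ih =>
    calc x ^ (m + 1 + 1) + (m + 1 + 1) * x ^ (m + 1)
        ≤ (x + 1) * (x ^ (m + 1) + (m + 1) * x ^ m) := by
          have h : (x + 1) * (x ^ (m + 1) + (m + 1) * x ^ m)
              = x ^ (m + 1 + 1) + (m + 1 + 1) * x ^ (m + 1) + (m + 1) * x ^ m := by ring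
          rw [h]
          exact Nat.le_add_right _ _
      _ ≤ (x + 1) * (x + 1) ^ (m + 1) := Nat.mul_le_mul_left _ ih
      _ = (x + 1) ^ (m + 1 + 1) := by ring

lemma sum_range_pow_mul_le (n m : ℕ) :
    (m + 1) * ∑ x ∈ range n, x ^ m ≤ n ^ (m + 1) := by
  induction n with
  | zero => simp
  | succ n ih =>
    rw [sum_range_succ, mul_add]
    have := pow_succ_add_le n m
    omega

end tuples

end Vale.Agent.P037
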