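import Vale.Agent.P037.Dup

/-!
Polynomial removal passes to block blow-ups of a pattern.
-/

namespace Vale.Agent.P037

open Finset

/-- Real-number bookkeeping for duplicating a row. -/
lemma dup_real (c ε n Nr Nh N0 : ℝ) (C M : ℕ) (hc : 0 < c) (hε : 0 < ε) (hε1 : ε < 1) (hn : 1 ≤ n)
    (hN0 : 0 < N0) (hNh : 1 ≤ Nh) (hNr : 0 ≤ Nr) (hM : N0 * n ^ M = (N0 * n) ^ 2 )
    (h1 : c * ε ^ C * (N0 * n) ≤ Nr) (h2 : Nr ^ 2 ≤ N0 * (Nr + 2 * Nh)) :
    min (c ^ 2 / 4) ((c / 2) ^ M) * ε ^ (2 * C + C * M) * n ^ M ≤ Nh := by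
  have hnpos : 0 < n := by linarith
  have hnM : 0 < n ^ M := by positivity
  have hpow : ε ^ (2 * C + C * M) ≤ 1 * ε ^ (2 * C) := by
    rw [one_mul]
    exact pow_le_pow_of_le_one hε.le hε1.le (by omega)
  have hpow2 : ε ^ (2 * C + C * M) ≤ (ε ^ C) ^ M := by
    rw [← pow_mul]
    exact pow_le_pow_of_le_one hε.le hε1.le (by omega)
  have hepos : 0 < ε ^ (2 * C + C * M) := by positivity
  by_cases hcase : 2 * N0 ≤ Nr
  · -- many copies
    have h3 : Nr ^ 2 ≤ 4 * N0 * Nh := by nlinarith
    have h4 : (c * ε ^ C * (N0 * n)) ^ 2 ≤ Nr ^ 2 := by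
      apply pow_le_pow_left₀ (by positivity) h1
    have h5 : c ^ 2 * ε ^ (2 * C) * (N0 * n ^ M) ≤ 4 * N0 * Nh := by
      calc c ^ 2 * ε ^ (2 * C) * (N0 * n ^ M) = c ^ 2 * (ε ^ C) ^ 2 * (N0 * n) ^ 2 := by
            rw [hM, pow_mul']
        _ = (c * ε ^ C * (N0 * n)) ^ 2 := by ring
        _ ≤ Nr ^ 2 := h4
        _ ≤ 4 * N0 * Nh := h3
    have h6 : c ^ 2 * ε ^ (2 * C) * n ^ M ≤ 4 * Nh := by
      have : N0 * (c ^ 2 * ε ^ (2 * C) * n ^ M) ≤ N0 * (4 * Nh) := by
        calc _ = c ^ 2 * ε ^ (2 * C) * (N0 * n ^ M) := by ring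
          _ ≤ 4 * N0 * Nh := h5
          _ = _ := by ring
      exact le_of_mul_le_mul_left this hN0
    calc min (c ^ 2 / 4) ((c / 2) ^ M) * ε ^ (2 * C + C * M) * n ^ M
        ≤ (c ^ 2 / 4) * ε ^ (2 * C) * n ^ M := by
          apply mul_le_mul_of_nonneg_right _ hnM.le
          apply mul_le_mul (min_le_left _ _) (by simpa using hpow) hepos.le (by positivity)
      _ = (c ^ 2 * ε ^ (2 * C) * n ^ M) / 4 := by ring
      _ ≤ Nh := by linarith
  · -- few copies: `n` is small
    have hlt : Nr < 2 * N0 := not_le.mp hcase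
    have h3 : c * ε ^ C * n < 2 := by
      have : N0 * (c * ε ^ C * n) < N0 * 2 := by
        calc _ = c * ε ^ C * (N0 * n) := by ring
          _ ≤ Nr := h1
          _ < 2 * N0 := hlt
          _ = _ := by ring
      exact lt_of_mul_lt_mul_left this hN0.le
    have h4 : ((c / 2) * ε ^ C * n) ^ M ≤ 1 := by
      apply pow_le_one₀ (by positivity)
      have e : (c / 2) * ε ^ C * n = (c * ε ^ C * n) / 2 := by ring
      rw [e]
      linarith
    calc min (c ^ 2 / 4) ((c / 2) ^ M) * ε ^ (2 * C + C * M) * n ^ M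
        ≤ (c / 2) ^ M * (ε ^ C) ^ M * n ^ M := by
          apply mul_le_mul_of_nonneg_right _ hnM.le
          apply mul_le_mul (min_le_right _ _) hpow2 hepos.le (by positivity)
      _ = ((c / 2) * ε ^ C * n) ^ M := by rw [mul_pow, mul_pow]
      _ ≤ 1 := h4
      _ ≤ Nh := hNh

/-- Duplicating a row of the pattern keeps polynomial removal. -/
theorem polyRem_dup_row {a b : ℕ} (R : Fin a → Fin b → Bool) (p : Fin a) (h : PolyRem R) :
    PolyRem (fun i j => R (p.predAbove i) j) := by
  cases a with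
  | zero => exact p.elim0
  | succ m =>
    obtain ⟨c, C, hc, hC, hR⟩ := h
    set M : ℕ := m + 1 + 1 + b with hM
    refine ⟨min (c ^ 2 / 4) ((c / 2) ^ M), 2 * C + C * M, by positivity, by omega, ?_⟩
    intro n ε A hε hε1 hfar
    rcases Nat.eq_zero_or_pos n with h0 | hnpos
    · subst h0
      have hMpos : M ≠ 0 := by omega
      simp
    · have hfarR : ∀ B : Fin n → Fin n → Bool, rcopies R B = 0 →
          ε * (n : ℝ) ^ 2 ≤ diffCount A B := fun B hB => hfar B (dup_free R p B hB)
      have h1 := hR n ε A hε hε1 hfarR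
      have h2 := dup_count R p A
      have hNh := rcopies_pos_of_far _ A ε hε hnpos hfar
      have hn1 : (1 : ℝ) ≤ n := by exact_mod_cast hnpos
      have h2' : (rcopies R A : ℝ) ^ 2 ≤ (n : ℝ) ^ (m + b) *
          ((rcopies R A : ℝ) + 2 * (rcopies (fun i j => R (p.predAbove i) j) A : ℝ)) := by
        exact_mod_cast h2
      refine dup_real c ε n (rcopies R A) _ ((n : ℝ) ^ (m + b)) C M hc hε hε1 hn1 (by positivity)
        (by exact_mod_cast hNh) (Nat.cast_nonneg _) ?_ ?_ h2'
      · rw [hM]
        ring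
      · have e : (n : ℝ) ^ (m + 1 + b) = (n : ℝ) ^ (m + b) * n := by ring
        rw [← e]
        exact h1

/-- Transposition of a pattern or matrix. -/
def tr {α : Type*} {a b : ℕ} (H : Fin a → Fin b → α) : Fin b → Fin a → α := fun j i => H i j

lemma rcopies_tr {a b n : ℕ} (H : Fin a → Fin b → Bool) (A : Fin n → Fin n → Bool) :
    rcopies (tr H) (tr A) = rcopies H A := by
  classical
  unfold rcopies
  refine Finset.card_bij (fun p _ => (p.2, p.1)) ?_ ?_ ?_
  · intro p hp
    rw [Finset.mem_filter] at hp ⊢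
    obtain ⟨-, h1, h2, h3⟩ := hp
    exact ⟨Finset.mem_univ _, h2, h1, fun i j => h3 j i⟩
  · intro p _ q _ h
    have h1 : p.2 = q.2 := congrArg Prod.fst h
    have h2 : p.1 = q.1 := congrArg Prod.snd h
    exact Prod.ext h2 h1
  · intro q hq
    rw [Finset.mem_filter] at hq
    obtain ⟨-, h1, h2, h3⟩ := hq
    refine ⟨(q.2, q.1), ?_, rfl⟩
    rw [Finset.mem_filter]
    exact ⟨Finset.mem_univ _, h2, h1, fun i j => h3 j i⟩

lemma diffCount_tr {n : ℕ} (A B : Fin n → Fin n → Bool) : diffCount (tr A) (tr B) = diffCount A B := by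
  classical
  unfold diffCount
  refine Finset.card_bij (fun p _ => (p.2, p.1)) ?_ ?_ ?_
  · intro p hp
    rw [Finset.mem_filter] at hp ⊢
    exact ⟨Finset.mem_univ _, hp.2⟩
  · intro p _ q _ h
    have h1 : p.2 = q.2 := congrArg Prod.fst h
    have h2 : p.1 = q.1 := congrArg Prod.snd h
    exact Prod.ext h2 h1
  · intro q hq
    rw [Finset.mem_filter] at hq
    refine ⟨(q.2, q.1), ?_, rfl⟩
    rw [Finset.mem_filter]
    exact ⟨Finset.mem_univ _, hq.2⟩

theorem polyRem_tr {a b : ℕ} (H : Fin a → Fin b → Bool) (h : PolyRem H) : PolyRem (tr H) := by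
  obtain ⟨c, C, hc, hC, hR⟩ := h
  refine ⟨c, C, hc, hC, ?_⟩
  intro n ε A hε hε1 hfar
  have h1 := hR n ε (tr A) hε hε1 (by
    intro B hB
    have h2 : rcopies (tr H) (tr B) = 0 := by rw [rcopies_tr]; exact hB
    have h3 := hfar _ h2
    rw [← diffCount_tr A (tr B)] at h3
    exact h3)
  have h4 : rcopies H (tr A) = rcopies (tr H) A := by
    rw [← rcopies_tr H (tr A)]
    rfl
  rw [h4, add_comm] at h1
  try exact h1

/-- Duplicating a column of the pattern keeps polynomial removal. -/
theorem polyRem_dup_col {a b : ℕ} (R : Fin a → Fin b → Bool) (p : Fin b) (h : PolyRem R) :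
    PolyRem (fun i j => R i (p.predAbove j)) :=
  polyRem_tr _ (polyRem_dup_row (tr R) p (polyRem_tr R h))

lemma exists_adjacent_eq {a d : ℕ} (φ : Fin (a + d + 1) → Fin a) (hm : Monotone φ) :
    ∃ i : Fin (a + d), φ i.castSucc = φ i.succ := by
  by_contra hcon
  have hs : StrictMono φ := by
    rw [Fin.strictMono_iff_lt_succ]
    intro i
    refine lt_of_le_of_ne (hm ?_) (fun h => hcon ⟨i, h⟩)
    exact Fin.castSucc_lt_succ.le
  have := Fintype.card_le_of_injective φ hs.injective
  simp only [Fintype.card_fin] at this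
  omega

/-- Precomposing the rows by a monotone surjection keeps polynomial removal. -/
theorem polyRem_comp_rows {b : ℕ} (d : ℕ) : ∀ {a : ℕ} (R : Fin a → Fin b → Bool)
    (φ : Fin (a + d) → Fin a), Monotone φ → Function.Surjective φ → PolyRem R →
    PolyRem (fun i j => R (φ i) j) := by
  induction d with
  | zero =>
    intro a R φ hm hs h
    have hinj : Function.Injective φ := (Finite.injective_iff_surjective).mpr hs
    have hsm : StrictMono φ := hm.strictMono_of_injective hinj
    have hid : φ = id := by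
      have hiso := StrictMono.range_inj hsm strictMono_id
      apply hiso.mp
      rw [hs.range_eq]
      simp
    subst hid
    exact h
  | succ d ih =>
    intro a R φ hm hs h
    obtain ⟨i, hi⟩ := exists_adjacent_eq φ hm
    let σ : Fin (a + d) → Fin (a + d + 1) := i.succ.succAbove
    have hσm : StrictMono σ := Fin.strictMono_succAbove _
    let φ' : Fin (a + d) → Fin a := fun x => φ (σ x)
    have hφ'm : Monotone φ' := fun x y hxy => hm (hσm.monotone hxy)
    have hφ's : Function.Surjective φ' := by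
      intro y
      obtain ⟨x, hx⟩ := hs y
      by_cases hxi : x = i.succ
      · have hne : i.castSucc ≠ i.succ := (Fin.castSucc_lt_succ).ne
        obtain ⟨z, hz⟩ := Fin.exists_succAbove_eq hne
        refine ⟨z, ?_⟩
        simp only [φ', σ]
        rw [hz, hi, ← hxi, hx]
      · obtain ⟨z, hz⟩ := Fin.exists_succAbove_eq hxi
        exact ⟨z, by simp only [φ', σ]; rw [hz, hx]⟩
    have hfac : ∀ x, φ' (i.predAbove x) = φ x := by
      intro x
      simp only [φ', σ]
      by_cases hxi : x = i.succ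
      · subst hxi
        have h1 : i.predAbove i.succ = i := by
          apply Fin.ext
          rw [predAbove_val]
          simp
        rw [h1]
        have h2 : i.succ.succAbove i = i.castSucc := by
          apply Fin.ext
          simp [Fin.succAbove, Fin.lt_def]
        rw [h2, hi]
      · have h1 : i.succ.succAbove (i.predAbove x) = x := by
          apply Fin.ext
          have hv := predAbove_val i x
          have hne : x.val ≠ i.val + 1 := by
            intro hc
            apply hxi
            apply Fin.ext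
            simpa using hc
          simp only [Fin.succAbove, Fin.lt_def, Fin.val_castSucc, Fin.val_succ]
          split_ifs with h3 <;> simp_all <;> split_ifs at * <;> omega
        rw [h1]
    have h1 := polyRem_dup_row _ i (ih R φ' hφ'm hφ's h)
    have h2 : (fun (x : Fin (a + d + 1)) (j : Fin b) => R (φ' (i.predAbove x)) j) = fun x j => R (φ x) j := by
      funext x j
      rw [hfac]
    rw [h2] at h1
    exact h1

/-- Block blow-ups: precomposing rows and columns by monotone surjections keeps polynomial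
removal. -/
theorem polyRem_blow {a b a' b' : ℕ} (R : Fin a → Fin b → Bool) (φ : Fin a' → Fin a)
    (ψ : Fin b' → Fin b) (hφm : Monotone φ) (hφs : Function.Surjective φ) (hψm : Monotone ψ)
    (hψs : Function.Surjective ψ) (h : PolyRem R) : PolyRem (fun i j => R (φ i) (ψ j)) := by
  have haa : a ≤ a' := by
    have := Fintype.card_le_of_surjective φ hφs
    simpa using this
  have hbb : b ≤ b' := by
    have := Fintype.card_le_of_surjective ψ hψs
    simpa using this
  obtain ⟨d, rfl⟩ := Nat.exists_eq_add_of_le haa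
  obtain ⟨e, rfl⟩ := Nat.exists_eq_add_of_le hbb
  have h1 := polyRem_comp_rows d R φ hφm hφs h
  have h2 := polyRem_comp_rows e (tr fun i j => R (φ i) j) ψ hψm hψs (polyRem_tr _ h1)
  exact polyRem_tr _ h2

end Vale.Agent.P037
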