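import Mathlib

/-!
Ordered copies of a binary pattern in a binary square matrix, and the number of
entries on which two binary matrices differ.
-/

namespace Vale.Agent.P037

open Classical in
/-- The number of ordered copies of the `k × k` pattern `H` in the `n × n` matrix `A`:
pairs of strictly increasing maps `r, c : Fin k → Fin n` with `A (r i) (c j) = H i j`. -/
noncomputable def copies {k n : ℕ} (H : Fin k → Fin k → Bool) (A : Fin n → Fin n → Bool) : ℕ :=
  (Finset.univ.filter fun p : (Fin k → Fin n) × (Fin k → Fin n) =>
    StrictMono p.1 ∧ StrictMono p.2 ∧ ∀ i j, A (p.1 i) (p.2 j) = H i j).card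

/-- The number of positions in which two `n × n` binary matrices differ. -/
def diffCount {n : ℕ} (A B : Fin n → Fin n → Bool) : ℕ :=
  (Finset.univ.filter fun p : Fin n × Fin n => A p.1 p.2 ≠ B p.1 p.2).card

end Vale.Agent.P037
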