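import Vale.Agent.P037.Two

/-!
Removal for the pattern `[[1,0],[0,1]]`: the structural part.
Sampled rows define, for every row, a linear order on the columns; the rows of the
cleaned matrix are final segments of these orders.
-/

namespace Vale.Agent.P037

open Finset

/-- The pattern `[[1,0],[0,1]]`. -/
def patX : Fin 2 → Fin 2 → Bool := ![![true, false], ![false, true]]

variable {n m : ℕ}

lemma isPat_patX (A : Fin n → Fin n → Bool) (a b c d : Fin n) :
    IsPat patX A a b c d ↔
      a < b ∧ c < d ∧ A a c = true ∧ A a d = false ∧ A b c = false ∧ A b d = true := by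
  simp [IsPat, patX]

/-- Some sampled row at or below `r` has `(0,1)` on the columns `(c,d)`. -/
def Fwd (A : Fin n → Fin n → Bool) (σ : Fin m → Fin n) (r c d : Fin n) : Prop :=
  ∃ i, r ≤ σ i ∧ A (σ i) c = false ∧ A (σ i) d = true

/-- The order on columns attached to row `r`. -/
def Prec (A : Fin n → Fin n → Bool) (σ : Fin m → Fin n) (r c d : Fin n) : Prop :=
  (c < d ∧ Fwd A σ r c d) ∨ (d < c ∧ ¬ Fwd A σ r d c)

section order

variable (A : Fin n → Fin n → Bool) (σ : Fin m → Fin n) (C : Finset (Fin n))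

lemma prec_irrefl (r c : Fin n) : ¬ Prec A σ r c c := by
  rintro (⟨h, _⟩ | ⟨h, _⟩) <;> exact lt_irrefl _ h

lemma prec_total (r c d : Fin n) (h : c ≠ d) : Prec A σ r c d ∨ Prec A σ r d c := by
  rcases lt_or_gt_of_ne h with h | h
  · by_cases hf : Fwd A σ r c d
    · exact Or.inl (Or.inl ⟨h, hf⟩)
    · exact Or.inr (Or.inr ⟨h, hf⟩)
  · by_cases hf : Fwd A σ r d c
    · exact Or.inr (Or.inl ⟨h, hf⟩)
    · exact Or.inl (Or.inr ⟨h, hf⟩)

lemma fwd_split (r u b w : Fin n) (h : Fwd A σ r u w) : Fwd A σ r b w ∨ Fwd A σ r u b := by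
  obtain ⟨i, hi, h1, h2⟩ := h
  cases hb : A (σ i) b with
  | false => exact Or.inl ⟨i, hi, hb, h2⟩
  | true => exact Or.inr ⟨i, hi, h1, hb⟩

variable {A σ C}

lemma fwd_trans (hfree : ∀ i j, ∀ c ∈ C, ∀ d ∈ C, ¬ IsPat patX A (σ i) (σ j) c d)
    {r u b w : Fin n} (hu : u ∈ C) (hb : b ∈ C) (hw : w ∈ C) (hub : u < b) (hbw : b < w)
    (h1 : Fwd A σ r u b) (h2 : Fwd A σ r b w) : Fwd A σ r u w := by
  obtain ⟨i, hi, hi1, hi2⟩ := h1
  obtain ⟨j, hj, hj1, hj2⟩ := h2
  cases hiw : A (σ i) w with
  | true => exact ⟨i, hi, hi1, hiw⟩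
  | false =>
    cases hju : A (σ j) u with
    | false => exact ⟨j, hj, hju, hj2⟩
    | true =>
      exfalso
      have hne : σ i ≠ σ j := by
        intro h
        rw [h] at hi2
        rw [hi2] at hj1
        exact Bool.noConfusion hj1
      rcases lt_or_gt_of_ne hne with h | h
      · exact hfree i j b hb w hw ((isPat_patX _ _ _ _ _).mpr ⟨h, hbw, hi2, hiw, hj1, hj2⟩)
      · exact hfree j i u hu b hb ((isPat_patX _ _ _ _ _).mpr ⟨h, hub, hju, hj1, hi1, hi2⟩)

lemma prec_trans (hfree : ∀ i j, ∀ c ∈ C, ∀ d ∈ C, ¬ IsPat patX A (σ i) (σ j) c d)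
    {r a b c : Fin n} (ha : a ∈ C) (hb : b ∈ C) (hc : c ∈ C)
    (h1 : Prec A σ r a b) (h2 : Prec A σ r b c) : Prec A σ r a c := by
  rcases h1 with ⟨hab, f1⟩ | ⟨hba, f1⟩ <;> rcases h2 with ⟨hbc, f2⟩ | ⟨hcb, f2⟩
  · exact Or.inl ⟨hab.trans hbc, fwd_trans hfree ha hb hc hab hbc f1 f2⟩
  · rcases lt_trichotomy a c with hac | rfl | hca
    · rcases fwd_split A σ r a c b f1 with h | h
      · exact absurd h f2
      · exact Or.inl ⟨hac, h⟩
    · exact absurd f1 f2
    · exact Or.inr ⟨hca, fun h => f2 (fwd_trans hfree hc ha hb hca hab h f1)⟩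
  · rcases lt_trichotomy a c with hac | rfl | hca
    · rcases fwd_split A σ r b a c f2 with h | h
      · exact Or.inl ⟨hac, h⟩
      · exact absurd h f1
    · exact absurd f2 f1
    · exact Or.inr ⟨hca, fun h => f1 (fwd_trans hfree hb hc ha hbc hca f2 h)⟩
  · refine Or.inr ⟨hcb.trans hba, fun h => ?_⟩
    rcases fwd_split A σ r c b a h with h' | h'
    · exact f1 h'
    · exact f2 h'

end order

/-- A monotone retraction onto a nonempty set of columns. -/
lemma exists_retraction (C : Finset (Fin n)) (hC : C.Nonempty) :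
    ∃ φ : Fin n → Fin n, Monotone φ ∧ (∀ c, φ c ∈ C) ∧ (∀ c ∈ C, φ c = c) := by
  classical
  let φ : Fin n → Fin n := fun c =>
    if h : (C.filter (· ≤ c)).Nonempty then (C.filter (· ≤ c)).max' h else C.min' hC
  have hφC : ∀ c, φ c ∈ C := by
    intro c
    by_cases h : (C.filter (· ≤ c)).Nonempty
    · simp only [φ, dif_pos h]
      exact (mem_filter.mp (max'_mem _ h)).1
    · simp only [φ, dif_neg h]
      exact min'_mem _ _
  refine ⟨φ, ?_, hφC, ?_⟩
  · intro c d hcd
    by_cases h : (C.filter (· ≤ c)).Nonempty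
    · have h' : (C.filter (· ≤ d)).Nonempty := by
        obtain ⟨x, hx⟩ := h
        exact ⟨x, mem_filter.mpr ⟨(mem_filter.mp hx).1, (mem_filter.mp hx).2.trans hcd⟩⟩
      simp only [φ, dif_pos h, dif_pos h']
      apply max'_le
      intro y hy
      apply le_max'
      exact mem_filter.mpr ⟨(mem_filter.mp hy).1, (mem_filter.mp hy).2.trans hcd⟩
    · by_cases h' : (C.filter (· ≤ d)).Nonempty
      · simp only [φ, dif_neg h, dif_pos h']
        exact min'_le _ _ (mem_filter.mp (max'_mem _ h')).1
      · simp only [φ, dif_neg h, dif_neg h']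
        exact le_refl _
  · intro c hc
    have h : (C.filter (· ≤ c)).Nonempty := ⟨c, mem_filter.mpr ⟨hc, le_refl _⟩⟩
    simp only [φ, dif_pos h]
    apply le_antisymm
    · exact (mem_filter.mp (max'_mem _ h)).2
    · exact le_max' (C.filter (· ≤ c)) c (mem_filter.mpr ⟨hc, le_refl _⟩)

open Classical in
/-- The tail count: pairs of columns on which row `r` is `(0,1)` while no sampled row at or below
`r` is. -/
noncomputable def tailX (A : Fin n → Fin n → Bool) (σ : Fin m → Fin n) (r : Fin n) : ℕ :=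
  (univ.filter fun x : Fin n × Fin n =>
    x.1 < x.2 ∧ A r x.1 = false ∧ A r x.2 = true ∧ ¬ Fwd A σ r x.1 x.2).card

open Classical in
lemma row_pairs_le (A : Fin n → Fin n → Bool) (σ : Fin m → Fin n) (C : Finset (Fin n))
    (r : Fin n) :
    (((C.filter fun c => A r c = true) ×ˢ (C.filter fun c => A r c = false)).filter
        fun x => Prec A σ r x.1 x.2).card
      ≤ ∑ i, patCount patX A r (σ i) + tailX A σ r := by
  set E := ((C.filter fun c => A r c = true) ×ˢ (C.filter fun c => A r c = false)).filter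
        fun x => Prec A σ r x.1 x.2 with hE
  have h1 : E ⊆ (univ.biUnion fun i : Fin m => univ.filter fun x : Fin n × Fin n =>
        IsPat patX A r (σ i) x.1 x.2) ∪
      ((univ.filter fun x : Fin n × Fin n =>
        x.1 < x.2 ∧ A r x.1 = false ∧ A r x.2 = true ∧ ¬ Fwd A σ r x.1 x.2).image Prod.swap) := by
    intro x hx
    simp only [hE, mem_filter, mem_product] at hx
    obtain ⟨⟨⟨_, hp⟩, ⟨_, hq⟩⟩, hprec⟩ := hx
    rcases hprec with ⟨hlt, i, hi, h1, h2⟩ | ⟨hlt, hnf⟩
    · apply mem_union_left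
      simp only [mem_biUnion, mem_univ, mem_filter, true_and]
      refine ⟨i, (isPat_patX _ _ _ _ _).mpr ⟨?_, hlt, hp, hq, h1, h2⟩⟩
      refine lt_of_le_of_ne hi ?_
      intro h
      rw [← h, hp] at h1
      exact Bool.noConfusion h1
    · apply mem_union_right
      simp only [mem_image, mem_filter, mem_univ, true_and]
      exact ⟨(x.2, x.1), ⟨hlt, hq, hp, hnf⟩, by simp⟩
  have h2 := card_le_card h1
  refine h2.trans ((card_union_le _ _).trans (add_le_add ?_ ?_))
  · refine card_biUnion_le.trans ?_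
    exact le_of_eq rfl
  · refine card_image_le.trans ?_
    simp only [tailX]
    apply le_of_eq
    congr

/-- The structural theorem: from a sampled tuple and columns on which the sampled rows are free,
get a free matrix with cost controlled by the violation counts. -/
theorem exists_free_of_sample (A : Fin n → Fin n → Bool) (σ : Fin m → Fin n) (C : Finset (Fin n))
    (hC : C.Nonempty) (hfree : ∀ i j, ∀ c ∈ C, ∀ d ∈ C, ¬ IsPat patX A (σ i) (σ j) c d) :
    ∃ (y : Fin n → ℕ) (B : Fin n → Fin n → Bool),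
      (∀ r, y r * y r ≤ ∑ i, patCount patX A r (σ i) + tailX A σ r) ∧
      (∀ a b c d, ¬ IsPat patX B a b c d) ∧
      diffCount A B ≤ ∑ r, 2 * y r + n * (Cᶜ).card := by
  classical
  have key : ∀ r : Fin n, ∃ U : Finset (Fin n), U ⊆ C ∧
      (∀ a ∈ U, ∀ b ∈ C, Prec A σ r a b → b ∈ U) ∧
      ((C.filter fun c => A r c = true) \ U).card = ((C.filter fun c => A r c = false) ∩ U).card ∧
      ((C.filter fun c => A r c = true) \ U).card * ((C.filter fun c => A r c = true) \ U).card
        ≤ ∑ i, patCount patX A r (σ i) + tailX A σ r := by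
    intro r
    obtain ⟨U, h1, h2, h3, h4⟩ := balanced_pairs (Prec A σ r) C
      (C.filter fun c => A r c = true) (C.filter fun c => A r c = false)
      (filter_subset _ _) (filter_subset _ _)
      (by
        rw [disjoint_left]
        intro a ha hb
        simp only [mem_filter] at ha hb
        rw [ha.2] at hb
        exact Bool.noConfusion hb.2)
      (fun a _ => prec_irrefl A σ r a)
      (fun a ha b hb c hc h1 h2 => prec_trans hfree ha hb hc h1 h2)
      (fun a _ b _ hab => prec_total A σ r a b hab)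
    exact ⟨U, h1, h2, h3, h4.trans (row_pairs_le A σ C r)⟩
  choose U hU1 hU2 hU3 hU4 using key
  obtain ⟨φ, hφm, hφC, hφid⟩ := exists_retraction C hC
  refine ⟨fun r => ((C.filter fun c => A r c = true) \ U r).card,
    fun r c => decide (φ c ∈ U r), hU4, ?_, ?_⟩
  · intro a b c d hp
    rw [isPat_patX] at hp
    obtain ⟨hab, hcd, h1, h2, h3, h4⟩ := hp
    simp only [decide_eq_true_eq, decide_eq_false_iff_not] at h1 h2 h3 h4
    have hle : φ c ≤ φ d := hφm hcd.le
    have hlt : φ c < φ d := by
      refine lt_of_le_of_ne hle ?_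
      intro h
      rw [h] at h1
      exact h2 h1
    -- At row `a`: `φ c ∈ U a`, `φ d ∉ U a`.
    have hn1 : ¬ Prec A σ a (φ c) (φ d) := fun h => h2 (hU2 a _ h1 _ (hφC d) h)
    have hn2 : ¬ Fwd A σ a (φ c) (φ d) := fun h => hn1 (Or.inl ⟨hlt, h⟩)
    have hn3 : ¬ Prec A σ b (φ d) (φ c) := fun h => h3 (hU2 b _ h4 _ (hφC c) h)
    have hn4 : Fwd A σ b (φ c) (φ d) := by
      by_contra h
      exact hn3 (Or.inr ⟨hlt, h⟩)
    obtain ⟨i, hi, hi1, hi2⟩ := hn4
    exact hn2 ⟨i, hab.le.trans hi, hi1, hi2⟩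
  · -- the cost
    have hsub : (univ.filter fun p : Fin n × Fin n => A p.1 p.2 ≠ decide (φ p.2 ∈ U p.1))
        ⊆ univ.biUnion fun r : Fin n => (((C.filter fun c => A r c = true) \ U r) ∪
            ((C.filter fun c => A r c = false) ∩ U r) ∪ Cᶜ).image fun c => (r, c) := by
      intro p hp
      simp only [mem_filter, mem_univ, true_and] at hp
      simp only [mem_biUnion, mem_univ, true_and, mem_image]
      refine ⟨p.1, p.2, ?_, rfl⟩
      by_cases hpC : p.2 ∈ C
      · have : φ p.2 = p.2 := hφid _ hpC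
        rw [this] at hp
        simp only [mem_union, mem_sdiff, mem_filter, mem_inter, mem_compl]
        cases hv : A p.1 p.2 with
        | true =>
          rw [hv] at hp
          refine Or.inl (Or.inl ⟨⟨hpC, rfl⟩, ?_⟩)
          intro hmem
          apply hp
          simp [hmem]
        | false =>
          rw [hv] at hp
          refine Or.inl (Or.inr ⟨⟨hpC, rfl⟩, ?_⟩)
          by_contra hmem
          apply hp
          simp [hmem]
      · simp only [mem_union, mem_compl]
        exact Or.inr hpC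
    have h1 : diffCount A (fun r c => decide (φ c ∈ U r))
        = (univ.filter fun p : Fin n × Fin n => A p.1 p.2 ≠ decide (φ p.2 ∈ U p.1)).card := rfl
    rw [h1]
    refine (card_le_card hsub).trans (card_biUnion_le.trans ?_)
    have h2 : ∀ r ∈ (univ : Finset (Fin n)), ((((C.filter fun c => A r c = true) \ U r) ∪
            ((C.filter fun c => A r c = false) ∩ U r) ∪ Cᶜ).image fun c => (r, c)).card
        ≤ 2 * ((C.filter fun c => A r c = true) \ U r).card + (Cᶜ).card := by
      intro r _
      refine card_image_le.trans ((card_union_le _ _).trans ?_)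
      have := card_union_le ((C.filter fun c => A r c = true) \ U r)
        ((C.filter fun c => A r c = false) ∩ U r)
      have h3 := hU3 r
      omega
    refine (sum_le_sum h2).trans ?_
    rw [sum_add_distrib, sum_const, card_univ, Fintype.card_fin, smul_eq_mul]

end Vale.Agent.P037
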