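import Vale.Agent.P037.DiagCore
import Vale.Agent.P037.Sampling

/-! Removal for the pattern `[[1,0],[0,1]]`: the counting part. -/

namespace Vale.Agent.P037

open Finset

variable {n m : ℕ}

/-- The tail sum over tuples is small. -/
lemma sum_tailX_le (A : Fin n → Fin n → Bool) :
    (m + 1) * ∑ σ : Fin m → Fin n, ∑ r, tailX A σ r ≤ n ^ 2 * n ^ (m + 1) := by
  classical
  -- rewrite the sum as a sum over pairs of columns
  have h1 : ∑ σ : Fin m → Fin n, ∑ r, tailX A σ r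
      = ∑ x : Fin n × Fin n, ∑ σ : Fin m → Fin n, ∑ r,
          if x.1 < x.2 ∧ A r x.1 = false ∧ A r x.2 = true ∧ ¬ Fwd A σ r x.1 x.2 then (1 : ℕ) else 0 := by
    simp only [tailX, card_filter]
    rw [Finset.sum_comm (s := (univ : Finset (Fin n × Fin n)))]
    refine sum_congr rfl fun σ _ => ?_
    rw [Finset.sum_comm]
  rw [h1, mul_sum]
  have hbound : ∀ x : Fin n × Fin n, (m + 1) * ∑ σ : Fin m → Fin n, ∑ r,
      (if x.1 < x.2 ∧ A r x.1 = false ∧ A r x.2 = true ∧ ¬ Fwd A σ r x.1 x.2 then (1 : ℕ) else 0)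
      ≤ n ^ (m + 1) := by
    intro x
    let Q : Finset (Fin n) := univ.filter fun s => A s x.1 = false ∧ A s x.2 = true
    let T : Fin n → Finset (Fin n) := fun r => Q.filter fun s => r ≤ s
    have hmem : ∀ r ∈ Q, r ∈ T r := fun r hr => mem_filter.mpr ⟨hr, le_refl r⟩
    have hchain : ∀ r ∈ Q, ∀ r' ∈ Q, r ≠ r' → (T r).card ≠ (T r').card := by
      have aux : ∀ r ∈ Q, ∀ r' ∈ Q, r < r' → (T r').card < (T r).card := by
        intro r hr r' _ hlt
        apply card_lt_card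
        refine ⟨fun s hs => ?_, fun hsub => ?_⟩
        · have hs' := mem_filter.mp hs
          exact mem_filter.mpr ⟨hs'.1, hlt.le.trans hs'.2⟩
        · have := hsub (hmem r hr)
          have h2 := (mem_filter.mp this).2
          exact absurd h2 (not_le.mpr hlt)
      intro r hr r' hr' hne
      rcases lt_or_gt_of_ne hne with h | h
      · exact (aux r hr r' hr' h).ne'
      · exact (aux r' hr' r hr h).ne
    have h2 := sum_tuple_tail (m := m) Q T hmem hchain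
    refine le_trans (Nat.mul_le_mul_left _ ?_) h2
    rw [sum_comm]
    -- compare with rows of `Q`
    have h3 : ∀ r, ∑ σ : Fin m → Fin n,
        (if x.1 < x.2 ∧ A r x.1 = false ∧ A r x.2 = true ∧ ¬ Fwd A σ r x.1 x.2 then (1 : ℕ) else 0)
        ≤ if r ∈ Q then ((univ : Finset (Fin m → Fin n)).filter fun σ => ∀ i, σ i ∉ T r).card
          else 0 := by
      intro r
      by_cases hr : r ∈ Q
      · rw [if_pos hr, ← card_filter]
        apply card_le_card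
        intro σ hσ
        simp only [mem_filter, mem_univ, true_and] at hσ ⊢
        intro i hi
        have hi' := mem_filter.mp hi
        have hiQ := mem_filter.mp hi'.1
        exact hσ.2.2.2 ⟨i, hi'.2, hiQ.2.1, hiQ.2.2⟩
      · rw [if_neg hr]
        apply le_of_eq
        apply sum_eq_zero
        intro σ _
        rw [if_neg]
        rintro ⟨_, h1, h2, _⟩
        exact hr (mem_filter.mpr ⟨mem_univ _, h1, h2⟩)
    refine (sum_le_sum fun r _ => h3 r).trans ?_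
    rw [← sum_filter]
    apply le_of_eq
    refine sum_congr ?_ fun _ _ => rfl
    ext r
    simp
  refine (sum_le_sum fun x _ => hbound x).trans ?_
  rw [sum_const, card_univ, Fintype.card_prod, Fintype.card_fin, smul_eq_mul, sq]

/-- Removal for the pattern `[[1,0],[0,1]]`, contrapositive form with explicit parameters. -/
theorem diag_clean (hn : 1 ≤ n) (A : Fin n → Fin n → Bool) (ε η : ℝ) (m : ℕ)
    (hε : 0 < ε) (hη : 0 < η) (hm2 : 2 ≤ m)
    (hN : (copies patX A : ℝ) < η ^ 2 * n ^ 4)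
    (h1 : 3 * (m * η ^ 2) + 3 / (m + 1) ≤ ε ^ 2 / 16)
    (h2 : 6 * (m ^ 2 * η) < ε / 2) (h3 : 6 * (m ^ 2 * η) < 1) :
    ∃ B : Fin n → Fin n → Bool, copies patX B = 0 ∧ (diffCount A B : ℝ) < ε * n ^ 2 := by
  classical
  have hn0 : 0 < n := hn
  have hnR : (0 : ℝ) < n := by exact_mod_cast hn0
  have hm0 : 0 < m := by omega
  have hmR : (0 : ℝ) < m := by exact_mod_cast hm0
  -- covers
  have hH : patX 0 0 ≠ patX 0 1 ∨ patX 1 0 ≠ patX 1 1 := by simp [patX]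
  choose Cov y hCov hy hhit using fun (a b : Fin n) => exists_cover patX hH A a b
  have hydiag : ∀ a, y a a = 0 := by
    intro a
    have h := hy a a
    have h0 : patCount patX A a a = 0 := by
      simp only [patCount, card_eq_zero, filter_eq_empty_iff]
      intro x _ hx
      exact lt_irrefl _ hx.1
    rw [h0] at h
    exact mul_self_eq_zero.mp (Nat.le_zero.mp h)
  -- total of y
  have hcopies : (copies patX A : ℝ) = ∑ a, ∑ b, (patCount patX A a b : ℝ) := by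
    rw [copies_eq_sum]; push_cast; rfl
  have hY : (∑ a, ∑ b, (y a b : ℝ)) ≤ η * n ^ 3 := by
    have hcs : (∑ p : Fin n × Fin n, (y p.1 p.2 : ℝ)) ^ 2
        ≤ (univ : Finset (Fin n × Fin n)).card * ∑ p : Fin n × Fin n, (y p.1 p.2 : ℝ) ^ 2 :=
      sq_sum_le_card_mul_sum_sq
    have hsum : ∑ p : Fin n × Fin n, (y p.1 p.2 : ℝ) = ∑ a, ∑ b, (y a b : ℝ) := by
      rw [Fintype.sum_prod_type]
    have hsum2 : ∑ p : Fin n × Fin n, (y p.1 p.2 : ℝ) ^ 2 ≤ (copies patX A : ℝ) := by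
      rw [Fintype.sum_prod_type, hcopies]
      refine sum_le_sum fun a _ => sum_le_sum fun b _ => ?_
      rw [sq]
      exact_mod_cast hy a b
    have hc : ((univ : Finset (Fin n × Fin n)).card : ℝ) = n ^ 2 := by
      simp [sq]
    rw [hsum, hc] at hcs
    have hlt : (∑ a, ∑ b, (y a b : ℝ)) ^ 2 ≤ (η * n ^ 3) ^ 2 := by
      calc (∑ a, ∑ b, (y a b : ℝ)) ^ 2 ≤ n ^ 2 * ∑ p : Fin n × Fin n, (y p.1 p.2 : ℝ) ^ 2 := hcs
        _ ≤ n ^ 2 * (η ^ 2 * n ^ 4) := by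
          apply mul_le_mul_of_nonneg_left (hsum2.trans hN.le) (by positivity)
        _ = (η * n ^ 3) ^ 2 := by ring
    exact abs_le_of_sq_le_sq' hlt (by positivity) |>.2
  -- the three quantities
  let G : (Fin m → Fin n) → ℝ := fun σ => ∑ r, ∑ i, (patCount patX A r (σ i) : ℝ)
  let T : (Fin m → Fin n) → ℝ := fun σ => ∑ r, (tailX A σ r : ℝ)
  let V : (Fin m → Fin n) → ℝ := fun σ => ∑ i, ∑ j, (y (σ i) (σ j) : ℝ)
  have hpowm : (n : ℝ) ^ (m - 1) * n = n ^ m := by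
    rw [← pow_succ]; congr 1; omega
  have hpowm2 : (n : ℝ) ^ (m - 2) * n ^ 2 = n ^ m := by
    rw [← pow_add]; congr 1; omega
  have hG : ∑ σ, G σ ≤ (m * η ^ 2 * n ^ 3) * n ^ m := by
    change ∑ σ : Fin m → Fin n, ∑ r, ∑ i, (patCount patX A r (σ i) : ℝ) ≤ _
    rw [sum_comm]
    have hr : ∀ r : Fin n, ∑ σ : Fin m → Fin n, ∑ i, (patCount patX A r (σ i) : ℝ)
        = m * n ^ (m - 1) * ∑ a, (patCount patX A r a : ℝ) :=
      fun r => sum_tuple_sum_eval (fun a => (patCount patX A r a : ℝ))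
    rw [sum_congr rfl fun r _ => hr r, ← mul_sum, ← hcopies]
    have h0 : (m : ℝ) * n ^ (m - 1) * (copies patX A : ℝ)
        ≤ m * n ^ (m - 1) * (η ^ 2 * n ^ 4) :=
      mul_le_mul_of_nonneg_left hN.le (by positivity)
    refine h0.trans (le_of_eq ?_)
    calc (m : ℝ) * n ^ (m - 1) * (η ^ 2 * n ^ 4) = m * η ^ 2 * n ^ 3 * (n ^ (m - 1) * n) := by ring
      _ = _ := by rw [hpowm]
  have hT : ∑ σ, T σ ≤ ((n : ℝ) ^ 3 / (m + 1)) * n ^ m := by
    have h := sum_tailX_le (m := m) A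
    have h' : ((m : ℝ) + 1) * ∑ σ : Fin m → Fin n, ∑ r, (tailX A σ r : ℝ)
        ≤ n ^ 2 * n ^ (m + 1) := by exact_mod_cast h
    have hpos : (0 : ℝ) < (m : ℝ) + 1 := by positivity
    change ∑ σ : Fin m → Fin n, ∑ r, (tailX A σ r : ℝ) ≤ _
    rw [div_mul_eq_mul_div, le_div_iff₀ hpos, mul_comm]
    refine h'.trans (le_of_eq ?_)
    ring
  have hV : ∑ σ, V σ ≤ ((m : ℝ) ^ 2 * η * n) * n ^ m := by
    change ∑ σ : Fin m → Fin n, ∑ i, ∑ j, (y (σ i) (σ j) : ℝ) ≤ _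
    have h := sum_tuple_sum_pairs_le (m := m) (fun a b => (y a b : ℝ))
      (fun a => by simp [hydiag a]) (fun a b => by positivity)
    refine h.trans ?_
    have h0 : (m : ℝ) ^ 2 * n ^ (m - 2) * ∑ a, ∑ b, (y a b : ℝ)
        ≤ m ^ 2 * n ^ (m - 2) * (η * n ^ 3) :=
      mul_le_mul_of_nonneg_left hY (by positivity)
    refine h0.trans (le_of_eq ?_)
    calc (m : ℝ) ^ 2 * n ^ (m - 2) * (η * n ^ 3) = m ^ 2 * η * n * (n ^ (m - 2) * n ^ 2) := by ring
      _ = _ := by rw [hpowm2]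
  obtain ⟨σ, hGσ, hTσ, hVσ⟩ := exists_tuple_le hn0 G T V (m * η ^ 2 * n ^ 3) ((n : ℝ) ^ 3 / (m + 1))
    ((m : ℝ) ^ 2 * η * n) (by positivity) (by positivity) (by positivity)
    (fun σ => by positivity) (fun σ => by positivity) (fun σ => by positivity) hG hT hV
  -- the columns to remove
  let D : Finset (Fin n) := univ.biUnion fun i => univ.biUnion fun j => Cov (σ i) (σ j)
  have hD : (D.card : ℝ) ≤ 6 * (m ^ 2 * η) * n := by
    have h0 : D.card ≤ ∑ i, ∑ j, 2 * y (σ i) (σ j) := by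
      refine card_biUnion_le.trans (sum_le_sum fun i _ => ?_)
      refine card_biUnion_le.trans (sum_le_sum fun j _ => hCov _ _)
    have h0' : (D.card : ℝ) ≤ 2 * V σ := by
      have : (D.card : ℝ) ≤ ∑ i, ∑ j, 2 * (y (σ i) (σ j) : ℝ) := by exact_mod_cast h0
      refine this.trans (le_of_eq ?_)
      change _ = 2 * ∑ i, ∑ j, (y (σ i) (σ j) : ℝ)
      simp only [mul_sum]
    refine h0'.trans ?_
    have : V σ ≤ 3 * ((m : ℝ) ^ 2 * η * n) := hVσ
    linarith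
  have hDlt : D.card < n := by
    have : (D.card : ℝ) < n := by
      calc (D.card : ℝ) ≤ 6 * (m ^ 2 * η) * n := hD
        _ < 1 * n := mul_lt_mul_of_pos_right h3 hnR
        _ = n := one_mul _
    exact_mod_cast this
  have hCne : (Dᶜ).Nonempty := by
    rw [← card_pos, card_compl, Fintype.card_fin]
    omega
  have hfree : ∀ i j, ∀ c ∈ Dᶜ, ∀ d ∈ Dᶜ, ¬ IsPat patX A (σ i) (σ j) c d := by
    intro i j c hc d hd hp
    have hmem : ∀ x, x ∈ Cov (σ i) (σ j) → x ∈ D := by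
      intro x hx
      simp only [D, mem_biUnion, mem_univ, true_and]
      exact ⟨i, j, hx⟩
    rcases hhit _ _ c d hp with h | h
    · exact (mem_compl.mp hc) (hmem c h)
    · exact (mem_compl.mp hd) (hmem d h)
  obtain ⟨w, B, hw, hBfree, hdiff⟩ := exists_free_of_sample A σ Dᶜ hCne hfree
  refine ⟨B, copies_eq_zero_of hBfree, ?_⟩
  rw [compl_compl] at hdiff
  -- sum of w
  have hwsum : (∑ r, (w r : ℝ)) ≤ ε / 4 * n ^ 2 := by
    have hcs : (∑ r, (w r : ℝ)) ^ 2 ≤ (univ : Finset (Fin n)).card * ∑ r, (w r : ℝ) ^ 2 :=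
      sq_sum_le_card_mul_sum_sq
    have hsq : ∑ r, (w r : ℝ) ^ 2 ≤ G σ + T σ := by
      change _ ≤ ∑ r, ∑ i, (patCount patX A r (σ i) : ℝ) + ∑ r, (tailX A σ r : ℝ)
      rw [← sum_add_distrib]
      refine sum_le_sum fun r _ => ?_
      rw [sq]
      have := hw r
      have h' : ((w r * w r : ℕ) : ℝ) ≤ ((∑ i, patCount patX A r (σ i) + tailX A σ r : ℕ) : ℝ) := by
        exact_mod_cast this
      push_cast at h'
      exact h'
    have hc : ((univ : Finset (Fin n)).card : ℝ) = n := by simp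
    rw [hc] at hcs
    have hTσ' : T σ ≤ 3 * ((n : ℝ) ^ 3 / (m + 1)) := hTσ
    have hGσ' : G σ ≤ 3 * (m * η ^ 2 * n ^ 3) := hGσ
    have hGT : G σ + T σ ≤ (3 * (m * η ^ 2) + 3 / (m + 1)) * n ^ 3 := by
      have e : (3 * ((m : ℝ) * η ^ 2) + 3 / (m + 1)) * n ^ 3
          = 3 * (m * η ^ 2 * n ^ 3) + 3 * ((n : ℝ) ^ 3 / (m + 1)) := by
        field_simp
      rw [e]; linarith
    have hGT2 : G σ + T σ ≤ ε ^ 2 / 16 * n ^ 3 :=
      hGT.trans (mul_le_mul_of_nonneg_right h1 (by positivity))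
    have hlt : (∑ r, (w r : ℝ)) ^ 2 ≤ (ε / 4 * n ^ 2) ^ 2 := by
      calc (∑ r, (w r : ℝ)) ^ 2 ≤ n * ∑ r, (w r : ℝ) ^ 2 := hcs
        _ ≤ n * (ε ^ 2 / 16 * n ^ 3) := by
          apply mul_le_mul_of_nonneg_left (hsq.trans hGT2) hnR.le
        _ = (ε / 4 * n ^ 2) ^ 2 := by ring
    exact abs_le_of_sq_le_sq' hlt (by positivity) |>.2
  have hdiffR : (diffCount A B : ℝ) ≤ 2 * ∑ r, (w r : ℝ) + n * D.card := by
    have : (diffCount A B : ℝ) ≤ ((∑ r, 2 * w r + n * D.card : ℕ) : ℝ) := by exact_mod_cast hdiff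
    push_cast at this
    rw [mul_sum]
    exact this
  have hnD : (n : ℝ) * D.card ≤ 6 * (m ^ 2 * η) * n ^ 2 := by
    have := mul_le_mul_of_nonneg_left hD hnR.le
    calc (n : ℝ) * D.card ≤ n * (6 * (m ^ 2 * η) * n) := this
      _ = _ := by ring
  have hn2 : (0 : ℝ) < n ^ 2 := by positivity
  have hstrict : 6 * (m ^ 2 * η) * n ^ 2 < ε / 2 * n ^ 2 := mul_lt_mul_of_pos_right h2 hn2
  calc (diffCount A B : ℝ) ≤ 2 * ∑ r, (w r : ℝ) + n * D.card := hdiffR
    _ ≤ 2 * (ε / 4 * n ^ 2) + 6 * (m ^ 2 * η) * n ^ 2 := by linarith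
    _ < ε * n ^ 2 := by linarith

/-- The pattern `[[1,0],[0,1]]` has polynomial removal. -/
theorem diag_removal (hn : 1 ≤ n) (A : Fin n → Fin n → Bool) (ε : ℝ) (hε : 0 < ε) (hε1 : ε < 1)
    (hfar : ∀ B : Fin n → Fin n → Bool, copies patX B = 0 → ε * n ^ 2 ≤ diffCount A B) :
    ε ^ 10 / (144 * 10 ^ 8) * n ^ 4 ≤ copies patX A := by
  by_contra hcon
  push Not at hcon
  set η : ℝ := ε ^ 5 / 120000 with hηdef
  have hη : 0 < η := by positivity
  have hη2 : ε ^ 10 / (144 * 10 ^ 8) = η ^ 2 := by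
    rw [hηdef]; ring
  rw [hη2] at hcon
  -- the sample size
  set m : ℕ := ⌈96 / ε ^ 2⌉₊ with hmdef
  have hε2 : 0 < ε ^ 2 := by positivity
  have hε2lt : ε ^ 2 < 1 := by nlinarith
  have hm1 : 96 / ε ^ 2 ≤ m := Nat.le_ceil _
  have hm2' : (m : ℝ) < 96 / ε ^ 2 + 1 := Nat.ceil_lt_add_one (by positivity)
  have hmε1 : 96 ≤ (m : ℝ) * ε ^ 2 := by
    rwa [div_le_iff₀ hε2] at hm1
  have hmε2 : (m : ℝ) * ε ^ 2 ≤ 97 := by
    have : (m : ℝ) * ε ^ 2 < (96 / ε ^ 2 + 1) * ε ^ 2 := mul_lt_mul_of_pos_right hm2' hε2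
    have e : (96 / ε ^ 2 + 1) * ε ^ 2 = 96 + ε ^ 2 := by field_simp
    rw [e] at this
    linarith
  have hm2R : (2 : ℝ) ≤ m := by
    by_contra h
    push Not at h
    nlinarith
  have hm2 : 2 ≤ m := by exact_mod_cast hm2R
  have hmpos : (0 : ℝ) < m := by linarith
  have hsq : (m : ℝ) ^ 2 * ε ^ 4 ≤ 9409 := by
    have h0 : 0 ≤ (m : ℝ) * ε ^ 2 := by positivity
    have : ((m : ℝ) * ε ^ 2) ^ 2 ≤ 97 ^ 2 := by
      apply pow_le_pow_left₀ h0 hmε2
    calc (m : ℝ) ^ 2 * ε ^ 4 = ((m : ℝ) * ε ^ 2) ^ 2 := by ring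
      _ ≤ 97 ^ 2 := this
      _ = 9409 := by norm_num
  have hmη : (m : ℝ) ^ 2 * η ≤ 9409 * ε / 120000 := by
    have e : (m : ℝ) ^ 2 * η = ((m : ℝ) ^ 2 * ε ^ 4) * (ε / 120000) := by
      rw [hηdef]; ring
    rw [e]
    calc ((m : ℝ) ^ 2 * ε ^ 4) * (ε / 120000) ≤ 9409 * (ε / 120000) :=
          mul_le_mul_of_nonneg_right hsq (by positivity)
      _ = _ := by ring
  have h2 : 6 * ((m : ℝ) ^ 2 * η) < ε / 2 := by nlinarith
  have h3 : 6 * ((m : ℝ) ^ 2 * η) < 1 := by nlinarith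
  have h1 : 3 * ((m : ℝ) * η ^ 2) + 3 / (m + 1) ≤ ε ^ 2 / 16 := by
    have a : 3 / ((m : ℝ) + 1) ≤ ε ^ 2 / 32 := by
      rw [div_le_iff₀ (by positivity)]
      nlinarith
    have b : 3 * ((m : ℝ) * η ^ 2) ≤ ε ^ 2 / 32 := by
      have e : 3 * ((m : ℝ) * η ^ 2) = ((m : ℝ) * ε ^ 2) * (3 * ε ^ 8 / 120000 ^ 2) := by
        rw [hηdef]; ring
      rw [e]
      have h8 : ε ^ 8 ≤ ε ^ 2 := by
        apply pow_le_pow_of_le_one hε.le hε1.le (by norm_num)
      calc ((m : ℝ) * ε ^ 2) * (3 * ε ^ 8 / 120000 ^ 2) ≤ 97 * (3 * ε ^ 8 / 120000 ^ 2) :=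
            mul_le_mul_of_nonneg_right hmε2 (by positivity)
        _ ≤ ε ^ 2 / 32 := by nlinarith
    linarith
  obtain ⟨B, hB, hdiff⟩ := diag_clean hn A ε η m hε hη hm2 hcon h1 h2 h3
  exact absurd (hfar B hB) (not_le.mpr hdiff)

end Vale.Agent.P037
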