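import Vale.Agent.P037.AltPoly

/-!
Duplicating a row of the pattern: polynomial removal is preserved.
-/

namespace Vale.Agent.P037

open Finset

lemma predAbove_val {a : ℕ} (p : Fin a) (i : Fin (a + 1)) :
    (p.predAbove i).val = if i.val ≤ p.val then i.val else i.val - 1 := by
  by_cases h : i.val ≤ p.val
  · have h' : i ≤ p.castSucc := by
      rw [Fin.le_def]
      simpa using h
    rw [Fin.predAbove_of_le_castSucc p i h', if_pos h]
    simp
  · have h' : p.castSucc < i := by
      rw [Fin.lt_def]
      simp only [Fin.val_castSucc]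
      omega
    rw [Fin.predAbove_of_castSucc_lt p i h', if_neg h]
    simp

lemma merge_strictMono {m n : ℕ} (p : Fin (m + 1)) (r r' : Fin (m + 1) → Fin n)
    (hr : StrictMono r) (hr' : StrictMono r') (hag : ∀ k, k ≠ p → r k = r' k) (hlt : r p < r' p) :
    StrictMono fun i : Fin (m + 2) =>
      if i.val ≤ p.val then r (p.predAbove i) else r' (p.predAbove i) := by
  intro i j hij
  have hij' : i.val < j.val := hij
  have v1 := predAbove_val p i
  have v2 := predAbove_val p j
  by_cases hi : i.val ≤ p.val <;> by_cases hj : j.val ≤ p.val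
  · simp only [if_pos hi, if_pos hj] at v1 v2 ⊢
    apply hr
    rw [Fin.lt_def]
    omega
  · simp only [if_pos hi, if_neg hj] at v1 v2 ⊢
    by_cases hk : p.predAbove i = p
    · rw [hk]
      refine lt_of_lt_of_le hlt (hr'.monotone ?_)
      rw [Fin.le_def]
      omega
    · rw [hag _ hk]
      apply hr'
      rw [Fin.lt_def]
      have : (p.predAbove i).val ≠ p.val := fun h => hk (Fin.ext h)
      omega
  · omega
  · simp only [if_neg hi, if_neg hj] at v1 v2 ⊢
    apply hr'
    rw [Fin.lt_def]
    omega

lemma merge_inj {m n : ℕ} (p : Fin (m + 1)) (r r' s s' : Fin (m + 1) → Fin n)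
    (hag : ∀ k, k ≠ p → r k = r' k) (hag' : ∀ k, k ≠ p → s k = s' k)
    (heq : ∀ i : Fin (m + 2), (if i.val ≤ p.val then r (p.predAbove i) else r' (p.predAbove i)) =
      if i.val ≤ p.val then s (p.predAbove i) else s' (p.predAbove i)) :
    r = s ∧ r' = s' := by
  have h1 : ∀ k : Fin (m + 1), k.val ≤ p.val → r k = s k := by
    intro k hk
    have h := heq k.castSucc
    have hv : (k.castSucc).val ≤ p.val := by simpa using hk
    have hp : p.predAbove k.castSucc = k := by
      apply Fin.ext
      rw [predAbove_val, if_pos hv]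
      simp
    simpa only [if_pos hv, hp] using h
  have h2 : ∀ k : Fin (m + 1), p.val ≤ k.val → r' k = s' k := by
    intro k hk
    have h := heq k.succ
    have hv : ¬ (k.succ).val ≤ p.val := by
      simp only [Fin.val_succ]
      omega
    have hp : p.predAbove k.succ = k := by
      apply Fin.ext
      rw [predAbove_val, if_neg hv]
      simp
    simpa only [if_neg hv, hp] using h
  constructor
  · funext k
    by_cases hk : k.val ≤ p.val
    · exact h1 k hk
    · have hne : k ≠ p := fun h => hk (by rw [h])
      rw [hag k hne, hag' k hne]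
      exact h2 k (by omega)
  · funext k
    by_cases hk : p.val ≤ k.val
    · exact h2 k hk
    · have hne : k ≠ p := fun h => hk (by rw [h])
      rw [← hag k hne, ← hag' k hne]
      exact h1 k (by omega)

/-- Counting inequality for a duplicated row. -/
lemma dup_count {m b n : ℕ} (R : Fin (m + 1) → Fin b → Bool) (p : Fin (m + 1))
    (A : Fin n → Fin n → Bool) :
    rcopies R A ^ 2 ≤ n ^ (m + b) *
      (rcopies R A + 2 * rcopies (fun i j => R (p.predAbove i) j) A) := by
  classical
  set X := univ.filter fun x : (Fin (m + 1) → Fin n) × (Fin b → Fin n) =>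
    StrictMono x.1 ∧ StrictMono x.2 ∧ ∀ i j, A (x.1 i) (x.2 j) = R i j with hX
  have hXcard : X.card = rcopies R A := rfl
  let π : (Fin (m + 1) → Fin n) × (Fin b → Fin n) → (Fin m → Fin n) × (Fin b → Fin n) :=
    fun x => (fun i => x.1 (p.succAbove i), x.2)
  set Sp := (X ×ˢ X).filter fun z => π z.1 = π z.2 with hSp
  set T := (X ×ˢ X).filter fun z => π z.1 = π z.2 ∧ z.1.1 p < z.2.1 p with hT
  have hagree : ∀ x y : (Fin (m + 1) → Fin n) × (Fin b → Fin n), π x = π y →
      ∀ k, k ≠ p → x.1 k = y.1 k := by
    intro x y hxy k hk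
    obtain ⟨z, hz⟩ := Fin.exists_succAbove_eq hk
    have := congrFun (congrArg Prod.fst hxy) z
    simp only [π] at this
    rw [← hz]
    exact this
  have hπsnd : ∀ x y : (Fin (m + 1) → Fin n) × (Fin b → Fin n), π x = π y → x.2 = y.2 := by
    intro x y h
    simpa [π] using congrArg Prod.snd h
  have hcs : X.card ^ 2 ≤ n ^ (m + b) * Sp.card := by
    have h1 : X.card = ∑ y : (Fin m → Fin n) × (Fin b → Fin n), (X.filter fun x => π x = y).card :=
      card_eq_sum_card_fiberwise (fun x _ => mem_coe.mpr (mem_univ _))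
    have h2 : Sp.card = ∑ y : (Fin m → Fin n) × (Fin b → Fin n), (X.filter fun x => π x = y).card ^ 2 := by
      have h3 : Sp.card = ∑ y : (Fin m → Fin n) × (Fin b → Fin n), (Sp.filter fun z => π z.1 = y).card :=
        card_eq_sum_card_fiberwise (fun x _ => mem_coe.mpr (mem_univ _))
      rw [h3]
      apply sum_congr rfl
      intro y _
      rw [sq, ← card_product]
      congr 1
      ext z
      simp only [hSp, mem_filter, mem_product]
      constructor
      · rintro ⟨⟨⟨h1, h2⟩, h3⟩, h4⟩
        exact ⟨⟨h1, h4⟩, h2, h3 ▸ h4⟩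
      · rintro ⟨⟨h1, h2⟩, h3, h4⟩
        exact ⟨⟨⟨h1, h3⟩, h2.trans h4.symm⟩, h2⟩
    have hY : (univ : Finset ((Fin m → Fin n) × (Fin b → Fin n))).card = n ^ (m + b) := by
      simp [pow_add]
    rw [h2, h1, ← hY]
    exact sq_sum_le_card_mul_sum_sq
  have hSpT : Sp.card ≤ X.card + 2 * T.card := by
    let sw : (((Fin (m + 1) → Fin n) × (Fin b → Fin n)) × ((Fin (m + 1) → Fin n) × (Fin b → Fin n))) →
        (((Fin (m + 1) → Fin n) × (Fin b → Fin n)) × ((Fin (m + 1) → Fin n) × (Fin b → Fin n))) :=
      fun z => (z.2, z.1)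
    have hsub : Sp ⊆ (X.image fun x => (x, x)) ∪ (T ∪ T.image sw) := by
      intro z hz
      have hz' := mem_filter.mp hz
      have hz1 := mem_product.mp hz'.1
      rcases lt_trichotomy (z.1.1 p) (z.2.1 p) with hlt | heq | hgt
      · apply mem_union_right
        apply mem_union_left
        exact mem_filter.mpr ⟨hz'.1, hz'.2, hlt⟩
      · apply mem_union_left
        refine mem_image.mpr ⟨z.1, hz1.1, ?_⟩
        have hfst : z.1.1 = z.2.1 := by
          funext k
          by_cases hk : k = p
          · rw [hk, heq]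
          · exact hagree _ _ hz'.2 k hk
        have hsnd : z.1.2 = z.2.2 := hπsnd _ _ hz'.2
        have : z.1 = z.2 := Prod.ext hfst hsnd
        exact Prod.ext rfl this
      · apply mem_union_right
        apply mem_union_right
        refine mem_image.mpr ⟨sw z, ?_, rfl⟩
        exact mem_filter.mpr ⟨mem_product.mpr ⟨hz1.2, hz1.1⟩, hz'.2.symm, hgt⟩
    calc Sp.card ≤ _ := card_le_card hsub
      _ ≤ (X.image fun x => (x, x)).card + (T ∪ T.image sw).card := card_union_le _ _
      _ ≤ X.card + (T.card + T.card) := by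
          apply Nat.add_le_add card_image_le
          exact le_trans (card_union_le _ _) (Nat.add_le_add_left card_image_le _)
      _ = X.card + 2 * T.card := by ring
  have hTH : T.card ≤ rcopies (fun i j => R (p.predAbove i) j) A := by
    unfold rcopies
    apply card_le_card_of_injOn (fun z =>
      ((fun i : Fin (m + 2) => if i.val ≤ p.val then z.1.1 (p.predAbove i) else z.2.1 (p.predAbove i)),
        z.1.2))
    · intro z hz
      have hz' := mem_filter.mp (mem_coe.mp hz)
      have hz1 := mem_product.mp hz'.1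
      have hx1 := (mem_filter.mp hz1.1).2
      have hx2 := (mem_filter.mp hz1.2).2
      have hsnd : z.1.2 = z.2.2 := hπsnd _ _ hz'.2.1
      refine mem_coe.mpr (mem_filter.mpr ⟨mem_univ _, ?_, hx1.2.1, ?_⟩)
      · exact merge_strictMono p z.1.1 z.2.1 hx1.1 hx2.1 (hagree _ _ hz'.2.1) hz'.2.2
      · intro i j
        by_cases hi : i.val ≤ p.val
        · simp only [if_pos hi]
          exact hx1.2.2 _ _
        · simp only [if_neg hi]
          rw [hsnd]
          exact hx2.2.2 _ _
    · intro z hz w hw hzw
      have hz' := mem_filter.mp (mem_coe.mp hz)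
      have hw' := mem_filter.mp (mem_coe.mp hw)
      simp only [Prod.mk.injEq] at hzw
      have hfun := congrFun hzw.1
      obtain ⟨h1, h2⟩ := merge_inj p z.1.1 z.2.1 w.1.1 w.2.1 (hagree _ _ hz'.2.1) (hagree _ _ hw'.2.1) hfun
      have hsz : z.1.2 = z.2.2 := hπsnd _ _ hz'.2.1
      have hsw : w.1.2 = w.2.2 := hπsnd _ _ hw'.2.1
      apply Prod.ext
      · exact Prod.ext h1 hzw.2
      · apply Prod.ext h2
        rw [← hsz, ← hsw]
        exact hzw.2
  rw [← hXcard]
  calc X.card ^ 2 ≤ n ^ (m + b) * Sp.card := hcs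
    _ ≤ n ^ (m + b) * (X.card + 2 * rcopies (fun i j => R (p.predAbove i) j) A) := by
        apply Nat.mul_le_mul_left
        omega

/-- A copy of the pattern with a duplicated row contains a copy of the pattern. -/
lemma dup_free {a b n : ℕ} (R : Fin a → Fin b → Bool) (p : Fin a) (B : Fin n → Fin n → Bool)
    (h0 : rcopies R B = 0) : rcopies (fun i j => R (p.predAbove i) j) B = 0 := by
  classical
  unfold rcopies at h0 ⊢
  rw [card_eq_zero, filter_eq_empty_iff] at h0 ⊢
  intro x _ hx
  let σ : Fin a → Fin (a + 1) := fun k => if k.val ≤ p.val then k.castSucc else k.succ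
  have hσ : StrictMono σ := by
    intro i j hij
    have hij' : i.val < j.val := hij
    simp only [σ]
    rw [Fin.lt_def]
    split_ifs <;> simp <;> omega
  have hpσ : ∀ k, p.predAbove (σ k) = k := by
    intro k
    apply Fin.ext
    rw [predAbove_val]
    simp only [σ]
    by_cases hk : k.val ≤ p.val
    · simp [hk]
    · simp only [if_neg hk, Fin.val_succ]
      rw [if_neg (by omega)]
      simp
  apply @h0 (fun k => x.1 (σ k), x.2) (mem_univ _)
  refine ⟨hx.1.comp hσ, hx.2.1, ?_⟩
  intro i j
  have : B (x.1 (σ i)) (x.2 j) = R (p.predAbove (σ i)) j := hx.2.2 (σ i) j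
  rw [hpσ] at this
  exact this

end Vale.Agent.P037
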