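import Vale.Agent.P037.Sampling
import Vale.Agent.P037.DiagCore

/-!
Removal for the pattern `[[1,1],[1,0]]`: the structural part.
Sampled rows define, for every row, a forest on the columns; the rows of the cleaned matrix
are root paths of these forests (or empty).
-/

namespace Vale.Agent.P037

open Finset

/-- The pattern `[[1,1],[1,0]]`. -/
def patG : Fin 2 → Fin 2 → Bool := ![![true, true], ![true, false]]

variable {n m : ℕ}

lemma isPat_patG (A : Fin n → Fin n → Bool) (a b c d : Fin n) :
    IsPat patG A a b c d ↔
      a < b ∧ c < d ∧ A a c = true ∧ A a d = true ∧ A b c = true ∧ A b d = false := by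
  simp [IsPat, patG]

/-- Some sampled row at or above `r` has ones in both columns `c, d`. -/
def Both (A : Fin n → Fin n → Bool) (σ : Fin m → Fin n) (r c d : Fin n) : Prop :=
  ∃ i, σ i ≤ r ∧ A (σ i) c = true ∧ A (σ i) d = true

/-- The links of the forest attached to row `r`. -/
def Link (A : Fin n → Fin n → Bool) (σ : Fin m → Fin n) (C : Finset (Fin n)) (r c d : Fin n) :
    Prop :=
  c < d ∧ c ∈ C ∧ d ∈ C ∧ Both A σ r c d

/-- Reachability along links. -/
abbrev Reach (A : Fin n → Fin n → Bool) (σ : Fin m → Fin n) (C : Finset (Fin n)) (r : Fin n) :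
    Fin n → Fin n → Prop :=
  Relation.ReflTransGen (Link A σ C r)

section forest

variable {A : Fin n → Fin n → Bool} {σ : Fin m → Fin n} {C : Finset (Fin n)}

lemma link_split (hfree : ∀ i j, ∀ c ∈ C, ∀ d ∈ C, ¬ IsPat patG A (σ i) (σ j) c d)
    {r a c d : Fin n} (h1 : Link A σ C r a c) (h2 : Link A σ C r a d) (hcd : c < d) :
    Link A σ C r c d := by
  obtain ⟨hac, ha, hc, i, hi, hia, hic⟩ := h1
  obtain ⟨had, _, hd, j, hj, hja, hjd⟩ := h2
  refine ⟨hcd, hc, hd, ?_⟩
  cases hid : A (σ i) d with
  | true => exact ⟨i, hi, hic, hid⟩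
  | false =>
    cases hjc : A (σ j) c with
    | true => exact ⟨j, hj, hjc, hjd⟩
    | false =>
      exfalso
      have hne : σ i ≠ σ j := by
        intro h
        rw [h, hjc] at hic
        exact Bool.noConfusion hic
      rcases lt_or_gt_of_ne hne with h | h
      · exact hfree i j a ha c hc ((isPat_patG _ _ _ _ _).mpr ⟨h, hac, hia, hic, hja, hjc⟩)
      · exact hfree j i a ha d hd ((isPat_patG _ _ _ _ _).mpr ⟨h, had, hja, hjd, hia, hid⟩)

lemma reach_le {r a b : Fin n} (h : Reach A σ C r a b) : a ≤ b := by
  induction h with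
  | refl => exact le_refl _
  | tail _ hl ih => exact ih.trans hl.1.le

lemma reach_of_head (hfree : ∀ i j, ∀ c ∈ C, ∀ d ∈ C, ¬ IsPat patG A (σ i) (σ j) c d)
    {r a d : Fin n} (h : Reach A σ C r a d) :
    ∀ b, Link A σ C r a b → b < d → Reach A σ C r b d := by
  induction h using Relation.ReflTransGen.head_induction_on with
  | refl =>
    intro b hl hb
    exact absurd hl.1 (not_lt.mpr hb.le)
  | @head x y hl hyd ih =>
    intro b hab hbd
    rcases lt_trichotomy y b with h | rfl | h
    · exact ih b (link_split hfree hl hab h) hbd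
    · exact hyd
    · exact Relation.ReflTransGen.head (link_split hfree hab hl h) hyd

lemma reach_coh (hfree : ∀ i j, ∀ c ∈ C, ∀ d ∈ C, ¬ IsPat patG A (σ i) (σ j) c d)
    {r a c d : Fin n} (h1 : Reach A σ C r a c) (h2 : Reach A σ C r a d) (hcd : c < d) :
    Reach A σ C r c d := by
  induction h1 using Relation.ReflTransGen.head_induction_on with
  | refl => exact h2
  | head hl hc ih =>
    exact ih (reach_of_head hfree h2 _ hl (lt_of_le_of_lt (reach_le hc) hcd))

lemma reach_mono {r r' a b : Fin n} (hrr : r ≤ r') (h : Reach A σ C r a b) :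
    Reach A σ C r' a b := by
  induction h with
  | refl => exact Relation.ReflTransGen.refl
  | tail _ hl ih =>
    obtain ⟨h1, h2, h3, i, hi, h4, h5⟩ := hl
    exact Relation.ReflTransGen.tail ih ⟨h1, h2, h3, i, hi.trans hrr, h4, h5⟩

lemma reach_mem {r a b : Fin n} (ha : a ∈ C) (h : Reach A σ C r a b) : b ∈ C := by
  induction h with
  | refl => exact ha
  | tail _ hl _ => exact hl.2.2.1

end forest

/-- A double counting: if each `c ∈ Bad` has at least `k` partners in `E`, then
`#Bad * k ≤ #E`. -/
lemma bad_count {α β : Type*} [DecidableEq α] [DecidableEq β] (E : Finset (α × β)) (k : ℕ)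
    (Bad : Finset α) (h : ∀ c ∈ Bad, k ≤ (E.filter fun x => x.1 = c).card) :
    Bad.card * k ≤ E.card := by
  classical
  have h1 : (E.filter fun x => x.1 ∈ Bad).card = ∑ c ∈ Bad, ((E.filter fun x => x.1 ∈ Bad).filter
      fun x => x.1 = c).card := by
    apply card_eq_sum_card_fiberwise
    intro x hx
    exact (mem_filter.mp hx).2
  have h2 : ∀ c ∈ Bad, k ≤ ((E.filter fun x => x.1 ∈ Bad).filter fun x => x.1 = c).card := by
    intro c hc
    refine (h c hc).trans (card_le_card ?_)
    intro x hx
    simp only [mem_filter] at hx ⊢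
    exact ⟨⟨hx.1, hx.2 ▸ hc⟩, hx.2⟩
  calc Bad.card * k = ∑ _c ∈ Bad, k := by simp
    _ ≤ ∑ c ∈ Bad, ((E.filter fun x => x.1 ∈ Bad).filter fun x => x.1 = c).card := sum_le_sum h2
    _ = (E.filter fun x => x.1 ∈ Bad).card := h1.symm
    _ ≤ E.card := card_le_card (filter_subset _ _)

/-- The elements of `H` with fewer than `l` elements of `H` before them are at most `l`. -/
lemma card_first_le (H : Finset (Fin n)) (l : ℕ) :
    (H.filter fun b => (H.filter fun f => f < b).card < l).card ≤ l := by
  classical
  have hinj : Set.InjOn (fun b => (H.filter fun f => f < b).card)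
      ((H.filter fun b => (H.filter fun f => f < b).card < l) : Finset (Fin n)) := by
    have aux : ∀ b ∈ H, ∀ b' ∈ H, b < b' → (H.filter fun f => f < b).card
        < (H.filter fun f => f < b').card := by
      intro b hb b' _ hlt
      apply card_lt_card
      refine ⟨fun f hf => ?_, fun hsub => ?_⟩
      · have := mem_filter.mp hf
        exact mem_filter.mpr ⟨this.1, this.2.trans hlt⟩
      · have := hsub (mem_filter.mpr ⟨hb, hlt⟩)
        exact absurd (mem_filter.mp this).2 (lt_irrefl _)
    intro b hb b' hb' h
    simp only [mem_coe, mem_filter] at hb hb'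
    by_contra hne
    rcases lt_or_gt_of_ne hne with hlt | hlt
    · exact (aux b hb.1 b' hb'.1 hlt).ne h
    · exact (aux b' hb'.1 b hb.1 hlt).ne h.symm
  have himg : (H.filter fun b => (H.filter fun f => f < b).card < l).image
      (fun b => (H.filter fun f => f < b).card) ⊆ range l := by
    intro x hx
    simp only [mem_image, mem_filter] at hx
    obtain ⟨b, hb, rfl⟩ := hx
    exact mem_range.mpr hb.2
  have := card_le_card himg
  rwa [card_image_of_injOn hinj, card_range] at this


open Classical in
/-- Pairs of columns on which row `r` has two ones, but no sampled row at or above `r` has. -/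
noncomputable def tailG (A : Fin n → Fin n → Bool) (σ : Fin m → Fin n) (r : Fin n) : ℕ :=
  (univ.filter fun x : Fin n × Fin n =>
    x.1 < x.2 ∧ A r x.1 = true ∧ A r x.2 = true ∧ ¬ Both A σ r x.1 x.2).card

/-- The copies of the pattern with bottom row `r` and a sampled top row. -/
def genG (A : Fin n → Fin n → Bool) (σ : Fin m → Fin n) (r : Fin n) : ℕ :=
  ∑ i, patCount patG A (σ i) r

section row

variable {A : Fin n → Fin n → Bool} {σ : Fin m → Fin n} {C : Finset (Fin n)}

open Classical in
/-- The number of ones of row `r` before `d` inside the sampled row `σ i`. -/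
noncomputable def pCount (A : Fin n → Fin n → Bool) (σ : Fin m → Fin n) (r : Fin n) (i : Fin m)
    (d : Fin n) : ℕ :=
  (univ.filter fun b => b < d ∧ A (σ i) b = true ∧ A r b = true).card

lemma pCount_mono (r : Fin n) (i : Fin m) {a d : Fin n} (h : a ≤ d) :
    pCount A σ r i a ≤ pCount A σ r i d := by
  classical
  apply card_le_card
  intro b hb
  simp only [mem_filter, mem_univ, true_and] at hb ⊢
  exact ⟨lt_of_lt_of_le hb.1 h, hb.2⟩

open Classical in
/-- The zero columns of row `r` with at least `g` ones of `r` before them in the sampled row. -/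
noncomputable def zSet (A : Fin n → Fin n → Bool) (σ : Fin m → Fin n) (r : Fin n) (g : ℕ) :
    Finset (Fin n) :=
  univ.biUnion fun i => univ.filter fun d =>
    σ i ≤ r ∧ A r d = false ∧ A (σ i) d = true ∧ g ≤ pCount A σ r i d

lemma zSet_card_mul_le (r : Fin n) (g : ℕ) : (zSet A σ r g).card * g ≤ genG A σ r := by
  classical
  unfold zSet genG
  refine (Nat.mul_le_mul_right _ card_biUnion_le).trans ?_
  rw [sum_mul]
  refine sum_le_sum fun i _ => ?_
  -- one sampled row
  let E : Finset (Fin n × Fin n) := univ.filter fun y => IsPat patG A (σ i) r y.2 y.1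
  have hE : E.card = patCount patG A (σ i) r := by
    unfold patCount
    refine card_nbij' Prod.swap Prod.swap ?_ ?_ ?_ ?_
    · intro y hy
      simpa [E] using hy
    · intro y hy
      simpa [E] using hy
    · intro y _; simp
    · intro y _; simp
  rw [← hE]
  refine bad_count E g _ ?_
  intro d hd
  simp only [mem_filter, mem_univ, true_and] at hd
  obtain ⟨hi, hd0, hd1, hg⟩ := hd
  refine hg.trans ?_
  have hlt : σ i < r := by
    refine lt_of_le_of_ne hi ?_
    intro h
    rw [h, hd0] at hd1
    exact Bool.noConfusion hd1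
  refine card_le_card_of_injOn (fun b => (d, b)) ?_ ?_
  · intro b hb
    simp only [mem_coe, mem_filter, mem_univ, true_and] at hb
    simp only [mem_coe, mem_filter, mem_univ, true_and, E]
    exact ⟨(isPat_patG _ _ _ _ _).mpr ⟨hlt, hb.1, hb.2.1, hd1, hb.2.2, hd0⟩, trivial⟩
  · intro b _ b' _ h
    exact (Prod.ext_iff.mp h).2

open Classical in
/-- The structural claim on zeros of a root path: every vertex other than the root has a good
incoming link. -/
theorem good_incoming (hfree : ∀ i j, ∀ c ∈ C, ∀ d ∈ C, ¬ IsPat patG A (σ i) (σ j) c d)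
    {V l g : ℕ} (hl : V + 2 * g ≤ l)
    (hcov : ∀ i j, σ i < σ j → ∀ a ∈ C, A (σ i) a = true → A (σ j) a = false →
      (univ.filter fun f => f < a ∧ A (σ i) f = true ∧ A (σ j) f = true).card ≤ V)
    (hdel : ∀ i j, ∀ b ∈ C, A (σ i) b = true → A (σ j) b = true →
      l ≤ (univ.filter fun f => f < b ∧ A (σ i) f = true ∧ A (σ j) f = true).card)
    {r c₀ : Fin n} (hc₀ : c₀ ∈ C)
    (hF : (univ.filter fun f => c₀ < f ∧ A r f = false ∧ Both A σ r c₀ f).card ≤ g)
    (hZ : (zSet A σ r g).card ≤ g) :
    ∀ d, Reach A σ C r c₀ d → d ≠ c₀ → ∃ a i, Reach A σ C r c₀ a ∧ a < d ∧ σ i ≤ r ∧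
      A (σ i) a = true ∧ A (σ i) d = true ∧ ((A (σ i) c₀ = true ∧ c₀ ≤ a) ∨ g ≤ pCount A σ r i a) := by
  -- outer strong induction on `d`
  intro d
  induction d using WellFoundedLT.induction with
  | _ d ihd =>
  intro hd hne
  -- inner claim: every link into `d`
  have inner : ∀ b, Reach A σ C r c₀ b → Link A σ C r b d → ∃ a i, Reach A σ C r c₀ a ∧ a < d ∧
      σ i ≤ r ∧ A (σ i) a = true ∧ A (σ i) d = true ∧
      ((A (σ i) c₀ = true ∧ c₀ ≤ a) ∨ g ≤ pCount A σ r i a) := by
    intro b
    induction b using WellFoundedLT.induction with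
    | _ b ihb =>
    intro hb hlink
    obtain ⟨hbd, hbC, hdC, j, hj, hjb, hjd⟩ := hlink
    by_cases hbc : b = c₀
    · subst hbc
      exact ⟨b, j, hb, hbd, hj, hjb, hjd, Or.inl ⟨hjb, le_refl _⟩⟩
    · obtain ⟨a, i, ha, hab, hi, hia, hib, hgood⟩ := ihd b hbd hb hbc
      have haC : a ∈ C := reach_mem hc₀ ha
      cases hid : A (σ i) d with
      | true => exact ⟨a, i, ha, hab.trans hbd, hi, hia, hid, hgood⟩
      | false =>
        have hne' : σ i ≠ σ j := by
          intro h
          rw [h, hjd] at hid
          exact Bool.noConfusion hid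
        have hij : σ i < σ j := by
          rcases lt_or_gt_of_ne hne' with h | h
          · exact h
          · exact absurd ((isPat_patG _ _ _ _ _).mpr ⟨h, hbd, hjb, hjd, hib, hid⟩)
              (hfree j i b hbC d hdC)
        cases hja : A (σ j) a with
        | true =>
          exact ihb a hab ha ⟨hab.trans hbd, haC, hdC, j, hj, hja, hjd⟩
        | false =>
          refine ⟨b, j, hb, hbd, hj, hjb, hjd, Or.inr ?_⟩
          -- counting
          let Hb : Finset (Fin n) := univ.filter fun f => f < b ∧ A (σ i) f = true ∧ A (σ j) f = true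
          let Ha : Finset (Fin n) := univ.filter fun f => f < a ∧ A (σ i) f = true ∧ A (σ j) f = true
          have hHb : l ≤ Hb.card := by
            have := hdel i j b hbC hib hjb
            convert this
          have hHa : Ha.card ≤ V := by
            have := hcov i j hij a haC hia hja
            convert this
          let Mid := Hb \ Ha
          have hMid : l - V ≤ Mid.card := by
            have := le_card_sdiff Ha Hb
            have h2 : Mid.card = (Hb \ Ha).card := rfl
            omega
          have hMidmem : ∀ f ∈ Mid, a < f ∧ f < b ∧ A (σ i) f = true ∧ A (σ j) f = true := by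
            intro f hf
            obtain ⟨h1, h2⟩ := mem_sdiff.mp hf
            simp only [Hb, Ha, mem_filter, mem_univ, true_and, not_and] at h1 h2
            refine ⟨?_, h1⟩
            have hle : a ≤ f := by
              by_contra hlt
              exact (h2 (not_le.mp hlt) h1.2.1) h1.2.2
            refine lt_of_le_of_ne hle ?_
            rintro rfl
            rw [hja] at h1
            exact Bool.noConfusion h1.2.2
          -- zeros of the row in `Mid`
          have hzero : (Mid.filter fun f => A r f = false).card ≤ g := by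
            rcases hgood with ⟨hic, hca⟩ | hpa
            · refine le_trans (card_le_card ?_) hF
              intro f hf
              simp only [mem_filter] at hf
              have := hMidmem f hf.1
              simp only [mem_filter, mem_univ, true_and]
              exact ⟨lt_of_le_of_lt hca this.1, hf.2, i, hi, hic, this.2.2.1⟩
            · refine le_trans (card_le_card ?_) hZ
              intro f hf
              simp only [mem_filter] at hf
              have := hMidmem f hf.1
              simp only [zSet, mem_biUnion, mem_univ, true_and, mem_filter]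
              exact ⟨i, hi, hf.2, this.2.2.1, hpa.trans (pCount_mono r i this.1.le)⟩
          have hone : (Mid.filter fun f => A r f = true).card ≤ pCount A σ r j b := by
            apply card_le_card
            intro f hf
            simp only [mem_filter] at hf
            have := hMidmem f hf.1
            simp only [mem_filter, mem_univ, true_and]
            exact ⟨this.2.1, this.2.2.2, hf.2⟩
          have hsplit : Mid.card = (Mid.filter fun f => A r f = true).card
              + (Mid.filter fun f => A r f = false).card := by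
            have := card_filter_add_card_filter_not (s := Mid) (fun f => A r f = true)
            simp only [Bool.not_eq_true] at this
            exact this.symm
          omega
  -- use the predecessor of `d`
  rcases Relation.ReflTransGen.cases_tail hd with h | ⟨b, hb, hlink⟩
  · exact absurd h hne
  · exact inner b hb hlink

open Classical in
/-- For a row with few copies: a root path (or the empty set) close to the row. -/
theorem row_root (hfree : ∀ i j, ∀ c ∈ C, ∀ d ∈ C, ¬ IsPat patG A (σ i) (σ j) c d)
    {V l g : ℕ} (hl : V + 2 * g ≤ l) (hg : 1 ≤ g)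
    (hcov : ∀ i j, σ i < σ j → ∀ a ∈ C, A (σ i) a = true → A (σ j) a = false →
      (univ.filter fun f => f < a ∧ A (σ i) f = true ∧ A (σ j) f = true).card ≤ V)
    (hdel : ∀ i j, ∀ b ∈ C, A (σ i) b = true → A (σ j) b = true →
      l ≤ (univ.filter fun f => f < b ∧ A (σ i) f = true ∧ A (σ j) f = true).card)
    (r : Fin n) (hgen : genG A σ r ≤ g * g) :
    ∃ W : Finset (Fin n), (W = ∅ ∨ ∃ c₀ ∈ C, ∀ d, d ∈ W ↔ Reach A σ C r c₀ d) ∧
      ((C.filter fun c => A r c = true) \ W).card + ((C.filter fun c => A r c = false) ∩ W).card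
        ≤ 3 * g + 2 * Nat.sqrt (tailG A σ r) := by
  set τ := Nat.sqrt (tailG A σ r) with hτ
  let Eg : Finset (Fin n × Fin n) := univ.filter fun x =>
    x.1 < x.2 ∧ A r x.1 = true ∧ A r x.2 = false ∧ Both A σ r x.1 x.2
  let Eh : Finset (Fin n × Fin n) := univ.filter fun x =>
    x.1 < x.2 ∧ A r x.1 = true ∧ A r x.2 = true ∧ ¬ Both A σ r x.1 x.2
  have hEh : Eh.card = tailG A σ r := rfl
  have hEg : Eg.card ≤ g * g := by
    refine le_trans ?_ hgen
    unfold genG patCount
    refine le_trans (card_le_card ?_) card_biUnion_le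
    intro x hx
    simp only [Eg, mem_filter, mem_univ, true_and] at hx
    obtain ⟨h1, h2, h3, i, hi, h4, h5⟩ := hx
    simp only [mem_biUnion, mem_univ, true_and, mem_filter]
    refine ⟨i, (isPat_patG _ _ _ _ _).mpr ⟨?_, h1, h4, h5, h2, h3⟩⟩
    refine lt_of_le_of_ne hi ?_
    intro h
    rw [h, h3] at h5
    exact Bool.noConfusion h5
  let ones : Finset (Fin n) := C.filter fun c => A r c = true
  let BadG : Finset (Fin n) := ones.filter fun c => g + 1 ≤ (Eg.filter fun x => x.1 = c).card
  let BadH : Finset (Fin n) := ones.filter fun c => τ + 1 ≤ (Eh.filter fun x => x.1 = c).card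
  have hBadG : BadG.card ≤ g := by
    have h1 : BadG.card * (g + 1) ≤ Eg.card :=
      bad_count Eg (g + 1) BadG (fun c hc => (mem_filter.mp hc).2)
    by_contra hcon
    push Not at hcon
    have h2 : (g + 1) * (g + 1) ≤ BadG.card * (g + 1) := Nat.mul_le_mul_right _ hcon
    nlinarith
  have hBadH : BadH.card ≤ τ := by
    have h1 : BadH.card * (τ + 1) ≤ Eh.card :=
      bad_count Eh (τ + 1) BadH (fun c hc => (mem_filter.mp hc).2)
    by_contra hcon
    push Not at hcon
    have h2 : (τ + 1) * (τ + 1) ≤ BadH.card * (τ + 1) := Nat.mul_le_mul_right _ hcon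
    have h3 := Nat.lt_succ_sqrt (tailG A σ r)
    rw [← hτ, hEh] at *
    simp only [Nat.succ_eq_add_one] at h3
    omega
  have hZ : (zSet A σ r g).card ≤ g := by
    have h1 := zSet_card_mul_le (A := A) (σ := σ) r g
    have h2 := h1.trans hgen
    exact Nat.le_of_mul_le_mul_right h2 hg
  by_cases hGd : (ones \ (BadG ∪ BadH)).Nonempty
  · -- a root exists
    let c₀ := (ones \ (BadG ∪ BadH)).min' hGd
    have hc₀mem : c₀ ∈ ones \ (BadG ∪ BadH) := min'_mem _ _
    have hc₀min : ∀ c ∈ ones \ (BadG ∪ BadH), c₀ ≤ c := fun c hc => min'_le _ c hc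
    have hc₀ones : c₀ ∈ ones := (mem_sdiff.mp hc₀mem).1
    have hc₀C : c₀ ∈ C := (mem_filter.mp hc₀ones).1
    have hc₀1 : A r c₀ = true := (mem_filter.mp hc₀ones).2
    have hc₀notG : c₀ ∉ BadG := fun h => (mem_sdiff.mp hc₀mem).2 (mem_union_left _ h)
    have hc₀notH : c₀ ∉ BadH := fun h => (mem_sdiff.mp hc₀mem).2 (mem_union_right _ h)
    have hfibG : (Eg.filter fun x => x.1 = c₀).card ≤ g := by
      by_contra hcon
      exact hc₀notG (mem_filter.mpr ⟨hc₀ones, by omega⟩)
    have hfibH : (Eh.filter fun x => x.1 = c₀).card ≤ τ := by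
      by_contra hcon
      exact hc₀notH (mem_filter.mpr ⟨hc₀ones, by omega⟩)
    let F : Finset (Fin n) := univ.filter fun f => c₀ < f ∧ A r f = false ∧ Both A σ r c₀ f
    have hF : F.card ≤ g := by
      refine le_trans ?_ hfibG
      refine card_le_card_of_injOn (fun f => (c₀, f)) ?_ ?_
      · intro f hf
        simp only [F, mem_coe, mem_filter, mem_univ, true_and] at hf
        simp only [Eg, mem_coe, mem_filter, mem_univ, true_and]
        exact ⟨⟨hf.1, hc₀1, hf.2.1, hf.2.2⟩, trivial⟩
      · intro f _ f' _ h
        exact (Prod.ext_iff.mp h).2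
    refine ⟨univ.filter fun d => Reach A σ C r c₀ d, Or.inr ⟨c₀, hc₀C, fun d => by simp⟩, ?_⟩
    have part1 : (ones \ univ.filter fun d => Reach A σ C r c₀ d).card ≤ g + τ + τ := by
      have hsub : ones \ (univ.filter fun d => Reach A σ C r c₀ d)
          ⊆ (BadG ∪ BadH) ∪ ((Eh.filter fun x => x.1 = c₀).image Prod.snd) := by
        intro c hc
        obtain ⟨hc1, hc2⟩ := mem_sdiff.mp hc
        simp only [mem_filter, mem_univ, true_and] at hc2
        have hne : c ≠ c₀ := by
          rintro rfl
          exact hc2 Relation.ReflTransGen.refl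
        rcases lt_or_gt_of_ne hne with hlt | hlt
        · apply mem_union_left
          by_contra hcon
          exact absurd (hc₀min c (mem_sdiff.mpr ⟨hc1, hcon⟩)) (not_le.mpr hlt)
        · apply mem_union_right
          simp only [mem_image, mem_filter]
          refine ⟨(c₀, c), ⟨?_, rfl⟩, rfl⟩
          simp only [Eh, mem_filter, mem_univ, true_and]
          refine ⟨hlt, hc₀1, (mem_filter.mp hc1).2, fun hb => hc2 ?_⟩
          exact Relation.ReflTransGen.single ⟨hlt, hc₀C, (mem_filter.mp hc1).1, hb⟩
      refine (card_le_card hsub).trans ((card_union_le _ _).trans ?_)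
      have h1 := card_union_le BadG BadH
      have h2 : ((Eh.filter fun x => x.1 = c₀).image Prod.snd).card ≤ τ :=
        card_image_le.trans hfibH
      omega
    have part2 : ((C.filter fun c => A r c = false) ∩ univ.filter fun d => Reach A σ C r c₀ d).card
        ≤ g + g := by
      have hsub : (C.filter fun c => A r c = false) ∩ (univ.filter fun d => Reach A σ C r c₀ d)
          ⊆ F ∪ zSet A σ r g := by
        intro d hd
        obtain ⟨hd1, hd2⟩ := mem_inter.mp hd
        have hd0 : A r d = false := (mem_filter.mp hd1).2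
        simp only [mem_filter, mem_univ, true_and] at hd2
        have hne : d ≠ c₀ := by
          rintro rfl
          rw [hc₀1] at hd0
          exact Bool.noConfusion hd0
        obtain ⟨a, i, _, had, hi, _, hid, hgood⟩ :=
          good_incoming hfree hl hcov hdel hc₀C hF hZ d hd2 hne
        rcases hgood with ⟨hic, hca⟩ | hpa
        · apply mem_union_left
          simp only [F, mem_filter, mem_univ, true_and]
          exact ⟨lt_of_le_of_lt hca had, hd0, i, hi, hic, hid⟩
        · apply mem_union_right
          simp only [zSet, mem_biUnion, mem_univ, true_and, mem_filter]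
          exact ⟨i, hi, hd0, hid, hpa.trans (pCount_mono r i had.le)⟩
      refine (card_le_card hsub).trans ((card_union_le _ _).trans ?_)
      omega
    have e1 : (C.filter fun c => A r c = true) = ones := rfl
    rw [e1]
    omega
  · -- no root
    refine ⟨∅, Or.inl rfl, ?_⟩
    have h0 : ones \ (BadG ∪ BadH) = ∅ := not_nonempty_iff_eq_empty.mp hGd
    have h1 : ones ⊆ BadG ∪ BadH := sdiff_eq_empty_iff_subset.mp h0
    simp only [sdiff_empty, inter_empty, card_empty, add_zero]
    have h2 := (card_le_card h1).trans (card_union_le _ _)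
    have e1 : (C.filter fun c => A r c = true) = ones := rfl
    rw [e1]
    omega

end row

open Classical in
/-- The structural theorem for the pattern `[[1,1],[1,0]]`. -/
theorem gamma_free_of_sample (A : Fin n → Fin n → Bool) (σ : Fin m → Fin n) (C : Finset (Fin n))
    (hC : C.Nonempty) (hfree : ∀ i j, ∀ c ∈ C, ∀ d ∈ C, ¬ IsPat patG A (σ i) (σ j) c d)
    {V l g : ℕ} (hl : V + 2 * g ≤ l) (hg : 1 ≤ g)
    (hcov : ∀ i j, σ i < σ j → ∀ a ∈ C, A (σ i) a = true → A (σ j) a = false →
      (univ.filter fun f => f < a ∧ A (σ i) f = true ∧ A (σ j) f = true).card ≤ V)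
    (hdel : ∀ i j, ∀ b ∈ C, A (σ i) b = true → A (σ j) b = true →
      l ≤ (univ.filter fun f => f < b ∧ A (σ i) f = true ∧ A (σ j) f = true).card) :
    ∃ (B : Fin n → Fin n → Bool) (bad : Finset (Fin n)),
      (∀ r ∈ bad, g * g < genG A σ r) ∧
      (∀ a b c d, ¬ IsPat patG B a b c d) ∧
      diffCount A B ≤ ∑ r, (3 * g + 2 * Nat.sqrt (tailG A σ r)) + n * bad.card + n * (Cᶜ).card := by
  have key : ∀ r : Fin n, ∃ W : Finset (Fin n),
      (W = ∅ ∨ ∃ c₀ ∈ C, ∀ d, d ∈ W ↔ Reach A σ C r c₀ d) ∧
      (genG A σ r ≤ g * g → ((C.filter fun c => A r c = true) \ W).card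
        + ((C.filter fun c => A r c = false) ∩ W).card ≤ 3 * g + 2 * Nat.sqrt (tailG A σ r)) ∧
      (¬ genG A σ r ≤ g * g → ((C.filter fun c => A r c = true) \ W).card
        + ((C.filter fun c => A r c = false) ∩ W).card ≤ n) := by
    intro r
    by_cases h : genG A σ r ≤ g * g
    · obtain ⟨W, h1, h2⟩ := row_root hfree hl hg hcov hdel r h
      exact ⟨W, h1, fun _ => h2, fun h' => absurd h h'⟩
    · refine ⟨∅, Or.inl rfl, fun h' => absurd h' h, fun _ => ?_⟩
      simp only [sdiff_empty, inter_empty, card_empty, add_zero]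
      simpa using card_le_univ (C.filter fun c => A r c = true)
  choose W hW1 hW2 hW3 using key
  obtain ⟨φ, hφm, hφC, hφid⟩ := exists_retraction C hC
  let bad : Finset (Fin n) := univ.filter fun r => g * g < genG A σ r
  refine ⟨fun r c => decide (φ c ∈ W r), bad, fun r hr => (mem_filter.mp hr).2, ?_, ?_⟩
  · intro a b c d hp
    rw [isPat_patG] at hp
    obtain ⟨hab, hcd, h1, h2, h3, h4⟩ := hp
    simp only [decide_eq_true_eq, decide_eq_false_iff_not] at h1 h2 h3 h4
    have hle : φ c ≤ φ d := hφm hcd.le
    have hlt : φ c < φ d := by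
      refine lt_of_le_of_ne hle ?_
      intro h
      rw [h] at h3
      exact h4 h3
    rcases hW1 a with hempty | ⟨c₀, _, hc₀⟩
    · rw [hempty] at h1
      simp at h1
    · have hr1 := (hc₀ _).mp h1
      have hr2 := (hc₀ _).mp h2
      have hcoh := reach_coh hfree hr1 hr2 hlt
      have hcoh' := reach_mono hab.le hcoh
      rcases hW1 b with hempty | ⟨c₁, _, hc₁⟩
      · rw [hempty] at h3
        simp at h3
      · have hr3 := (hc₁ _).mp h3
        exact h4 ((hc₁ _).mpr (hr3.trans hcoh'))
  · -- the cost
    have hsub : (univ.filter fun p : Fin n × Fin n => A p.1 p.2 ≠ decide (φ p.2 ∈ W p.1))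
        ⊆ univ.biUnion fun r : Fin n => (((C.filter fun c => A r c = true) \ W r) ∪
            ((C.filter fun c => A r c = false) ∩ W r) ∪ Cᶜ).image fun c => (r, c) := by
      intro p hp
      simp only [mem_filter, mem_univ, true_and] at hp
      simp only [mem_biUnion, mem_univ, true_and, mem_image]
      refine ⟨p.1, p.2, ?_, rfl⟩
      by_cases hpC : p.2 ∈ C
      · have : φ p.2 = p.2 := hφid _ hpC
        rw [this] at hp
        simp only [mem_union, mem_sdiff, mem_filter, mem_inter, mem_compl]
        cases hv : A p.1 p.2 with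
        | true =>
          rw [hv] at hp
          refine Or.inl (Or.inl ⟨⟨hpC, rfl⟩, ?_⟩)
          intro hmem
          apply hp
          simp [hmem]
        | false =>
          rw [hv] at hp
          refine Or.inl (Or.inr ⟨⟨hpC, rfl⟩, ?_⟩)
          by_contra hmem
          apply hp
          simp [hmem]
      · simp only [mem_union, mem_compl]
        exact Or.inr hpC
    have h1 : diffCount A (fun r c => decide (φ c ∈ W r))
        = (univ.filter fun p : Fin n × Fin n => A p.1 p.2 ≠ decide (φ p.2 ∈ W p.1)).card := rfl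
    rw [h1]
    refine (card_le_card hsub).trans (card_biUnion_le.trans ?_)
    have h2 : ∀ r ∈ (univ : Finset (Fin n)), ((((C.filter fun c => A r c = true) \ W r) ∪
            ((C.filter fun c => A r c = false) ∩ W r) ∪ Cᶜ).image fun c => (r, c)).card
        ≤ (3 * g + 2 * Nat.sqrt (tailG A σ r)) + (if r ∈ bad then n else 0) + (Cᶜ).card := by
      intro r _
      refine card_image_le.trans ((card_union_le _ _).trans ?_)
      have h3 := card_union_le ((C.filter fun c => A r c = true) \ W r)
        ((C.filter fun c => A r c = false) ∩ W r)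
      by_cases hr : genG A σ r ≤ g * g
      · have h4 := hW2 r hr
        have : r ∉ bad := by
          simp only [bad, mem_filter, mem_univ, true_and, not_lt]
          exact hr
        rw [if_neg this]
        omega
      · have h4 := hW3 r hr
        have : r ∈ bad := by
          simp only [bad, mem_filter, mem_univ, true_and]
          exact not_le.mp hr
        rw [if_pos this]
        omega
    refine (sum_le_sum h2).trans ?_
    rw [sum_add_distrib, sum_add_distrib, sum_const (Cᶜ).card, card_univ, Fintype.card_fin, smul_eq_mul]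
    have h5 : ∑ r : Fin n, (if r ∈ bad then n else 0) = n * bad.card := by
      rw [sum_ite_mem, univ_inter, sum_const, smul_eq_mul, mul_comm]
    rw [h5]

end Vale.Agent.P037
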