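import Vale.Agent.P037.Defs

/-!
Ordered copies of rectangular binary patterns.
-/

namespace Vale.Agent.P037

open Finset

open Classical in
/-- The number of ordered copies of the `a × b` pattern `H` in the `n × n` matrix `A`. -/
noncomputable def rcopies {a b n : ℕ} (H : Fin a → Fin b → Bool) (A : Fin n → Fin n → Bool) : ℕ :=
  (Finset.univ.filter fun p : (Fin a → Fin n) × (Fin b → Fin n) =>
    StrictMono p.1 ∧ StrictMono p.2 ∧ ∀ i j, A (p.1 i) (p.2 j) = H i j).card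

lemma rcopies_eq_copies {k n : ℕ} (H : Fin k → Fin k → Bool) (A : Fin n → Fin n → Bool) :
    rcopies H A = copies H A := rfl

/-- Polynomial removal for the pattern `H`. -/
def PolyRem {a b : ℕ} (H : Fin a → Fin b → Bool) : Prop :=
  ∃ (c : ℝ) (C : ℕ), 0 < c ∧ 0 < C ∧ ∀ (n : ℕ) (ε : ℝ) (A : Fin n → Fin n → Bool), 0 < ε → ε < 1 →
    (∀ B : Fin n → Fin n → Bool, rcopies H B = 0 → ε * (n : ℝ) ^ 2 ≤ diffCount A B) →
    c * ε ^ C * (n : ℝ) ^ (a + b) ≤ rcopies H A

/-- The alternating `2 × ℓ` pattern whose two rows are complementary. -/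
def alt (ℓ : ℕ) (s : Bool) : Fin 2 → Fin ℓ → Bool :=
  fun i j => xor (xor s (decide (i.val = 1))) (decide (j.val % 2 = 1))

lemma alt_zero (ℓ : ℕ) (s : Bool) (j : Fin ℓ) :
    alt ℓ s 0 j = xor s (decide (j.val % 2 = 1)) := by
  simp [alt]

lemma alt_one (ℓ : ℕ) (s : Bool) (j : Fin ℓ) :
    alt ℓ s 1 j = !alt ℓ s 0 j := by
  simp [alt]

end Vale.Agent.P037
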