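import Vale.Agent.P037.Basic

/-! Copies of a `2 × 2` pattern, written with four indices. -/

namespace Vale.Agent.P037

open Finset

variable {n : ℕ}

/-- `(a, b, c, d)` is a copy of the `2 × 2` pattern `H` in `A`. -/
def IsPat (H : Fin 2 → Fin 2 → Bool) (A : Fin n → Fin n → Bool) (a b c d : Fin n) : Prop :=
  a < b ∧ c < d ∧ A a c = H 0 0 ∧ A a d = H 0 1 ∧ A b c = H 1 0 ∧ A b d = H 1 1

instance (H : Fin 2 → Fin 2 → Bool) (A : Fin n → Fin n → Bool) (a b c d : Fin n) :
    Decidable (IsPat H A a b c d) := by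
  unfold IsPat; infer_instance

/-- The copies of `H` in `A` with given rows. -/
def patCount (H : Fin 2 → Fin 2 → Bool) (A : Fin n → Fin n → Bool) (a b : Fin n) : ℕ :=
  (univ.filter fun x : Fin n × Fin n => IsPat H A a b x.1 x.2).card

lemma strictMono_fin_two {f : Fin 2 → Fin n} : StrictMono f ↔ f 0 < f 1 := by
  rw [Fin.strictMono_iff_lt_succ]
  simp

lemma copies_eq_sum (H : Fin 2 → Fin 2 → Bool) (A : Fin n → Fin n → Bool) :
    copies H A = ∑ a, ∑ b, patCount H A a b := by
  classical
  have h1 : copies H A = (univ.filter fun x : (Fin n × Fin n) × (Fin n × Fin n) =>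
      IsPat H A x.1.1 x.1.2 x.2.1 x.2.2).card := by
    unfold copies
    refine card_nbij' (fun p => ((p.1 0, p.1 1), (p.2 0, p.2 1)))
      (fun x => (![x.1.1, x.1.2], ![x.2.1, x.2.2])) ?_ ?_ ?_ ?_
    · intro p hp
      simp only [coe_filter, mem_univ, true_and, Set.mem_setOf_eq] at hp ⊢
      obtain ⟨h1, h2, h3⟩ := hp
      exact ⟨strictMono_fin_two.mp h1, strictMono_fin_two.mp h2, h3 0 0, h3 0 1, h3 1 0, h3 1 1⟩
    · intro x hx
      simp only [coe_filter, mem_univ, true_and, Set.mem_setOf_eq] at hx ⊢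
      obtain ⟨h1, h2, h3, h4, h5, h6⟩ := hx
      refine ⟨strictMono_fin_two.mpr (by simpa using h1), strictMono_fin_two.mpr (by simpa using h2), ?_⟩
      intro i j
      fin_cases i <;> fin_cases j <;> simp [h3, h4, h5, h6]
    · intro p _
      ext i
      · fin_cases i <;> simp
      · fin_cases i <;> simp
    · intro x _
      simp
  rw [h1]
  simp only [patCount, card_filter]
  rw [Fintype.sum_prod_type]
  simp only [Fintype.sum_prod_type]

lemma copies_eq_zero_of {H : Fin 2 → Fin 2 → Bool} {A : Fin n → Fin n → Bool}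
    (h : ∀ a b c d, ¬ IsPat H A a b c d) : copies H A = 0 := by
  rw [copies_eq_sum]
  refine Finset.sum_eq_zero fun a _ => Finset.sum_eq_zero fun b _ => ?_
  simp only [patCount, card_eq_zero, filter_eq_empty_iff]
  intro x _
  exact h a b x.1 x.2

lemma isPat_of_copies_eq_zero {H : Fin 2 → Fin 2 → Bool} {A : Fin n → Fin n → Bool}
    (h : copies H A = 0) (a b c d : Fin n) : ¬ IsPat H A a b c d := by
  intro hp
  rw [copies_eq_sum, Finset.sum_eq_zero_iff] at h
  have h1 := h a (mem_univ _)
  rw [Finset.sum_eq_zero_iff] at h1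
  have h2 := h1 b (mem_univ _)
  simp only [patCount, card_eq_zero, filter_eq_empty_iff] at h2
  exact h2 (mem_univ (c, d)) hp

end Vale.Agent.P037
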